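import Vale.Agent.Lib.P154N.D7.Data

/-!
# Leaves of the tree of triangles
-/

namespace Vale.Agent.Lib.P154N.D7

open Vale.Agent.Lib.P154K Vale.Agent.Lib.P154Neg

theorem l0 : HoldsN X2 (Trg.left (Trg.left (Trg.left (chamberN 5 13)))) (Trg.left (Trg.left (Trg.left (chamberN 5 13)))) :=
  leaf ok2 (G379 _ rfl) (G197 _ rfl) (G197 _ rfl) (by decide +kernel)
theorem l1 : HoldsN X2 (Trg.left (Trg.left (Trg.left (chamberN 5 13)))) (Trg.right (Trg.left (Trg.left (chamberN 5 13)))) :=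
  leaf ok2 (G344 _ rfl) (G247 _ rfl) (G238 _ rfl) (by decide +kernel)
theorem l2 : HoldsN X2 (Trg.left (Trg.left (Trg.left (chamberN 5 13)))) (Trg.right (Trg.left (chamberN 5 13))) :=
  leaf ok2 (G379 _ rfl) (G198 _ rfl) (G166 _ rfl) (by decide +kernel)
theorem l3 : HoldsN X2 (Trg.right (Trg.left (Trg.left (chamberN 5 13)))) (Trg.left (Trg.left (Trg.left (chamberN 5 13)))) :=
  leaf ok2 (G344 _ rfl) (G238 _ rfl) (G247 _ rfl) (by decide +kernel)
theorem l4 : HoldsN X2 (Trg.right (Trg.left (Trg.left (chamberN 5 13)))) (Trg.right (Trg.left (Trg.left (chamberN 5 13)))) :=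
  leaf ok2 (G336 _ rfl) (G290 _ rfl) (G290 _ rfl) (by decide +kernel)
theorem l5 : HoldsN X2 (Trg.right (Trg.left (Trg.left (chamberN 5 13)))) (Trg.right (Trg.left (chamberN 5 13))) :=
  leaf ok2 (G344 _ rfl) (G240 _ rfl) (G240 _ rfl) (by decide +kernel)
theorem l6 : HoldsN X2 (Trg.right (Trg.left (chamberN 5 13))) (Trg.left (Trg.left (Trg.left (chamberN 5 13)))) :=
  leaf ok2 (G379 _ rfl) (G166 _ rfl) (G198 _ rfl) (by decide +kernel)
theorem l7 : HoldsN X2 (Trg.right (Trg.left (chamberN 5 13))) (Trg.right (Trg.left (Trg.left (chamberN 5 13)))) :=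
  leaf ok2 (G344 _ rfl) (G240 _ rfl) (G240 _ rfl) (by decide +kernel)
theorem l8 : HoldsN X2 (Trg.left (Trg.right (Trg.left (chamberN 5 13)))) (Trg.left (Trg.right (Trg.left (chamberN 5 13)))) :=
  leaf ok2 (G375 _ rfl) (G195 _ rfl) (G195 _ rfl) (by decide +kernel)
theorem l9 : HoldsN X2 (Trg.left (Trg.right (Trg.left (chamberN 5 13)))) (Trg.right (Trg.right (Trg.left (chamberN 5 13)))) :=
  leaf ok2 (G377 _ rfl) (G165 _ rfl) (G241 _ rfl) (by decide +kernel)

end Vale.Agent.Lib.P154N.D7
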