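import Vale.Agent.Lib.P154N.D7.Data

/-!
# Leaves of the tree of triangles
-/

namespace Vale.Agent.Lib.P154N.D7

open Vale.Agent.Lib.P154K Vale.Agent.Lib.P154Neg

theorem l10 : HoldsN X2 (Trg.right (Trg.right (Trg.left (chamberN 5 13)))) (Trg.right (Trg.left (chamberN 5 13))) :=
  leaf ok2 (G379 _ rfl) (G173 _ rfl) (G166 _ rfl) (by decide +kernel)
theorem l11 : HoldsN X2 (Trg.left (chamberN 5 13)) (Trg.left (Trg.right (chamberN 5 13))) :=
  leaf ok2 (G361 _ rfl) (G108 _ rfl) (G202 _ rfl) (by decide +kernel)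
theorem l12 : HoldsN X2 (Trg.left (Trg.left (Trg.left (Trg.left (chamberN 5 13))))) (Trg.left (Trg.right (Trg.right (chamberN 5 13)))) :=
  leaf ok2 (G342 _ rfl) (G204 _ rfl) (G294 _ rfl) (by decide +kernel)
theorem l13 : HoldsN X2 (Trg.right (Trg.left (Trg.left (Trg.left (chamberN 5 13))))) (Trg.left (Trg.left (Trg.right (Trg.right (chamberN 5 13))))) :=
  leaf ok2 (G375 _ rfl) (G178 _ rfl) (G242 _ rfl) (by decide +kernel)
theorem l14 : HoldsN X2 (Trg.right (Trg.left (Trg.left (Trg.left (chamberN 5 13))))) (Trg.right (Trg.left (Trg.right (Trg.right (chamberN 5 13))))) :=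
  leaf ok2 (G344 _ rfl) (G243 _ rfl) (G243 _ rfl) (by decide +kernel)
theorem l15 : HoldsN X2 (Trg.left (Trg.left (Trg.left (chamberN 5 13)))) (Trg.right (Trg.right (Trg.right (chamberN 5 13)))) :=
  leaf ok2 (G379 _ rfl) (G178 _ rfl) (G198 _ rfl) (by decide +kernel)
theorem l16 : HoldsN X2 (Trg.right (Trg.left (Trg.left (chamberN 5 13)))) (Trg.left (Trg.left (Trg.right (Trg.right (chamberN 5 13))))) :=
  leaf ok2 (G338 _ rfl) (G243 _ rfl) (G294 _ rfl) (by decide +kernel)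
theorem l17 : HoldsN X2 (Trg.left (Trg.left (Trg.right (Trg.left (Trg.left (chamberN 5 13)))))) (Trg.right (Trg.left (Trg.right (Trg.right (chamberN 5 13))))) :=
  leaf ok2 (G336 _ rfl) (G289 _ rfl) (G290 _ rfl) (by decide +kernel)
theorem l18 : HoldsN X2 (Trg.right (Trg.left (Trg.right (Trg.left (Trg.left (chamberN 5 13)))))) (Trg.right (Trg.left (Trg.right (Trg.right (chamberN 5 13))))) :=
  leaf ok2 (G332 _ rfl) (G302 _ rfl) (G303 _ rfl) (by decide +kernel)
theorem l19 : HoldsN X2 (Trg.right (Trg.right (Trg.left (Trg.left (chamberN 5 13))))) (Trg.right (Trg.left (Trg.right (Trg.right (chamberN 5 13))))) :=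
  leaf ok2 (G336 _ rfl) (G289 _ rfl) (G292 _ rfl) (by decide +kernel)

end Vale.Agent.Lib.P154N.D7
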