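import Vale.Agent.Lib.P154N.D7.Data

/-!
# Leaves of the tree of triangles
-/

namespace Vale.Agent.Lib.P154N.D7

open Vale.Agent.Lib.P154K Vale.Agent.Lib.P154Neg

theorem l100 : HoldsN X2 (Trg.right (Trg.left (Trg.right (Trg.right (Trg.left (chamberN 5 13)))))) (Trg.right (Trg.right (Trg.right (Trg.right (chamberNR 5 13))))) :=
  leaf ok2 (G387 _ rfl) (G139 _ rfl) (G293 _ rfl) (by decide +kernel)
theorem l101 : HoldsN X2 (Trg.right (Trg.right (Trg.right (Trg.left (chamberN 5 13))))) (Trg.right (Trg.right (Trg.right (chamberNR 5 13)))) :=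
  leaf ok2 (G343 _ rfl) (G134 _ rfl) (G337 _ rfl) (by decide +kernel)
theorem l102 : HoldsN X2 (Trg.left (Trg.left (Trg.right (chamberN 5 13)))) (Trg.left (Trg.left (Trg.left (Trg.left (chamberNR 5 13))))) :=
  leaf ok2 (G368 _ rfl) (G140 _ rfl) (G308 _ rfl) (by decide +kernel)
theorem l103 : HoldsN X2 (Trg.left (Trg.left (Trg.right (chamberN 5 13)))) (Trg.right (Trg.left (Trg.left (Trg.left (chamberNR 5 13))))) :=
  leaf ok2 (G410 _ rfl) (G113 _ rfl) (G295 _ rfl) (by decide +kernel)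
theorem l104 : HoldsN X2 (Trg.left (Trg.right (Trg.left (Trg.right (chamberN 5 13))))) (Trg.left (Trg.left (Trg.left (Trg.left (chamberNR 5 13))))) :=
  leaf ok2 (G378 _ rfl) (G131 _ rfl) (G296 _ rfl) (by decide +kernel)
theorem l105 : HoldsN X2 (Trg.left (Trg.right (Trg.left (Trg.right (chamberN 5 13))))) (Trg.right (Trg.left (Trg.left (Trg.left (chamberNR 5 13))))) :=
  leaf ok2 (G430 _ rfl) (G101 _ rfl) (G246 _ rfl) (by decide +kernel)
theorem l106 : HoldsN X2 (Trg.right (Trg.right (Trg.left (Trg.right (chamberN 5 13))))) (Trg.left (Trg.left (Trg.left (chamberNR 5 13)))) :=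
  leaf ok2 (G380 _ rfl) (G113 _ rfl) (G269 _ rfl) (by decide +kernel)
theorem l107 : HoldsN X2 (Trg.left (Trg.right (chamberN 5 13))) (Trg.right (Trg.left (Trg.left (chamberNR 5 13)))) :=
  leaf ok2 (G349 _ rfl) (G181 _ rfl) (G297 _ rfl) (by decide +kernel)
theorem l108 : HoldsN X2 (Trg.left (Trg.left (Trg.right (chamberN 5 13)))) (Trg.left (Trg.right (Trg.left (chamberNR 5 13)))) :=
  leaf ok2 (G369 _ rfl) (G114 _ rfl) (G367 _ rfl) (by decide +kernel)
theorem l109 : HoldsN X2 (Trg.left (Trg.left (Trg.right (chamberN 5 13)))) (Trg.left (Trg.right (Trg.right (Trg.left (chamberNR 5 13))))) :=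
  leaf ok2 (G420 _ rfl) (G112 _ rfl) (G298 _ rfl) (by decide +kernel)

end Vale.Agent.Lib.P154N.D7
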