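import Vale.Agent.Lib.P154N.D7.Data

/-!
# Leaves of the tree of triangles
-/

namespace Vale.Agent.Lib.P154N.D7

open Vale.Agent.Lib.P154K Vale.Agent.Lib.P154Neg

theorem l1000 : HoldsN X7 (Trg.left (Trg.left (Trg.left (Trg.right (Trg.right (chamber 1 1)))))) (Trg.left (Trg.right (Trg.left (Trg.right (Trg.right (chamberNR 5 13)))))) :=
  leaf ok7 (G181 _ rfl) (G340 _ rfl) (G329 _ rfl) (by decide +kernel)
theorem l1001 : HoldsN X7 (Trg.right (Trg.left (Trg.left (Trg.right (Trg.right (chamber 1 1)))))) (Trg.left (Trg.right (Trg.left (Trg.right (Trg.right (chamberNR 5 13)))))) :=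
  leaf ok7 (G144 _ rfl) (G340 _ rfl) (G340 _ rfl) (by decide +kernel)
theorem l1002 : HoldsN X7 (Trg.left (Trg.left (Trg.right (Trg.right (chamber 1 1))))) (Trg.right (Trg.right (Trg.left (Trg.right (Trg.right (chamberNR 5 13)))))) :=
  leaf ok7 (G121 _ rfl) (G387 _ rfl) (G311 _ rfl) (by decide +kernel)
theorem l1003 : HoldsN X7 (Trg.right (Trg.left (Trg.right (Trg.right (chamber 1 1))))) (Trg.left (Trg.left (Trg.right (Trg.right (chamberNR 5 13))))) :=
  leaf ok7 (G124 _ rfl) (G350 _ rfl) (G312 _ rfl) (by decide +kernel)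
theorem l1004 : HoldsN X7 (Trg.left (Trg.right (Trg.left (Trg.right (Trg.right (chamber 1 1)))))) (Trg.right (Trg.left (Trg.right (Trg.right (chamberNR 5 13))))) :=
  leaf ok7 (G204 _ rfl) (G340 _ rfl) (G329 _ rfl) (by decide +kernel)
theorem l1005 : HoldsN X7 (Trg.right (Trg.right (Trg.left (Trg.right (Trg.right (chamber 1 1)))))) (Trg.right (Trg.left (Trg.right (Trg.right (chamberNR 5 13))))) :=
  leaf ok7 (G196 _ rfl) (G345 _ rfl) (G307 _ rfl) (by decide +kernel)
theorem l1006 : HoldsN X7 (Trg.left (Trg.right (Trg.right (chamber 1 1)))) (Trg.right (Trg.right (Trg.right (chamberNR 5 13)))) :=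
  leaf ok7 (G69 _ rfl) (G362 _ rfl) (G280 _ rfl) (by decide +kernel)
theorem l1007 : HoldsN X7 (Trg.right (Trg.right (Trg.right (chamber 1 1)))) (Trg.left (Trg.left (Trg.right (Trg.right (chamberNR 5 13))))) :=
  leaf ok7 (G66 _ rfl) (G415 _ rfl) (G279 _ rfl) (by decide +kernel)
theorem l1008 : HoldsN X7 (Trg.right (Trg.right (Trg.right (chamber 1 1)))) (Trg.right (Trg.left (Trg.right (Trg.right (chamberNR 5 13))))) :=
  leaf ok7 (G116 _ rfl) (G358 _ rfl) (G273 _ rfl) (by decide +kernel)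
theorem l1009 : HoldsN X7 (Trg.right (Trg.right (Trg.right (chamber 1 1)))) (Trg.right (Trg.right (Trg.right (chamberNR 5 13)))) :=
  leaf ok7 (G52 _ rfl) (G443 _ rfl) (G229 _ rfl) (by decide +kernel)

end Vale.Agent.Lib.P154N.D7
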