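import Vale.Agent.Lib.P154N.D7.Data

/-!
# Leaves of the tree of triangles
-/

namespace Vale.Agent.Lib.P154N.D7

open Vale.Agent.Lib.P154K Vale.Agent.Lib.P154Neg

theorem l110 : HoldsN X2 (Trg.left (Trg.left (Trg.right (chamberN 5 13)))) (Trg.right (Trg.right (Trg.right (Trg.left (chamberNR 5 13))))) :=
  leaf ok2 (G369 _ rfl) (G114 _ rfl) (G337 _ rfl) (by decide +kernel)
theorem l111 : HoldsN X2 (Trg.left (Trg.right (Trg.left (Trg.right (chamberN 5 13))))) (Trg.left (Trg.right (Trg.left (chamberNR 5 13)))) :=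
  leaf ok2 (G379 _ rfl) (G101 _ rfl) (G367 _ rfl) (by decide +kernel)
theorem l112 : HoldsN X2 (Trg.left (Trg.right (Trg.left (Trg.right (chamberN 5 13))))) (Trg.left (Trg.right (Trg.right (Trg.left (chamberNR 5 13))))) :=
  leaf ok2 (G437 _ rfl) (G100 _ rfl) (G251 _ rfl) (by decide +kernel)
theorem l113 : HoldsN X2 (Trg.left (Trg.right (Trg.left (Trg.right (chamberN 5 13))))) (Trg.right (Trg.right (Trg.right (Trg.left (chamberNR 5 13))))) :=
  leaf ok2 (G379 _ rfl) (G101 _ rfl) (G335 _ rfl) (by decide +kernel)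
theorem l114 : HoldsN X2 (Trg.right (Trg.right (Trg.left (Trg.right (chamberN 5 13))))) (Trg.left (Trg.right (Trg.left (chamberNR 5 13)))) :=
  leaf ok2 (G376 _ rfl) (G114 _ rfl) (G367 _ rfl) (by decide +kernel)
theorem l115 : HoldsN X2 (Trg.right (Trg.right (Trg.left (Trg.right (chamberN 5 13))))) (Trg.right (Trg.right (Trg.left (chamberNR 5 13)))) :=
  leaf ok2 (G380 _ rfl) (G113 _ rfl) (G269 _ rfl) (by decide +kernel)
theorem l116 : HoldsN X2 (Trg.left (Trg.right (chamberN 5 13))) (Trg.left (Trg.right (chamberNR 5 13))) :=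
  leaf ok2 (G435 _ rfl) (G104 _ rfl) (G110 _ rfl) (by decide +kernel)
theorem l117 : HoldsN X2 (Trg.left (Trg.left (Trg.right (chamberN 5 13)))) (Trg.left (Trg.left (Trg.right (Trg.right (chamberNR 5 13))))) :=
  leaf ok2 (G404 _ rfl) (G178 _ rfl) (G239 _ rfl) (by decide +kernel)
theorem l118 : HoldsN X2 (Trg.left (Trg.left (Trg.right (chamberN 5 13)))) (Trg.right (Trg.left (Trg.right (Trg.right (chamberNR 5 13))))) :=
  leaf ok2 (G345 _ rfl) (G196 _ rfl) (G292 _ rfl) (by decide +kernel)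
theorem l119 : HoldsN X2 (Trg.left (Trg.left (Trg.right (Trg.left (Trg.right (chamberN 5 13)))))) (Trg.left (Trg.left (Trg.right (Trg.right (chamberNR 5 13))))) :=
  leaf ok2 (G419 _ rfl) (G177 _ rfl) (G203 _ rfl) (by decide +kernel)

end Vale.Agent.Lib.P154N.D7
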