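import Vale.Agent.Lib.P154N.D7.Data

/-!
# Leaves of the tree of triangles
-/

namespace Vale.Agent.Lib.P154N.D7

open Vale.Agent.Lib.P154K Vale.Agent.Lib.P154Neg

theorem l120 : HoldsN X2 (Trg.right (Trg.left (Trg.right (Trg.left (Trg.right (chamberN 5 13)))))) (Trg.left (Trg.left (Trg.right (Trg.right (chamberNR 5 13))))) :=
  leaf ok2 (G420 _ rfl) (G177 _ rfl) (G179 _ rfl) (by decide +kernel)
theorem l121 : HoldsN X2 (Trg.left (Trg.right (Trg.left (Trg.right (chamberN 5 13))))) (Trg.right (Trg.left (Trg.right (Trg.right (chamberNR 5 13))))) :=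
  leaf ok2 (G349 _ rfl) (G181 _ rfl) (G243 _ rfl) (by decide +kernel)
theorem l122 : HoldsN X2 (Trg.right (Trg.right (Trg.left (Trg.right (chamberN 5 13))))) (Trg.left (Trg.right (Trg.right (chamberNR 5 13)))) :=
  leaf ok2 (G354 _ rfl) (G181 _ rfl) (G204 _ rfl) (by decide +kernel)
theorem l123 : HoldsN X2 (Trg.left (Trg.left (Trg.right (chamberN 5 13)))) (Trg.right (Trg.right (Trg.right (chamberNR 5 13)))) :=
  leaf ok2 (G410 _ rfl) (G113 _ rfl) (G241 _ rfl) (by decide +kernel)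
theorem l124 : HoldsN X2 (Trg.left (Trg.right (Trg.left (Trg.right (chamberN 5 13))))) (Trg.left (Trg.right (Trg.right (Trg.right (chamberNR 5 13))))) :=
  leaf ok2 (G430 _ rfl) (G101 _ rfl) (G203 _ rfl) (by decide +kernel)
theorem l125 : HoldsN X2 (Trg.left (Trg.right (Trg.left (Trg.right (chamberN 5 13))))) (Trg.right (Trg.right (Trg.right (Trg.right (chamberNR 5 13))))) :=
  leaf ok2 (G429 _ rfl) (G131 _ rfl) (G180 _ rfl) (by decide +kernel)
theorem l126 : HoldsN X2 (Trg.right (Trg.right (Trg.left (Trg.right (chamberN 5 13))))) (Trg.right (Trg.right (Trg.right (chamberNR 5 13)))) :=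
  leaf ok2 (G410 _ rfl) (G113 _ rfl) (G203 _ rfl) (by decide +kernel)
theorem l127 : HoldsN X2 (Trg.left (Trg.right (Trg.right (chamberN 5 13)))) (Trg.left (Trg.left (Trg.left (chamberNR 5 13)))) :=
  leaf ok2 (G349 _ rfl) (G181 _ rfl) (G294 _ rfl) (by decide +kernel)
theorem l128 : HoldsN X2 (Trg.left (Trg.left (Trg.right (Trg.right (chamberN 5 13))))) (Trg.right (Trg.left (Trg.left (chamberNR 5 13)))) :=
  leaf ok2 (G338 _ rfl) (G243 _ rfl) (G305 _ rfl) (by decide +kernel)
theorem l129 : HoldsN X2 (Trg.left (Trg.right (Trg.left (Trg.right (Trg.right (chamberN 5 13)))))) (Trg.right (Trg.left (Trg.left (chamberNR 5 13)))) :=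
  leaf ok2 (G332 _ rfl) (G289 _ rfl) (G326 _ rfl) (by decide +kernel)

end Vale.Agent.Lib.P154N.D7
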