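import Vale.Agent.Lib.P154N.D7.Data

/-!
# Leaves of the tree of triangles
-/

namespace Vale.Agent.Lib.P154N.D7

open Vale.Agent.Lib.P154K Vale.Agent.Lib.P154Neg

theorem l130 : HoldsN X2 (Trg.right (Trg.right (Trg.left (Trg.right (Trg.right (chamberN 5 13)))))) (Trg.right (Trg.left (Trg.left (chamberNR 5 13)))) :=
  leaf ok2 (G334 _ rfl) (G261 _ rfl) (G327 _ rfl) (by decide +kernel)
theorem l131 : HoldsN X2 (Trg.left (Trg.right (Trg.right (chamberN 5 13)))) (Trg.right (Trg.left (chamberNR 5 13))) :=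
  leaf ok2 (G349 _ rfl) (G181 _ rfl) (G297 _ rfl) (by decide +kernel)
theorem l132 : HoldsN X2 (Trg.right (Trg.right (Trg.right (chamberN 5 13)))) (Trg.left (Trg.left (Trg.left (Trg.left (chamberNR 5 13))))) :=
  leaf ok2 (G341 _ rfl) (G170 _ rfl) (G308 _ rfl) (by decide +kernel)
theorem l133 : HoldsN X2 (Trg.right (Trg.right (Trg.right (chamberN 5 13)))) (Trg.right (Trg.left (Trg.left (Trg.left (chamberNR 5 13))))) :=
  leaf ok2 (G388 _ rfl) (G121 _ rfl) (G295 _ rfl) (by decide +kernel)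
theorem l134 : HoldsN X2 (Trg.right (Trg.right (Trg.right (chamberN 5 13)))) (Trg.right (Trg.left (Trg.left (chamberNR 5 13)))) :=
  leaf ok2 (G340 _ rfl) (G204 _ rfl) (G309 _ rfl) (by decide +kernel)
theorem l135 : HoldsN X2 (Trg.right (Trg.right (Trg.right (chamberN 5 13)))) (Trg.left (Trg.right (Trg.left (chamberNR 5 13)))) :=
  leaf ok2 (G343 _ rfl) (G134 _ rfl) (G367 _ rfl) (by decide +kernel)
theorem l136 : HoldsN X2 (Trg.right (Trg.right (Trg.right (chamberN 5 13)))) (Trg.left (Trg.right (Trg.right (Trg.left (chamberNR 5 13))))) :=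
  leaf ok2 (G388 _ rfl) (G120 _ rfl) (G298 _ rfl) (by decide +kernel)
theorem l137 : HoldsN X2 (Trg.right (Trg.right (Trg.right (chamberN 5 13)))) (Trg.right (Trg.right (Trg.right (Trg.left (chamberNR 5 13))))) :=
  leaf ok2 (G343 _ rfl) (G134 _ rfl) (G337 _ rfl) (by decide +kernel)
theorem l138 : HoldsN X2 (Trg.right (Trg.right (chamberN 5 13))) (Trg.left (Trg.right (chamberNR 5 13))) :=
  leaf ok2 (G361 _ rfl) (G108 _ rfl) (G185 _ rfl) (by decide +kernel)
theorem l139 : HoldsN X2 (Trg.left (Trg.left (Trg.right (Trg.right (chamberN 5 13))))) (Trg.left (Trg.right (Trg.right (chamberNR 5 13)))) :=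
  leaf ok2 (G345 _ rfl) (G243 _ rfl) (G245 _ rfl) (by decide +kernel)

end Vale.Agent.Lib.P154N.D7
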