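import Vale.Agent.Lib.P154N.D7.Data

/-!
# Leaves of the tree of triangles
-/

namespace Vale.Agent.Lib.P154N.D7

open Vale.Agent.Lib.P154K Vale.Agent.Lib.P154Neg

theorem l140 : HoldsN X2 (Trg.right (Trg.left (Trg.right (Trg.right (chamberN 5 13))))) (Trg.left (Trg.left (Trg.right (Trg.right (chamberNR 5 13))))) :=
  leaf ok2 (G338 _ rfl) (G243 _ rfl) (G290 _ rfl) (by decide +kernel)
theorem l141 : HoldsN X2 (Trg.left (Trg.left (Trg.right (Trg.left (Trg.right (Trg.right (chamberN 5 13))))))) (Trg.left (Trg.right (Trg.left (Trg.right (Trg.right (chamberNR 5 13)))))) :=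
  leaf ok2 (G332 _ rfl) (G302 _ rfl) (G303 _ rfl) (by decide +kernel)
theorem l142 : HoldsN X2 (Trg.right (Trg.left (Trg.right (Trg.left (Trg.right (Trg.right (chamberN 5 13))))))) (Trg.left (Trg.right (Trg.left (Trg.right (Trg.right (chamberNR 5 13)))))) :=
  leaf ok2 (G331 _ rfl) (G302 _ rfl) (G325 _ rfl) (by decide +kernel)
theorem l143 : HoldsN X2 (Trg.left (Trg.right (Trg.left (Trg.right (Trg.right (chamberN 5 13)))))) (Trg.right (Trg.right (Trg.left (Trg.right (Trg.right (chamberNR 5 13)))))) :=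
  leaf ok2 (G332 _ rfl) (G289 _ rfl) (G303 _ rfl) (by decide +kernel)
theorem l144 : HoldsN X2 (Trg.right (Trg.right (Trg.left (Trg.right (Trg.right (chamberN 5 13)))))) (Trg.right (Trg.left (Trg.right (Trg.right (chamberNR 5 13))))) :=
  leaf ok2 (G334 _ rfl) (G261 _ rfl) (G303 _ rfl) (by decide +kernel)
theorem l145 : HoldsN X2 (Trg.left (Trg.right (Trg.right (chamberN 5 13)))) (Trg.right (Trg.right (Trg.right (chamberNR 5 13)))) :=
  leaf ok2 (G349 _ rfl) (G181 _ rfl) (G247 _ rfl) (by decide +kernel)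
theorem l146 : HoldsN X2 (Trg.right (Trg.right (Trg.right (chamberN 5 13)))) (Trg.left (Trg.left (Trg.right (Trg.right (chamberNR 5 13))))) :=
  leaf ok2 (G375 _ rfl) (G178 _ rfl) (G246 _ rfl) (by decide +kernel)
theorem l147 : HoldsN X2 (Trg.right (Trg.right (Trg.right (chamberN 5 13)))) (Trg.right (Trg.left (Trg.right (Trg.right (chamberNR 5 13))))) :=
  leaf ok2 (G340 _ rfl) (G204 _ rfl) (G292 _ rfl) (by decide +kernel)
theorem l148 : HoldsN X2 (Trg.right (Trg.right (Trg.right (chamberN 5 13)))) (Trg.right (Trg.right (Trg.right (chamberNR 5 13)))) :=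
  leaf ok2 (G388 _ rfl) (G121 _ rfl) (G248 _ rfl) (by decide +kernel)
theorem l149 : HoldsN X3 (Trg.left (Trg.left (Trg.left (Trg.left (chamber 1 1))))) (Trg.left (Trg.left (Trg.left (Trg.left (chamberN 5 13))))) :=
  leaf ok3 (G102 _ rfl) (G316 _ rfl) (G316 _ rfl) (by decide +kernel)

end Vale.Agent.Lib.P154N.D7
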