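import Vale.Agent.Lib.P154N.D7.Data

/-!
# Leaves of the tree of triangles
-/

namespace Vale.Agent.Lib.P154N.D7

open Vale.Agent.Lib.P154K Vale.Agent.Lib.P154Neg

theorem l150 : HoldsN X3 (Trg.left (Trg.left (Trg.left (Trg.left (chamber 1 1))))) (Trg.right (Trg.left (Trg.left (Trg.left (chamberN 5 13))))) :=
  leaf ok3 (G73 _ rfl) (G406 _ rfl) (G277 _ rfl) (by decide +kernel)
theorem l151 : HoldsN X3 (Trg.right (Trg.left (Trg.left (Trg.left (chamber 1 1))))) (Trg.left (Trg.left (Trg.left (Trg.left (chamberN 5 13))))) :=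
  leaf ok3 (G73 _ rfl) (G277 _ rfl) (G406 _ rfl) (by decide +kernel)
theorem l152 : HoldsN X3 (Trg.right (Trg.left (Trg.left (Trg.left (chamber 1 1))))) (Trg.right (Trg.left (Trg.left (Trg.left (chamberN 5 13))))) :=
  leaf ok3 (G31 _ rfl) (G407 _ rfl) (G407 _ rfl) (by decide +kernel)
theorem l153 : HoldsN X3 (Trg.left (Trg.left (Trg.left (chamber 1 1)))) (Trg.right (Trg.left (Trg.left (chamberN 5 13)))) :=
  leaf ok3 (G97 _ rfl) (G278 _ rfl) (G321 _ rfl) (by decide +kernel)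
theorem l154 : HoldsN X3 (Trg.left (Trg.left (Trg.left (Trg.left (chamber 1 1))))) (Trg.left (Trg.right (Trg.left (chamberN 5 13)))) :=
  leaf ok3 (G89 _ rfl) (G277 _ rfl) (G370 _ rfl) (by decide +kernel)
theorem l155 : HoldsN X3 (Trg.left (Trg.left (Trg.left (Trg.left (chamber 1 1))))) (Trg.left (Trg.right (Trg.right (Trg.left (chamberN 5 13))))) :=
  leaf ok3 (G72 _ rfl) (G391 _ rfl) (G281 _ rfl) (by decide +kernel)
theorem l156 : HoldsN X3 (Trg.left (Trg.left (Trg.left (Trg.left (chamber 1 1))))) (Trg.right (Trg.right (Trg.right (Trg.left (chamberN 5 13))))) :=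
  leaf ok3 (G89 _ rfl) (G317 _ rfl) (G351 _ rfl) (by decide +kernel)
theorem l157 : HoldsN X3 (Trg.right (Trg.left (Trg.left (Trg.left (chamber 1 1))))) (Trg.left (Trg.right (Trg.left (chamberN 5 13)))) :=
  leaf ok3 (G53 _ rfl) (G226 _ rfl) (G426 _ rfl) (by decide +kernel)
theorem l158 : HoldsN X3 (Trg.right (Trg.left (Trg.left (Trg.left (chamber 1 1))))) (Trg.left (Trg.right (Trg.right (Trg.left (chamberN 5 13))))) :=
  leaf ok3 (G29 _ rfl) (G393 _ rfl) (G433 _ rfl) (by decide +kernel)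
theorem l159 : HoldsN X3 (Trg.right (Trg.left (Trg.left (Trg.left (chamber 1 1))))) (Trg.right (Trg.right (Trg.right (Trg.left (chamberN 5 13))))) :=
  leaf ok3 (G53 _ rfl) (G276 _ rfl) (G424 _ rfl) (by decide +kernel)

end Vale.Agent.Lib.P154N.D7
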