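import Vale.Agent.Lib.P154N.D7.Data

/-!
# Leaves of the tree of triangles
-/

namespace Vale.Agent.Lib.P154N.D7

open Vale.Agent.Lib.P154K Vale.Agent.Lib.P154Neg

theorem l160 : HoldsN X3 (Trg.right (Trg.left (Trg.left (chamber 1 1)))) (Trg.left (Trg.left (Trg.left (chamberN 5 13)))) :=
  leaf ok3 (G97 _ rfl) (G321 _ rfl) (G278 _ rfl) (by decide +kernel)
theorem l161 : HoldsN X3 (Trg.right (Trg.left (Trg.left (chamber 1 1)))) (Trg.right (Trg.left (Trg.left (chamberN 5 13)))) :=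
  leaf ok3 (G172 _ rfl) (G314 _ rfl) (G314 _ rfl) (by decide +kernel)
theorem l162 : HoldsN X3 (Trg.right (Trg.left (Trg.left (chamber 1 1)))) (Trg.right (Trg.left (chamberN 5 13))) :=
  leaf ok3 (G97 _ rfl) (G283 _ rfl) (G283 _ rfl) (by decide +kernel)
theorem l163 : HoldsN X3 (Trg.left (Trg.right (Trg.left (chamber 1 1)))) (Trg.left (Trg.left (Trg.left (chamberN 5 13)))) :=
  leaf ok3 (G53 _ rfl) (G372 _ rfl) (G227 _ rfl) (by decide +kernel)
theorem l164 : HoldsN X3 (Trg.left (Trg.right (Trg.right (Trg.left (chamber 1 1))))) (Trg.left (Trg.left (Trg.left (chamberN 5 13)))) :=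
  leaf ok3 (G32 _ rfl) (G287 _ rfl) (G393 _ rfl) (by decide +kernel)
theorem l165 : HoldsN X3 (Trg.right (Trg.right (Trg.right (Trg.left (chamber 1 1))))) (Trg.left (Trg.left (Trg.left (Trg.left (chamberN 5 13))))) :=
  leaf ok3 (G89 _ rfl) (G351 _ rfl) (G317 _ rfl) (by decide +kernel)
theorem l166 : HoldsN X3 (Trg.right (Trg.right (Trg.right (Trg.left (chamber 1 1))))) (Trg.right (Trg.left (Trg.left (Trg.left (chamberN 5 13))))) :=
  leaf ok3 (G53 _ rfl) (G424 _ rfl) (G276 _ rfl) (by decide +kernel)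
theorem l167 : HoldsN X3 (Trg.right (Trg.left (chamber 1 1))) (Trg.right (Trg.left (Trg.left (chamberN 5 13)))) :=
  leaf ok3 (G97 _ rfl) (G283 _ rfl) (G283 _ rfl) (by decide +kernel)
theorem l168 : HoldsN X3 (Trg.left (Trg.right (Trg.left (chamber 1 1)))) (Trg.right (Trg.left (chamberN 5 13))) :=
  leaf ok3 (G53 _ rfl) (G372 _ rfl) (G232 _ rfl) (by decide +kernel)
theorem l169 : HoldsN X3 (Trg.left (Trg.right (Trg.right (Trg.left (chamber 1 1))))) (Trg.right (Trg.left (chamberN 5 13))) :=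
  leaf ok3 (G32 _ rfl) (G235 _ rfl) (G426 _ rfl) (by decide +kernel)

end Vale.Agent.Lib.P154N.D7
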