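import Vale.Agent.Lib.P154N.D7.Data

/-!
# Leaves of the tree of triangles
-/

namespace Vale.Agent.Lib.P154N.D7

open Vale.Agent.Lib.P154K Vale.Agent.Lib.P154Neg

theorem l170 : HoldsN X3 (Trg.right (Trg.right (Trg.right (Trg.left (chamber 1 1))))) (Trg.right (Trg.left (chamberN 5 13))) :=
  leaf ok3 (G53 _ rfl) (G363 _ rfl) (G285 _ rfl) (by decide +kernel)
theorem l171 : HoldsN X3 (Trg.left (Trg.left (Trg.left (Trg.left (chamber 1 1))))) (Trg.left (Trg.right (chamberN 5 13))) :=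
  leaf ok3 (G46 _ rfl) (G442 _ rfl) (G155 _ rfl) (by decide +kernel)
theorem l172 : HoldsN X3 (Trg.right (Trg.left (Trg.left (Trg.left (chamber 1 1))))) (Trg.left (Trg.right (chamberN 5 13))) :=
  leaf ok3 (G8 _ rfl) (G444 _ rfl) (G359 _ rfl) (by decide +kernel)
theorem l173 : HoldsN X3 (Trg.right (Trg.left (Trg.left (chamber 1 1)))) (Trg.left (Trg.right (chamberN 5 13))) :=
  leaf ok3 (G69 _ rfl) (G362 _ rfl) (G156 _ rfl) (by decide +kernel)
theorem l174 : HoldsN X3 (Trg.left (Trg.left (Trg.right (Trg.left (chamber 1 1))))) (Trg.left (Trg.left (Trg.right (chamberN 5 13)))) :=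
  leaf ok3 (G42 _ rfl) (G454 _ rfl) (G168 _ rfl) (by decide +kernel)
theorem l175 : HoldsN X3 (Trg.right (Trg.left (Trg.right (Trg.left (chamber 1 1))))) (Trg.left (Trg.left (Trg.left (Trg.left (Trg.right (chamberN 5 13)))))) :=
  leaf ok3 (G40 _ rfl) (G480 _ rfl) (G126 _ rfl) (by decide +kernel)
theorem l176 : HoldsN X3 (Trg.right (Trg.left (Trg.right (Trg.left (chamber 1 1))))) (Trg.right (Trg.left (Trg.left (Trg.left (Trg.right (chamberN 5 13)))))) :=
  leaf ok3 (G70 _ rfl) (G470 _ rfl) (G138 _ rfl) (by decide +kernel)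
theorem l177 : HoldsN X3 (Trg.right (Trg.left (Trg.right (Trg.left (chamber 1 1))))) (Trg.right (Trg.left (Trg.left (Trg.right (chamberN 5 13))))) :=
  leaf ok3 (G40 _ rfl) (G480 _ rfl) (G129 _ rfl) (by decide +kernel)
theorem l178 : HoldsN X3 (Trg.left (Trg.right (Trg.left (chamber 1 1)))) (Trg.left (Trg.right (Trg.left (Trg.right (chamberN 5 13))))) :=
  leaf ok3 (G32 _ rfl) (G477 _ rfl) (G82 _ rfl) (by decide +kernel)
theorem l179 : HoldsN X3 (Trg.left (Trg.right (Trg.left (chamber 1 1)))) (Trg.right (Trg.right (Trg.left (Trg.right (chamberN 5 13))))) :=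
  leaf ok3 (G42 _ rfl) (G455 _ rfl) (G109 _ rfl) (by decide +kernel)

end Vale.Agent.Lib.P154N.D7
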