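import Vale.Agent.Lib.P154N.D7.Data

/-!
# Leaves of the tree of triangles
-/

namespace Vale.Agent.Lib.P154N.D7

open Vale.Agent.Lib.P154K Vale.Agent.Lib.P154Neg

theorem l180 : HoldsN X3 (Trg.left (Trg.right (Trg.right (Trg.left (chamber 1 1))))) (Trg.left (Trg.left (Trg.right (chamberN 5 13)))) :=
  leaf ok3 (G16 _ rfl) (G473 _ rfl) (G285 _ rfl) (by decide +kernel)
theorem l181 : HoldsN X3 (Trg.left (Trg.right (Trg.right (Trg.left (chamber 1 1))))) (Trg.left (Trg.right (Trg.left (Trg.right (chamberN 5 13))))) :=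
  leaf ok3 (G6 _ rfl) (G488 _ rfl) (G231 _ rfl) (by decide +kernel)
theorem l182 : HoldsN X3 (Trg.left (Trg.right (Trg.right (Trg.left (chamber 1 1))))) (Trg.right (Trg.right (Trg.left (Trg.right (chamberN 5 13))))) :=
  leaf ok3 (G16 _ rfl) (G473 _ rfl) (G260 _ rfl) (by decide +kernel)
theorem l183 : HoldsN X3 (Trg.right (Trg.right (Trg.right (Trg.left (chamber 1 1))))) (Trg.left (Trg.right (chamberN 5 13))) :=
  leaf ok3 (G34 _ rfl) (G459 _ rfl) (G154 _ rfl) (by decide +kernel)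
theorem l184 : HoldsN X3 (Trg.left (Trg.left (Trg.left (Trg.left (chamber 1 1))))) (Trg.left (Trg.left (Trg.right (Trg.right (chamberN 5 13))))) :=
  leaf ok3 (G105 _ rfl) (G410 _ rfl) (G221 _ rfl) (by decide +kernel)
theorem l185 : HoldsN X3 (Trg.left (Trg.left (Trg.left (Trg.left (chamber 1 1))))) (Trg.right (Trg.left (Trg.right (Trg.right (chamberN 5 13))))) :=
  leaf ok3 (G136 _ rfl) (G345 _ rfl) (G272 _ rfl) (by decide +kernel)
theorem l186 : HoldsN X3 (Trg.right (Trg.left (Trg.left (Trg.left (chamber 1 1))))) (Trg.left (Trg.right (Trg.right (chamberN 5 13)))) :=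
  leaf ok3 (G69 _ rfl) (G362 _ rfl) (G347 _ rfl) (by decide +kernel)
theorem l187 : HoldsN X3 (Trg.left (Trg.left (Trg.left (Trg.left (chamber 1 1))))) (Trg.right (Trg.right (Trg.right (chamberN 5 13)))) :=
  leaf ok3 (G73 _ rfl) (G410 _ rfl) (G227 _ rfl) (by decide +kernel)
theorem l188 : HoldsN X3 (Trg.right (Trg.left (Trg.left (Trg.left (chamber 1 1))))) (Trg.right (Trg.right (Trg.right (chamberN 5 13)))) :=
  leaf ok3 (G31 _ rfl) (G412 _ rfl) (G359 _ rfl) (by decide +kernel)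
theorem l189 : HoldsN X3 (Trg.left (Trg.right (Trg.left (Trg.left (chamber 1 1))))) (Trg.left (Trg.left (Trg.right (Trg.right (chamberN 5 13))))) :=
  leaf ok3 (G124 _ rfl) (G350 _ rfl) (G272 _ rfl) (by decide +kernel)

end Vale.Agent.Lib.P154N.D7
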