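import Vale.Agent.Lib.P154N.D7.Data

/-!
# Leaves of the tree of triangles
-/

namespace Vale.Agent.Lib.P154N.D7

open Vale.Agent.Lib.P154K Vale.Agent.Lib.P154Neg

theorem l190 : HoldsN X3 (Trg.left (Trg.left (Trg.right (Trg.right (Trg.left (Trg.left (chamber 1 1))))))) (Trg.left (Trg.left (Trg.left (Trg.right (Trg.right (chamberN 5 13)))))) :=
  leaf ok3 (G179 _ rfl) (G384 _ rfl) (G291 _ rfl) (by decide +kernel)
theorem l191 : HoldsN X3 (Trg.right (Trg.left (Trg.right (Trg.right (Trg.left (Trg.left (chamber 1 1))))))) (Trg.left (Trg.left (Trg.left (Trg.right (Trg.right (chamberN 5 13)))))) :=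
  leaf ok3 (G178 _ rfl) (G401 _ rfl) (G264 _ rfl) (by decide +kernel)
theorem l192 : HoldsN X3 (Trg.left (Trg.right (Trg.right (Trg.left (Trg.left (chamber 1 1)))))) (Trg.left (Trg.right (Trg.left (Trg.left (Trg.right (Trg.right (chamberN 5 13))))))) :=
  leaf ok3 (G170 _ rfl) (G403 _ rfl) (G215 _ rfl) (by decide +kernel)
theorem l193 : HoldsN X3 (Trg.left (Trg.left (Trg.right (Trg.right (Trg.left (Trg.left (chamber 1 1))))))) (Trg.right (Trg.right (Trg.left (Trg.left (Trg.right (Trg.right (chamberN 5 13))))))) :=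
  leaf ok3 (G179 _ rfl) (G384 _ rfl) (G262 _ rfl) (by decide +kernel)
theorem l194 : HoldsN X3 (Trg.right (Trg.left (Trg.right (Trg.right (Trg.left (Trg.left (chamber 1 1))))))) (Trg.right (Trg.right (Trg.left (Trg.left (Trg.right (Trg.right (chamberN 5 13))))))) :=
  leaf ok3 (G178 _ rfl) (G401 _ rfl) (G244 _ rfl) (by decide +kernel)
theorem l195 : HoldsN X3 (Trg.right (Trg.right (Trg.right (Trg.left (Trg.left (chamber 1 1)))))) (Trg.left (Trg.left (Trg.right (Trg.right (chamberN 5 13))))) :=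
  leaf ok3 (G122 _ rfl) (G387 _ rfl) (G271 _ rfl) (by decide +kernel)
theorem l196 : HoldsN X3 (Trg.left (Trg.right (Trg.left (Trg.left (chamber 1 1))))) (Trg.right (Trg.left (Trg.right (Trg.right (chamberN 5 13))))) :=
  leaf ok3 (G172 _ rfl) (G340 _ rfl) (G310 _ rfl) (by decide +kernel)
theorem l197 : HoldsN X3 (Trg.right (Trg.right (Trg.left (Trg.left (chamber 1 1))))) (Trg.right (Trg.left (Trg.right (Trg.right (chamberN 5 13))))) :=
  leaf ok3 (G172 _ rfl) (G342 _ rfl) (G272 _ rfl) (by decide +kernel)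
theorem l198 : HoldsN X3 (Trg.left (Trg.right (Trg.left (Trg.left (chamber 1 1))))) (Trg.right (Trg.right (Trg.right (chamberN 5 13)))) :=
  leaf ok3 (G97 _ rfl) (G350 _ rfl) (G278 _ rfl) (by decide +kernel)
theorem l199 : HoldsN X3 (Trg.right (Trg.right (Trg.left (Trg.left (chamber 1 1))))) (Trg.left (Trg.right (Trg.right (Trg.right (chamberN 5 13))))) :=
  leaf ok3 (G94 _ rfl) (G389 _ rfl) (G257 _ rfl) (by decide +kernel)

end Vale.Agent.Lib.P154N.D7
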