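import Vale.Agent.Lib.P154N.D7.Data

/-!
# Leaves of the tree of triangles
-/

namespace Vale.Agent.Lib.P154N.D7

open Vale.Agent.Lib.P154K Vale.Agent.Lib.P154Neg

theorem l20 : HoldsN X2 (Trg.right (Trg.left (Trg.left (chamberN 5 13)))) (Trg.right (Trg.right (Trg.right (chamberN 5 13)))) :=
  leaf ok2 (G344 _ rfl) (G237 _ rfl) (G249 _ rfl) (by decide +kernel)
theorem l21 : HoldsN X2 (Trg.left (Trg.right (Trg.left (chamberN 5 13)))) (Trg.left (Trg.right (Trg.right (chamberN 5 13)))) :=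
  leaf ok2 (G344 _ rfl) (G181 _ rfl) (G309 _ rfl) (by decide +kernel)
theorem l22 : HoldsN X2 (Trg.left (Trg.right (Trg.right (Trg.left (chamberN 5 13))))) (Trg.left (Trg.left (Trg.right (Trg.right (chamberN 5 13))))) :=
  leaf ok2 (G386 _ rfl) (G177 _ rfl) (G246 _ rfl) (by decide +kernel)
theorem l23 : HoldsN X2 (Trg.left (Trg.right (Trg.right (Trg.left (chamberN 5 13))))) (Trg.right (Trg.left (Trg.right (Trg.right (chamberN 5 13))))) :=
  leaf ok2 (G344 _ rfl) (G237 _ rfl) (G245 _ rfl) (by decide +kernel)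
theorem l24 : HoldsN X2 (Trg.right (Trg.right (Trg.right (Trg.left (chamberN 5 13))))) (Trg.left (Trg.right (Trg.right (chamberN 5 13)))) :=
  leaf ok2 (G344 _ rfl) (G181 _ rfl) (G305 _ rfl) (by decide +kernel)
theorem l25 : HoldsN X2 (Trg.right (Trg.left (chamberN 5 13))) (Trg.right (Trg.right (Trg.right (chamberN 5 13)))) :=
  leaf ok2 (G379 _ rfl) (G164 _ rfl) (G200 _ rfl) (by decide +kernel)
theorem l26 : HoldsN X2 (Trg.left (Trg.right (chamberN 5 13))) (Trg.left (Trg.left (Trg.left (chamberN 5 13)))) :=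
  leaf ok2 (G382 _ rfl) (G200 _ rfl) (G104 _ rfl) (by decide +kernel)
theorem l27 : HoldsN X2 (Trg.left (Trg.right (chamberN 5 13))) (Trg.right (Trg.left (Trg.left (chamberN 5 13)))) :=
  leaf ok2 (G349 _ rfl) (G252 _ rfl) (G181 _ rfl) (by decide +kernel)
theorem l28 : HoldsN X2 (Trg.left (Trg.right (chamberN 5 13))) (Trg.right (Trg.left (chamberN 5 13))) :=
  leaf ok2 (G382 _ rfl) (G201 _ rfl) (G104 _ rfl) (by decide +kernel)
theorem l29 : HoldsN X2 (Trg.left (Trg.right (chamberN 5 13))) (Trg.left (Trg.right (chamberN 5 13))) :=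
  leaf ok2 (G435 _ rfl) (G106 _ rfl) (G106 _ rfl) (by decide +kernel)

end Vale.Agent.Lib.P154N.D7
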