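import Vale.Agent.Lib.P154N.D7.Data

/-!
# Leaves of the tree of triangles
-/

namespace Vale.Agent.Lib.P154N.D7

open Vale.Agent.Lib.P154K Vale.Agent.Lib.P154Neg

theorem l200 : HoldsN X3 (Trg.right (Trg.right (Trg.left (Trg.left (chamber 1 1))))) (Trg.right (Trg.right (Trg.right (Trg.right (chamberN 5 13))))) :=
  leaf ok3 (G105 _ rfl) (G388 _ rfl) (G223 _ rfl) (by decide +kernel)
theorem l201 : HoldsN X3 (Trg.left (Trg.right (Trg.left (chamber 1 1)))) (Trg.left (Trg.left (Trg.right (Trg.right (chamberN 5 13))))) :=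
  leaf ok3 (G94 _ rfl) (G415 _ rfl) (G146 _ rfl) (by decide +kernel)
theorem l202 : HoldsN X3 (Trg.left (Trg.right (Trg.left (chamber 1 1)))) (Trg.right (Trg.left (Trg.right (Trg.right (chamberN 5 13))))) :=
  leaf ok3 (G116 _ rfl) (G354 _ rfl) (G219 _ rfl) (by decide +kernel)
theorem l203 : HoldsN X3 (Trg.left (Trg.right (Trg.right (Trg.left (chamber 1 1))))) (Trg.left (Trg.right (Trg.right (chamberN 5 13)))) :=
  leaf ok3 (G69 _ rfl) (G362 _ rfl) (G278 _ rfl) (by decide +kernel)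
theorem l204 : HoldsN X3 (Trg.right (Trg.right (Trg.right (Trg.left (chamber 1 1))))) (Trg.left (Trg.left (Trg.right (Trg.right (chamberN 5 13))))) :=
  leaf ok3 (G94 _ rfl) (G415 _ rfl) (G220 _ rfl) (by decide +kernel)
theorem l205 : HoldsN X3 (Trg.right (Trg.right (Trg.right (Trg.left (chamber 1 1))))) (Trg.right (Trg.left (Trg.right (Trg.right (chamberN 5 13))))) :=
  leaf ok3 (G116 _ rfl) (G352 _ rfl) (G270 _ rfl) (by decide +kernel)
theorem l206 : HoldsN X3 (Trg.left (Trg.right (Trg.left (chamber 1 1)))) (Trg.right (Trg.right (Trg.right (chamberN 5 13)))) :=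
  leaf ok3 (G53 _ rfl) (G426 _ rfl) (G151 _ rfl) (by decide +kernel)
theorem l207 : HoldsN X3 (Trg.left (Trg.right (Trg.right (Trg.left (chamber 1 1))))) (Trg.right (Trg.right (Trg.right (chamberN 5 13)))) :=
  leaf ok3 (G29 _ rfl) (G433 _ rfl) (G285 _ rfl) (by decide +kernel)
theorem l208 : HoldsN X3 (Trg.right (Trg.right (Trg.right (Trg.left (chamber 1 1))))) (Trg.right (Trg.right (Trg.right (chamberN 5 13)))) :=
  leaf ok3 (G53 _ rfl) (G424 _ rfl) (G226 _ rfl) (by decide +kernel)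
theorem l209 : HoldsN X3 (Trg.left (Trg.right (chamber 1 1))) (Trg.left (Trg.left (chamberN 5 13))) :=
  leaf ok3 (G13 _ rfl) (G161 _ rfl) (G364 _ rfl) (by decide +kernel)

end Vale.Agent.Lib.P154N.D7
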