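import Vale.Agent.Lib.P154N.D7.Data

/-!
# Leaves of the tree of triangles
-/

namespace Vale.Agent.Lib.P154N.D7

open Vale.Agent.Lib.P154K Vale.Agent.Lib.P154Neg

theorem l210 : HoldsN X3 (Trg.left (Trg.right (chamber 1 1))) (Trg.right (Trg.left (chamberN 5 13))) :=
  leaf ok3 (G11 _ rfl) (G87 _ rfl) (G459 _ rfl) (by decide +kernel)
theorem l211 : HoldsN X3 (Trg.left (Trg.left (Trg.right (chamber 1 1)))) (Trg.left (Trg.right (chamberN 5 13))) :=
  leaf ok3 (G3 _ rfl) (G418 _ rfl) (G417 _ rfl) (by decide +kernel)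
theorem l212 : HoldsN X3 (Trg.left (Trg.right (Trg.left (Trg.right (chamber 1 1))))) (Trg.left (Trg.right (chamberN 5 13))) :=
  leaf ok3 (G1 _ rfl) (G436 _ rfl) (G463 _ rfl) (by decide +kernel)
theorem l213 : HoldsN X3 (Trg.right (Trg.right (Trg.left (Trg.right (chamber 1 1))))) (Trg.left (Trg.right (chamberN 5 13))) :=
  leaf ok3 (G3 _ rfl) (G418 _ rfl) (G453 _ rfl) (by decide +kernel)
theorem l214 : HoldsN X3 (Trg.left (Trg.right (chamber 1 1))) (Trg.right (Trg.right (chamberN 5 13))) :=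
  leaf ok3 (G13 _ rfl) (G362 _ rfl) (G364 _ rfl) (by decide +kernel)
theorem l215 : HoldsN X3 (Trg.left (Trg.left (Trg.right (Trg.right (chamber 1 1))))) (Trg.left (Trg.left (Trg.left (chamberN 5 13)))) :=
  leaf ok3 (G67 _ rfl) (G227 _ rfl) (G412 _ rfl) (by decide +kernel)
theorem l216 : HoldsN X3 (Trg.right (Trg.left (Trg.right (Trg.right (chamber 1 1))))) (Trg.left (Trg.left (Trg.left (chamberN 5 13)))) :=
  leaf ok3 (G97 _ rfl) (G278 _ rfl) (G350 _ rfl) (by decide +kernel)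
theorem l217 : HoldsN X3 (Trg.left (Trg.left (Trg.right (Trg.right (chamber 1 1))))) (Trg.right (Trg.left (Trg.left (chamberN 5 13)))) :=
  leaf ok3 (G124 _ rfl) (G222 _ rfl) (G350 _ rfl) (by decide +kernel)
theorem l218 : HoldsN X3 (Trg.right (Trg.left (Trg.right (Trg.right (chamber 1 1))))) (Trg.right (Trg.left (Trg.left (chamberN 5 13)))) :=
  leaf ok3 (G172 _ rfl) (G272 _ rfl) (G342 _ rfl) (by decide +kernel)
theorem l219 : HoldsN X3 (Trg.left (Trg.left (Trg.right (Trg.right (chamber 1 1))))) (Trg.right (Trg.left (chamberN 5 13))) :=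
  leaf ok3 (G67 _ rfl) (G155 _ rfl) (G415 _ rfl) (by decide +kernel)

end Vale.Agent.Lib.P154N.D7
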