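import Vale.Agent.Lib.P154N.D7.Data

/-!
# Leaves of the tree of triangles
-/

namespace Vale.Agent.Lib.P154N.D7

open Vale.Agent.Lib.P154K Vale.Agent.Lib.P154Neg

theorem l250 : HoldsN X3 (Trg.left (Trg.right (Trg.right (Trg.left (chamber 1 1))))) (Trg.left (Trg.right (Trg.left (Trg.right (chamberNR 5 13))))) :=
  leaf ok3 (G6 _ rfl) (G488 _ rfl) (G176 _ rfl) (by decide +kernel)
theorem l251 : HoldsN X3 (Trg.left (Trg.right (Trg.right (Trg.left (chamber 1 1))))) (Trg.right (Trg.right (Trg.left (Trg.right (chamberNR 5 13))))) :=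
  leaf ok3 (G22 _ rfl) (G476 _ rfl) (G175 _ rfl) (by decide +kernel)
theorem l252 : HoldsN X3 (Trg.right (Trg.right (Trg.right (Trg.left (chamber 1 1))))) (Trg.left (Trg.right (chamberNR 5 13))) :=
  leaf ok3 (G35 _ rfl) (G459 _ rfl) (G123 _ rfl) (by decide +kernel)
theorem l253 : HoldsN X3 (Trg.left (Trg.left (Trg.left (Trg.left (chamber 1 1))))) (Trg.left (Trg.left (Trg.right (Trg.right (chamberNR 5 13))))) :=
  leaf ok3 (G107 _ rfl) (G414 _ rfl) (G218 _ rfl) (by decide +kernel)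
theorem l254 : HoldsN X3 (Trg.left (Trg.left (Trg.left (Trg.left (chamber 1 1))))) (Trg.right (Trg.left (Trg.right (Trg.right (chamberNR 5 13))))) :=
  leaf ok3 (G181 _ rfl) (G352 _ rfl) (G216 _ rfl) (by decide +kernel)
theorem l255 : HoldsN X3 (Trg.right (Trg.left (Trg.left (Trg.left (chamber 1 1))))) (Trg.left (Trg.right (Trg.right (chamberNR 5 13)))) :=
  leaf ok3 (G69 _ rfl) (G362 _ rfl) (G254 _ rfl) (by decide +kernel)
theorem l256 : HoldsN X3 (Trg.left (Trg.left (Trg.left (chamber 1 1)))) (Trg.right (Trg.right (Trg.right (chamberNR 5 13)))) :=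
  leaf ok3 (G54 _ rfl) (G428 _ rfl) (G149 _ rfl) (by decide +kernel)
theorem l257 : HoldsN X3 (Trg.left (Trg.right (Trg.left (Trg.left (chamber 1 1))))) (Trg.left (Trg.left (Trg.right (Trg.right (chamberNR 5 13))))) :=
  leaf ok3 (G124 _ rfl) (G350 _ rfl) (G268 _ rfl) (by decide +kernel)
theorem l258 : HoldsN X3 (Trg.left (Trg.right (Trg.right (Trg.left (Trg.left (chamber 1 1)))))) (Trg.left (Trg.left (Trg.left (Trg.right (Trg.right (chamberNR 5 13)))))) :=
  leaf ok3 (G203 _ rfl) (G385 _ rfl) (G213 _ rfl) (by decide +kernel)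
theorem l259 : HoldsN X3 (Trg.left (Trg.right (Trg.right (Trg.left (Trg.left (chamber 1 1)))))) (Trg.left (Trg.right (Trg.left (Trg.left (Trg.right (Trg.right (chamberNR 5 13))))))) :=
  leaf ok3 (G171 _ rfl) (G403 _ rfl) (G212 _ rfl) (by decide +kernel)

end Vale.Agent.Lib.P154N.D7
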