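import Vale.Agent.Lib.P154N.D7.Data

/-!
# Leaves of the tree of triangles
-/

namespace Vale.Agent.Lib.P154N.D7

open Vale.Agent.Lib.P154K Vale.Agent.Lib.P154Neg

theorem l260 : HoldsN X3 (Trg.left (Trg.left (Trg.right (Trg.right (Trg.left (Trg.left (chamber 1 1))))))) (Trg.right (Trg.right (Trg.left (Trg.left (Trg.right (Trg.right (chamberNR 5 13))))))) :=
  leaf ok3 (G194 _ rfl) (G385 _ rfl) (G242 _ rfl) (by decide +kernel)
theorem l261 : HoldsN X3 (Trg.right (Trg.left (Trg.right (Trg.right (Trg.left (Trg.left (chamber 1 1))))))) (Trg.right (Trg.right (Trg.left (Trg.left (Trg.right (Trg.right (chamberNR 5 13))))))) :=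
  leaf ok3 (G193 _ rfl) (G402 _ rfl) (G213 _ rfl) (by decide +kernel)
theorem l262 : HoldsN X3 (Trg.right (Trg.right (Trg.right (Trg.left (Trg.left (chamber 1 1)))))) (Trg.left (Trg.left (Trg.right (Trg.right (chamberNR 5 13))))) :=
  leaf ok3 (G123 _ rfl) (G387 _ rfl) (G267 _ rfl) (by decide +kernel)
theorem l263 : HoldsN X3 (Trg.right (Trg.left (Trg.left (chamber 1 1)))) (Trg.right (Trg.left (Trg.right (Trg.right (chamberNR 5 13))))) :=
  leaf ok3 (G196 _ rfl) (G345 _ rfl) (G216 _ rfl) (by decide +kernel)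
theorem l264 : HoldsN X3 (Trg.left (Trg.right (Trg.left (Trg.left (chamber 1 1))))) (Trg.right (Trg.right (Trg.right (chamberNR 5 13)))) :=
  leaf ok3 (G116 _ rfl) (G358 _ rfl) (G219 _ rfl) (by decide +kernel)
theorem l265 : HoldsN X3 (Trg.right (Trg.right (Trg.left (Trg.left (chamber 1 1))))) (Trg.right (Trg.right (Trg.right (chamberNR 5 13)))) :=
  leaf ok3 (G115 _ rfl) (G392 _ rfl) (G146 _ rfl) (by decide +kernel)
theorem l266 : HoldsN X3 (Trg.left (Trg.right (Trg.left (chamber 1 1)))) (Trg.left (Trg.left (Trg.right (Trg.right (chamberNR 5 13))))) :=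
  leaf ok3 (G96 _ rfl) (G415 _ rfl) (G142 _ rfl) (by decide +kernel)
theorem l267 : HoldsN X3 (Trg.left (Trg.right (Trg.left (chamber 1 1)))) (Trg.right (Trg.left (Trg.right (Trg.right (chamberNR 5 13))))) :=
  leaf ok3 (G172 _ rfl) (G356 _ rfl) (G144 _ rfl) (by decide +kernel)
theorem l268 : HoldsN X3 (Trg.left (Trg.right (Trg.right (Trg.left (chamber 1 1))))) (Trg.left (Trg.right (Trg.right (chamberNR 5 13)))) :=
  leaf ok3 (G69 _ rfl) (G362 _ rfl) (G207 _ rfl) (by decide +kernel)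
theorem l269 : HoldsN X3 (Trg.right (Trg.right (Trg.right (Trg.left (chamber 1 1))))) (Trg.left (Trg.left (Trg.right (Trg.right (chamberNR 5 13))))) :=
  leaf ok3 (G96 _ rfl) (G415 _ rfl) (G203 _ rfl) (by decide +kernel)

end Vale.Agent.Lib.P154N.D7
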