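import Vale.Agent.Lib.P154N.D7.Data

/-!
# Leaves of the tree of triangles
-/

namespace Vale.Agent.Lib.P154N.D7

open Vale.Agent.Lib.P154K Vale.Agent.Lib.P154Neg

theorem l270 : HoldsN X3 (Trg.right (Trg.right (Trg.right (Trg.left (chamber 1 1))))) (Trg.right (Trg.left (Trg.right (Trg.right (chamberNR 5 13))))) :=
  leaf ok3 (G172 _ rfl) (G356 _ rfl) (G204 _ rfl) (by decide +kernel)
theorem l271 : HoldsN X3 (Trg.right (Trg.left (chamber 1 1))) (Trg.right (Trg.right (Trg.right (chamberNR 5 13)))) :=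
  leaf ok3 (G54 _ rfl) (G428 _ rfl) (G83 _ rfl) (by decide +kernel)
theorem l272 : HoldsN X3 (Trg.left (Trg.right (chamber 1 1))) (Trg.left (Trg.left (chamberNR 5 13))) :=
  leaf ok3 (G13 _ rfl) (G364 _ rfl) (G158 _ rfl) (by decide +kernel)
theorem l273 : HoldsN X3 (Trg.left (Trg.right (chamber 1 1))) (Trg.right (Trg.left (chamberNR 5 13))) :=
  leaf ok3 (G12 _ rfl) (G459 _ rfl) (G85 _ rfl) (by decide +kernel)
theorem l274 : HoldsN X3 (Trg.left (Trg.left (Trg.right (chamber 1 1)))) (Trg.left (Trg.right (chamberNR 5 13))) :=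
  leaf ok3 (G3 _ rfl) (G459 _ rfl) (G236 _ rfl) (by decide +kernel)
theorem l275 : HoldsN X3 (Trg.left (Trg.right (Trg.left (Trg.right (chamber 1 1))))) (Trg.left (Trg.right (chamberNR 5 13))) :=
  leaf ok3 (G1 _ rfl) (G477 _ rfl) (G400 _ rfl) (by decide +kernel)
theorem l276 : HoldsN X3 (Trg.right (Trg.right (Trg.left (Trg.right (chamber 1 1))))) (Trg.left (Trg.right (chamberNR 5 13))) :=
  leaf ok3 (G3 _ rfl) (G459 _ rfl) (G398 _ rfl) (by decide +kernel)
theorem l277 : HoldsN X3 (Trg.left (Trg.right (chamber 1 1))) (Trg.right (Trg.right (chamberNR 5 13))) :=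
  leaf ok3 (G13 _ rfl) (G364 _ rfl) (G234 _ rfl) (by decide +kernel)
theorem l278 : HoldsN X3 (Trg.left (Trg.left (Trg.right (Trg.right (chamber 1 1))))) (Trg.left (Trg.left (Trg.left (chamberNR 5 13)))) :=
  leaf ok3 (G68 _ rfl) (G415 _ rfl) (G223 _ rfl) (by decide +kernel)
theorem l279 : HoldsN X3 (Trg.right (Trg.left (Trg.right (Trg.right (chamber 1 1))))) (Trg.left (Trg.left (Trg.left (chamberNR 5 13)))) :=
  leaf ok3 (G116 _ rfl) (G358 _ rfl) (G219 _ rfl) (by decide +kernel)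

end Vale.Agent.Lib.P154N.D7
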