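import Vale.Agent.Lib.P154N.D7.Data

/-!
# Leaves of the tree of triangles
-/

namespace Vale.Agent.Lib.P154N.D7

open Vale.Agent.Lib.P154K Vale.Agent.Lib.P154Neg

theorem l280 : HoldsN X3 (Trg.left (Trg.left (Trg.right (Trg.right (chamber 1 1))))) (Trg.right (Trg.left (Trg.left (chamberNR 5 13)))) :=
  leaf ok3 (G124 _ rfl) (G350 _ rfl) (G219 _ rfl) (by decide +kernel)
theorem l281 : HoldsN X3 (Trg.right (Trg.left (Trg.right (Trg.right (chamber 1 1))))) (Trg.right (Trg.left (Trg.left (chamberNR 5 13)))) :=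
  leaf ok3 (G196 _ rfl) (G345 _ rfl) (G216 _ rfl) (by decide +kernel)
theorem l282 : HoldsN X3 (Trg.left (Trg.left (Trg.right (Trg.right (chamber 1 1))))) (Trg.right (Trg.left (chamberNR 5 13))) :=
  leaf ok3 (G68 _ rfl) (G415 _ rfl) (G149 _ rfl) (by decide +kernel)
theorem l283 : HoldsN X3 (Trg.right (Trg.left (Trg.right (Trg.right (chamber 1 1))))) (Trg.right (Trg.left (chamberNR 5 13))) :=
  leaf ok3 (G116 _ rfl) (G358 _ rfl) (G147 _ rfl) (by decide +kernel)
theorem l284 : HoldsN X3 (Trg.right (Trg.right (Trg.right (chamber 1 1)))) (Trg.left (Trg.left (Trg.left (chamberNR 5 13)))) :=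
  leaf ok3 (G54 _ rfl) (G428 _ rfl) (G149 _ rfl) (by decide +kernel)
theorem l285 : HoldsN X3 (Trg.right (Trg.right (Trg.right (chamber 1 1)))) (Trg.right (Trg.left (Trg.left (chamberNR 5 13)))) :=
  leaf ok3 (G116 _ rfl) (G358 _ rfl) (G147 _ rfl) (by decide +kernel)
theorem l286 : HoldsN X3 (Trg.right (Trg.right (Trg.right (chamber 1 1)))) (Trg.right (Trg.left (chamberNR 5 13))) :=
  leaf ok3 (G54 _ rfl) (G428 _ rfl) (G83 _ rfl) (by decide +kernel)
theorem l287 : HoldsN X3 (Trg.left (Trg.right (Trg.right (chamber 1 1)))) (Trg.left (Trg.right (chamberNR 5 13))) :=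
  leaf ok3 (G20 _ rfl) (G362 _ rfl) (G286 _ rfl) (by decide +kernel)
theorem l288 : HoldsN X3 (Trg.right (Trg.right (Trg.right (chamber 1 1)))) (Trg.left (Trg.right (chamberNR 5 13))) :=
  leaf ok3 (G8 _ rfl) (G459 _ rfl) (G233 _ rfl) (by decide +kernel)
theorem l289 : HoldsN X3 (Trg.left (Trg.left (Trg.right (Trg.right (chamber 1 1))))) (Trg.left (Trg.right (Trg.right (chamberNR 5 13)))) :=
  leaf ok3 (G81 _ rfl) (G350 _ rfl) (G320 _ rfl) (by decide +kernel)

end Vale.Agent.Lib.P154N.D7
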