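import Vale.Agent.Lib.P154N.D7.Data

/-!
# Leaves of the tree of triangles
-/

namespace Vale.Agent.Lib.P154N.D7

open Vale.Agent.Lib.P154K Vale.Agent.Lib.P154Neg

theorem l30 : HoldsN X2 (Trg.left (Trg.left (Trg.right (chamberN 5 13)))) (Trg.left (Trg.left (Trg.right (Trg.right (chamberN 5 13))))) :=
  leaf ok2 (G404 _ rfl) (G179 _ rfl) (G212 _ rfl) (by decide +kernel)
theorem l31 : HoldsN X2 (Trg.left (Trg.left (Trg.right (chamberN 5 13)))) (Trg.right (Trg.left (Trg.right (Trg.right (chamberN 5 13))))) :=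
  leaf ok2 (G347 _ rfl) (G243 _ rfl) (G214 _ rfl) (by decide +kernel)
theorem l32 : HoldsN X2 (Trg.left (Trg.right (Trg.left (Trg.right (chamberN 5 13))))) (Trg.left (Trg.left (Trg.right (Trg.right (chamberN 5 13))))) :=
  leaf ok2 (G420 _ rfl) (G179 _ rfl) (G178 _ rfl) (by decide +kernel)
theorem l33 : HoldsN X2 (Trg.left (Trg.right (Trg.left (Trg.right (chamberN 5 13))))) (Trg.right (Trg.left (Trg.right (Trg.right (chamberN 5 13))))) :=
  leaf ok2 (G349 _ rfl) (G243 _ rfl) (G181 _ rfl) (by decide +kernel)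
theorem l34 : HoldsN X2 (Trg.right (Trg.right (Trg.left (Trg.right (chamberN 5 13))))) (Trg.left (Trg.right (Trg.right (chamberN 5 13)))) :=
  leaf ok2 (G354 _ rfl) (G181 _ rfl) (G204 _ rfl) (by decide +kernel)
theorem l35 : HoldsN X2 (Trg.left (Trg.left (Trg.right (chamberN 5 13)))) (Trg.right (Trg.right (Trg.right (chamberN 5 13)))) :=
  leaf ok2 (G411 _ rfl) (G179 _ rfl) (G134 _ rfl) (by decide +kernel)
theorem l36 : HoldsN X2 (Trg.left (Trg.right (Trg.left (Trg.right (chamberN 5 13))))) (Trg.right (Trg.right (Trg.right (chamberN 5 13)))) :=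
  leaf ok2 (G430 _ rfl) (G179 _ rfl) (G103 _ rfl) (by decide +kernel)
theorem l37 : HoldsN X2 (Trg.right (Trg.right (Trg.left (Trg.right (chamberN 5 13))))) (Trg.right (Trg.right (Trg.right (chamberN 5 13)))) :=
  leaf ok2 (G411 _ rfl) (G179 _ rfl) (G132 _ rfl) (by decide +kernel)
theorem l38 : HoldsN X2 (Trg.left (Trg.right (Trg.right (chamberN 5 13)))) (Trg.left (Trg.left (Trg.left (chamberN 5 13)))) :=
  leaf ok2 (G349 _ rfl) (G249 _ rfl) (G181 _ rfl) (by decide +kernel)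
theorem l39 : HoldsN X2 (Trg.left (Trg.left (Trg.right (Trg.right (chamberN 5 13))))) (Trg.right (Trg.left (Trg.left (chamberN 5 13)))) :=
  leaf ok2 (G338 _ rfl) (G294 _ rfl) (G243 _ rfl) (by decide +kernel)

end Vale.Agent.Lib.P154N.D7
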