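import Vale.Agent.Lib.P154N.D7.Data

/-!
# Leaves of the tree of triangles
-/

namespace Vale.Agent.Lib.P154N.D7

open Vale.Agent.Lib.P154K Vale.Agent.Lib.P154Neg

theorem l320 : HoldsN X4 (Trg.left (Trg.right (Trg.left (chamber 1 1)))) (Trg.left (Trg.right (Trg.left (Trg.right (chamberN 5 13))))) :=
  leaf ok4 (G32 _ rfl) (G477 _ rfl) (G82 _ rfl) (by decide +kernel)
theorem l321 : HoldsN X4 (Trg.left (Trg.left (Trg.right (Trg.left (chamber 1 1))))) (Trg.right (Trg.right (Trg.left (Trg.right (chamberN 5 13))))) :=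
  leaf ok4 (G42 _ rfl) (G454 _ rfl) (G137 _ rfl) (by decide +kernel)
theorem l322 : HoldsN X4 (Trg.right (Trg.left (Trg.right (Trg.left (chamber 1 1))))) (Trg.left (Trg.right (Trg.right (Trg.left (Trg.right (chamberN 5 13)))))) :=
  leaf ok4 (G59 _ rfl) (G472 _ rfl) (G107 _ rfl) (by decide +kernel)
theorem l323 : HoldsN X4 (Trg.right (Trg.left (Trg.right (Trg.left (chamber 1 1))))) (Trg.right (Trg.right (Trg.right (Trg.left (Trg.right (chamberN 5 13)))))) :=
  leaf ok4 (G40 _ rfl) (G485 _ rfl) (G109 _ rfl) (by decide +kernel)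
theorem l324 : HoldsN X4 (Trg.left (Trg.right (Trg.right (Trg.left (chamber 1 1))))) (Trg.left (Trg.left (Trg.left (Trg.left (Trg.right (chamberN 5 13)))))) :=
  leaf ok4 (G15 _ rfl) (G473 _ rfl) (G322 _ rfl) (by decide +kernel)
theorem l325 : HoldsN X4 (Trg.left (Trg.right (Trg.right (Trg.left (chamber 1 1))))) (Trg.right (Trg.left (Trg.left (Trg.left (Trg.right (chamberN 5 13)))))) :=
  leaf ok4 (G36 _ rfl) (G469 _ rfl) (G281 _ rfl) (by decide +kernel)
theorem l326 : HoldsN X4 (Trg.left (Trg.right (Trg.right (Trg.left (chamber 1 1))))) (Trg.right (Trg.left (Trg.left (Trg.right (chamberN 5 13))))) :=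
  leaf ok4 (G15 _ rfl) (G473 _ rfl) (G359 _ rfl) (by decide +kernel)
theorem l327 : HoldsN X4 (Trg.left (Trg.right (Trg.right (Trg.left (chamber 1 1))))) (Trg.left (Trg.right (Trg.left (Trg.right (chamberN 5 13))))) :=
  leaf ok4 (G6 _ rfl) (G488 _ rfl) (G231 _ rfl) (by decide +kernel)
theorem l328 : HoldsN X4 (Trg.left (Trg.right (Trg.right (Trg.left (chamber 1 1))))) (Trg.left (Trg.right (Trg.right (Trg.left (Trg.right (chamberN 5 13)))))) :=
  leaf ok4 (G26 _ rfl) (G472 _ rfl) (G258 _ rfl) (by decide +kernel)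
theorem l329 : HoldsN X4 (Trg.left (Trg.right (Trg.right (Trg.left (chamber 1 1))))) (Trg.right (Trg.right (Trg.right (Trg.left (Trg.right (chamberN 5 13)))))) :=
  leaf ok4 (G14 _ rfl) (G482 _ rfl) (G260 _ rfl) (by decide +kernel)

end Vale.Agent.Lib.P154N.D7
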