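import Vale.Agent.Lib.P154N.D7.Data

/-!
# Leaves of the tree of triangles
-/

namespace Vale.Agent.Lib.P154N.D7

open Vale.Agent.Lib.P154K Vale.Agent.Lib.P154Neg

theorem l340 : HoldsN X4 (Trg.left (Trg.right (Trg.left (chamber 1 1)))) (Trg.right (Trg.left (Trg.right (Trg.right (chamberN 5 13))))) :=
  leaf ok4 (G116 _ rfl) (G354 _ rfl) (G219 _ rfl) (by decide +kernel)
theorem l341 : HoldsN X4 (Trg.left (Trg.right (Trg.right (Trg.left (chamber 1 1))))) (Trg.left (Trg.right (Trg.right (chamberN 5 13)))) :=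
  leaf ok4 (G69 _ rfl) (G362 _ rfl) (G278 _ rfl) (by decide +kernel)
theorem l342 : HoldsN X4 (Trg.right (Trg.right (Trg.right (Trg.left (chamber 1 1))))) (Trg.left (Trg.left (Trg.right (Trg.right (chamberN 5 13))))) :=
  leaf ok4 (G94 _ rfl) (G415 _ rfl) (G220 _ rfl) (by decide +kernel)
theorem l343 : HoldsN X4 (Trg.right (Trg.right (Trg.right (Trg.left (chamber 1 1))))) (Trg.right (Trg.left (Trg.right (Trg.right (chamberN 5 13))))) :=
  leaf ok4 (G116 _ rfl) (G352 _ rfl) (G270 _ rfl) (by decide +kernel)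
theorem l344 : HoldsN X4 (Trg.left (Trg.left (Trg.right (Trg.left (chamber 1 1))))) (Trg.right (Trg.right (Trg.right (chamberN 5 13)))) :=
  leaf ok4 (G53 _ rfl) (G424 _ rfl) (G189 _ rfl) (by decide +kernel)
theorem l345 : HoldsN X4 (Trg.left (Trg.right (Trg.left (Trg.right (Trg.left (chamber 1 1)))))) (Trg.left (Trg.left (Trg.right (Trg.right (Trg.right (chamberN 5 13)))))) :=
  leaf ok4 (G88 _ rfl) (G446 _ rfl) (G182 _ rfl) (by decide +kernel)
theorem l346 : HoldsN X4 (Trg.right (Trg.right (Trg.left (Trg.right (Trg.left (chamber 1 1)))))) (Trg.left (Trg.left (Trg.right (Trg.right (Trg.right (chamberN 5 13)))))) :=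
  leaf ok4 (G72 _ rfl) (G445 _ rfl) (G221 _ rfl) (by decide +kernel)
theorem l347 : HoldsN X4 (Trg.right (Trg.left (Trg.right (Trg.left (chamber 1 1))))) (Trg.right (Trg.left (Trg.right (Trg.right (Trg.right (chamberN 5 13)))))) :=
  leaf ok4 (G49 _ rfl) (G465 _ rfl) (G189 _ rfl) (by decide +kernel)
theorem l348 : HoldsN X4 (Trg.left (Trg.right (Trg.left (Trg.right (Trg.left (chamber 1 1)))))) (Trg.right (Trg.right (Trg.right (Trg.right (chamberN 5 13))))) :=
  leaf ok4 (G88 _ rfl) (G446 _ rfl) (G145 _ rfl) (by decide +kernel)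
theorem l349 : HoldsN X4 (Trg.right (Trg.right (Trg.left (Trg.right (Trg.left (chamber 1 1)))))) (Trg.right (Trg.right (Trg.right (Trg.right (chamberN 5 13))))) :=
  leaf ok4 (G72 _ rfl) (G445 _ rfl) (G186 _ rfl) (by decide +kernel)

end Vale.Agent.Lib.P154N.D7
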