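import Vale.Agent.Lib.P154N.D7.Data

/-!
# Leaves of the tree of triangles
-/

namespace Vale.Agent.Lib.P154N.D7

open Vale.Agent.Lib.P154K Vale.Agent.Lib.P154Neg

theorem l350 : HoldsN X4 (Trg.left (Trg.right (Trg.right (Trg.left (chamber 1 1))))) (Trg.right (Trg.right (Trg.right (chamberN 5 13)))) :=
  leaf ok4 (G29 _ rfl) (G433 _ rfl) (G285 _ rfl) (by decide +kernel)
theorem l351 : HoldsN X4 (Trg.left (Trg.right (Trg.right (Trg.right (Trg.left (chamber 1 1)))))) (Trg.right (Trg.right (Trg.right (chamberN 5 13)))) :=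
  leaf ok4 (G73 _ rfl) (G421 _ rfl) (G226 _ rfl) (by decide +kernel)
theorem l352 : HoldsN X4 (Trg.right (Trg.right (Trg.right (Trg.right (Trg.left (chamber 1 1)))))) (Trg.right (Trg.right (Trg.right (chamberN 5 13)))) :=
  leaf ok4 (G50 _ rfl) (G433 _ rfl) (G255 _ rfl) (by decide +kernel)
theorem l353 : HoldsN X4 (Trg.left (Trg.left (Trg.right (chamber 1 1)))) (Trg.left (Trg.left (Trg.left (chamberN 5 13)))) :=
  leaf ok4 (G18 _ rfl) (G211 _ rfl) (G441 _ rfl) (by decide +kernel)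
theorem l354 : HoldsN X4 (Trg.left (Trg.right (Trg.left (Trg.right (chamber 1 1))))) (Trg.left (Trg.left (Trg.left (chamberN 5 13)))) :=
  leaf ok4 (G9 _ rfl) (G159 _ rfl) (G467 _ rfl) (by decide +kernel)
theorem l355 : HoldsN X4 (Trg.right (Trg.right (Trg.left (Trg.right (chamber 1 1))))) (Trg.left (Trg.left (Trg.left (chamberN 5 13)))) :=
  leaf ok4 (G18 _ rfl) (G192 _ rfl) (G453 _ rfl) (by decide +kernel)
theorem l356 : HoldsN X4 (Trg.left (Trg.right (chamber 1 1))) (Trg.right (Trg.left (Trg.left (chamberN 5 13)))) :=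
  leaf ok4 (G69 _ rfl) (G156 _ rfl) (G362 _ rfl) (by decide +kernel)
theorem l357 : HoldsN X4 (Trg.left (Trg.left (Trg.right (chamber 1 1)))) (Trg.right (Trg.left (chamberN 5 13))) :=
  leaf ok4 (G18 _ rfl) (G130 _ rfl) (G455 _ rfl) (by decide +kernel)
theorem l358 : HoldsN X4 (Trg.left (Trg.right (Trg.left (Trg.right (chamber 1 1))))) (Trg.right (Trg.left (chamberN 5 13))) :=
  leaf ok4 (G9 _ rfl) (G86 _ rfl) (G477 _ rfl) (by decide +kernel)
theorem l359 : HoldsN X4 (Trg.right (Trg.right (Trg.left (Trg.right (chamber 1 1))))) (Trg.right (Trg.left (chamberN 5 13))) :=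
  leaf ok4 (G18 _ rfl) (G111 _ rfl) (G455 _ rfl) (by decide +kernel)

end Vale.Agent.Lib.P154N.D7
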