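import Vale.Agent.Lib.P154N.D7.Data

/-!
# Leaves of the tree of triangles
-/

namespace Vale.Agent.Lib.P154N.D7

open Vale.Agent.Lib.P154K Vale.Agent.Lib.P154Neg

theorem l370 : HoldsN X4 (Trg.left (Trg.right (Trg.right (chamber 1 1)))) (Trg.right (Trg.left (chamberN 5 13))) :=
  leaf ok4 (G69 _ rfl) (G156 _ rfl) (G362 _ rfl) (by decide +kernel)
theorem l371 : HoldsN X4 (Trg.right (Trg.right (Trg.right (chamber 1 1)))) (Trg.left (Trg.left (Trg.left (chamberN 5 13)))) :=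
  leaf ok4 (G34 _ rfl) (G232 _ rfl) (G412 _ rfl) (by decide +kernel)
theorem l372 : HoldsN X4 (Trg.right (Trg.right (Trg.right (chamber 1 1)))) (Trg.right (Trg.left (Trg.left (chamberN 5 13)))) :=
  leaf ok4 (G97 _ rfl) (G228 _ rfl) (G354 _ rfl) (by decide +kernel)
theorem l373 : HoldsN X4 (Trg.right (Trg.right (Trg.right (chamber 1 1)))) (Trg.right (Trg.left (chamberN 5 13))) :=
  leaf ok4 (G34 _ rfl) (G160 _ rfl) (G426 _ rfl) (by decide +kernel)
theorem l374 : HoldsN X4 (Trg.left (Trg.right (Trg.right (chamber 1 1)))) (Trg.left (Trg.right (chamberN 5 13))) :=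
  leaf ok4 (G20 _ rfl) (G362 _ rfl) (G362 _ rfl) (by decide +kernel)
theorem l375 : HoldsN X4 (Trg.right (Trg.right (Trg.right (chamber 1 1)))) (Trg.left (Trg.right (chamberN 5 13))) :=
  leaf ok4 (G8 _ rfl) (G418 _ rfl) (G395 _ rfl) (by decide +kernel)
theorem l376 : HoldsN X4 (Trg.left (Trg.right (Trg.right (chamber 1 1)))) (Trg.left (Trg.right (Trg.right (chamberN 5 13)))) :=
  leaf ok4 (G81 _ rfl) (G350 _ rfl) (G350 _ rfl) (by decide +kernel)
theorem l377 : HoldsN X4 (Trg.left (Trg.right (Trg.right (chamber 1 1)))) (Trg.right (Trg.right (Trg.right (chamberN 5 13)))) :=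
  leaf ok4 (G69 _ rfl) (G350 _ rfl) (G362 _ rfl) (by decide +kernel)
theorem l378 : HoldsN X4 (Trg.right (Trg.right (Trg.right (chamber 1 1)))) (Trg.left (Trg.right (Trg.right (chamberN 5 13)))) :=
  leaf ok4 (G69 _ rfl) (G362 _ rfl) (G350 _ rfl) (by decide +kernel)
theorem l379 : HoldsN X4 (Trg.right (Trg.right (Trg.right (chamber 1 1)))) (Trg.right (Trg.right (Trg.right (chamberN 5 13)))) :=
  leaf ok4 (G31 _ rfl) (G395 _ rfl) (G395 _ rfl) (by decide +kernel)

end Vale.Agent.Lib.P154N.D7
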