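import Vale.Agent.Lib.P154N.D7.Data

/-!
# Leaves of the tree of triangles
-/

namespace Vale.Agent.Lib.P154N.D7

open Vale.Agent.Lib.P154K Vale.Agent.Lib.P154Neg

theorem l380 : HoldsN X4 (Trg.left (Trg.left (Trg.left (chamber 1 1)))) (Trg.left (Trg.left (Trg.left (chamberNR 5 13)))) :=
  leaf ok4 (G55 _ rfl) (G399 _ rfl) (G142 _ rfl) (by decide +kernel)
theorem l381 : HoldsN X4 (Trg.left (Trg.left (Trg.left (chamber 1 1)))) (Trg.right (Trg.left (Trg.left (chamberNR 5 13)))) :=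
  leaf ok4 (G117 _ rfl) (G358 _ rfl) (G144 _ rfl) (by decide +kernel)
theorem l382 : HoldsN X4 (Trg.left (Trg.left (Trg.left (chamber 1 1)))) (Trg.right (Trg.left (chamberNR 5 13))) :=
  leaf ok4 (G56 _ rfl) (G399 _ rfl) (G80 _ rfl) (by decide +kernel)
theorem l383 : HoldsN X4 (Trg.right (Trg.left (Trg.left (chamber 1 1)))) (Trg.left (Trg.left (Trg.left (chamberNR 5 13)))) :=
  leaf ok4 (G117 _ rfl) (G358 _ rfl) (G144 _ rfl) (by decide +kernel)
theorem l384 : HoldsN X4 (Trg.right (Trg.left (Trg.left (chamber 1 1)))) (Trg.right (Trg.left (Trg.left (chamberNR 5 13)))) :=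
  leaf ok4 (G199 _ rfl) (G345 _ rfl) (G214 _ rfl) (by decide +kernel)
theorem l385 : HoldsN X4 (Trg.right (Trg.left (Trg.left (chamber 1 1)))) (Trg.right (Trg.left (chamberNR 5 13))) :=
  leaf ok4 (G118 _ rfl) (G358 _ rfl) (G144 _ rfl) (by decide +kernel)
theorem l386 : HoldsN X4 (Trg.left (Trg.right (Trg.left (chamber 1 1)))) (Trg.left (Trg.left (Trg.left (chamberNR 5 13)))) :=
  leaf ok4 (G98 _ rfl) (G397 _ rfl) (G78 _ rfl) (by decide +kernel)
theorem l387 : HoldsN X4 (Trg.right (Trg.right (Trg.left (chamber 1 1)))) (Trg.left (Trg.left (Trg.left (chamberNR 5 13)))) :=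
  leaf ok4 (G55 _ rfl) (G399 _ rfl) (G121 _ rfl) (by decide +kernel)
theorem l388 : HoldsN X4 (Trg.right (Trg.left (chamber 1 1))) (Trg.right (Trg.left (Trg.left (chamberNR 5 13)))) :=
  leaf ok4 (G118 _ rfl) (G358 _ rfl) (G144 _ rfl) (by decide +kernel)
theorem l389 : HoldsN X4 (Trg.left (Trg.right (Trg.left (chamber 1 1)))) (Trg.right (Trg.left (chamberNR 5 13))) :=
  leaf ok4 (G99 _ rfl) (G397 _ rfl) (G78 _ rfl) (by decide +kernel)

end Vale.Agent.Lib.P154N.D7
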