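import Vale.Agent.Lib.P154N.D7.Data

/-!
# Leaves of the tree of triangles
-/

namespace Vale.Agent.Lib.P154N.D7

open Vale.Agent.Lib.P154K Vale.Agent.Lib.P154Neg

theorem l40 : HoldsN X2 (Trg.left (Trg.right (Trg.left (Trg.right (Trg.right (chamberN 5 13)))))) (Trg.right (Trg.left (Trg.left (chamberN 5 13)))) :=
  leaf ok2 (G332 _ rfl) (G304 _ rfl) (G289 _ rfl) (by decide +kernel)
theorem l41 : HoldsN X2 (Trg.right (Trg.right (Trg.left (Trg.right (Trg.right (chamberN 5 13)))))) (Trg.right (Trg.left (Trg.left (chamberN 5 13)))) :=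
  leaf ok2 (G336 _ rfl) (G292 _ rfl) (G289 _ rfl) (by decide +kernel)
theorem l42 : HoldsN X2 (Trg.left (Trg.right (Trg.right (chamberN 5 13)))) (Trg.right (Trg.left (chamberN 5 13))) :=
  leaf ok2 (G349 _ rfl) (G252 _ rfl) (G181 _ rfl) (by decide +kernel)
theorem l43 : HoldsN X2 (Trg.right (Trg.right (Trg.right (chamberN 5 13)))) (Trg.left (Trg.left (Trg.left (chamberN 5 13)))) :=
  leaf ok2 (G379 _ rfl) (G198 _ rfl) (G178 _ rfl) (by decide +kernel)
theorem l44 : HoldsN X2 (Trg.right (Trg.right (Trg.right (chamberN 5 13)))) (Trg.right (Trg.left (Trg.left (chamberN 5 13)))) :=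
  leaf ok2 (G344 _ rfl) (G249 _ rfl) (G237 _ rfl) (by decide +kernel)
theorem l45 : HoldsN X2 (Trg.right (Trg.right (Trg.right (chamberN 5 13)))) (Trg.right (Trg.left (chamberN 5 13))) :=
  leaf ok2 (G379 _ rfl) (G200 _ rfl) (G164 _ rfl) (by decide +kernel)
theorem l46 : HoldsN X2 (Trg.right (Trg.right (chamberN 5 13))) (Trg.left (Trg.right (chamberN 5 13))) :=
  leaf ok2 (G361 _ rfl) (G108 _ rfl) (G181 _ rfl) (by decide +kernel)
theorem l47 : HoldsN X2 (Trg.left (Trg.left (Trg.right (Trg.right (chamberN 5 13))))) (Trg.left (Trg.right (Trg.right (chamberN 5 13)))) :=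
  leaf ok2 (G345 _ rfl) (G243 _ rfl) (G243 _ rfl) (by decide +kernel)
theorem l48 : HoldsN X2 (Trg.right (Trg.left (Trg.right (Trg.right (chamberN 5 13))))) (Trg.left (Trg.left (Trg.right (Trg.right (chamberN 5 13))))) :=
  leaf ok2 (G338 _ rfl) (G243 _ rfl) (G289 _ rfl) (by decide +kernel)
theorem l49 : HoldsN X2 (Trg.left (Trg.left (Trg.right (Trg.left (Trg.right (Trg.right (chamberN 5 13))))))) (Trg.left (Trg.right (Trg.left (Trg.right (Trg.right (chamberN 5 13)))))) :=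
  leaf ok2 (G332 _ rfl) (G302 _ rfl) (G302 _ rfl) (by decide +kernel)

end Vale.Agent.Lib.P154N.D7
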