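import Vale.Agent.Lib.P154N.D7.Data

/-!
# Leaves of the tree of triangles
-/

namespace Vale.Agent.Lib.P154N.D7

open Vale.Agent.Lib.P154K Vale.Agent.Lib.P154Neg

theorem l400 : HoldsN X4 (Trg.right (Trg.right (Trg.right (Trg.left (chamber 1 1))))) (Trg.left (Trg.left (Trg.right (chamberNR 5 13)))) :=
  leaf ok4 (G64 _ rfl) (G456 _ rfl) (G123 _ rfl) (by decide +kernel)
theorem l401 : HoldsN X4 (Trg.right (Trg.right (Trg.right (Trg.left (chamber 1 1))))) (Trg.right (Trg.left (Trg.right (chamberNR 5 13)))) :=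
  leaf ok4 (G34 _ rfl) (G459 _ rfl) (G143 _ rfl) (by decide +kernel)
theorem l402 : HoldsN X4 (Trg.left (Trg.left (Trg.left (Trg.left (chamber 1 1))))) (Trg.left (Trg.left (Trg.right (Trg.right (chamberNR 5 13))))) :=
  leaf ok4 (G107 _ rfl) (G414 _ rfl) (G218 _ rfl) (by decide +kernel)
theorem l403 : HoldsN X4 (Trg.left (Trg.left (Trg.left (Trg.left (chamber 1 1))))) (Trg.right (Trg.left (Trg.right (Trg.right (chamberNR 5 13))))) :=
  leaf ok4 (G181 _ rfl) (G352 _ rfl) (G216 _ rfl) (by decide +kernel)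
theorem l404 : HoldsN X4 (Trg.right (Trg.left (Trg.left (Trg.left (chamber 1 1))))) (Trg.left (Trg.right (Trg.right (chamberNR 5 13)))) :=
  leaf ok4 (G69 _ rfl) (G362 _ rfl) (G254 _ rfl) (by decide +kernel)
theorem l405 : HoldsN X4 (Trg.left (Trg.left (Trg.left (Trg.left (chamber 1 1))))) (Trg.right (Trg.right (Trg.right (chamberNR 5 13)))) :=
  leaf ok4 (G107 _ rfl) (G425 _ rfl) (G146 _ rfl) (by decide +kernel)
theorem l406 : HoldsN X4 (Trg.right (Trg.left (Trg.left (Trg.left (chamber 1 1))))) (Trg.right (Trg.right (Trg.right (chamberNR 5 13)))) :=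
  leaf ok4 (G52 _ rfl) (G443 _ rfl) (G188 _ rfl) (by decide +kernel)
theorem l407 : HoldsN X4 (Trg.right (Trg.left (Trg.left (chamber 1 1)))) (Trg.left (Trg.left (Trg.right (Trg.right (chamberNR 5 13))))) :=
  leaf ok4 (G124 _ rfl) (G350 _ rfl) (G219 _ rfl) (by decide +kernel)
theorem l408 : HoldsN X4 (Trg.right (Trg.left (Trg.left (chamber 1 1)))) (Trg.right (Trg.left (Trg.right (Trg.right (chamberNR 5 13))))) :=
  leaf ok4 (G196 _ rfl) (G345 _ rfl) (G216 _ rfl) (by decide +kernel)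
theorem l409 : HoldsN X4 (Trg.right (Trg.left (Trg.left (chamber 1 1)))) (Trg.right (Trg.right (Trg.right (chamberNR 5 13)))) :=
  leaf ok4 (G116 _ rfl) (G358 _ rfl) (G147 _ rfl) (by decide +kernel)

end Vale.Agent.Lib.P154N.D7
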