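import Vale.Agent.Lib.P154N.D7.Data

/-!
# Leaves of the tree of triangles
-/

namespace Vale.Agent.Lib.P154N.D7

open Vale.Agent.Lib.P154K Vale.Agent.Lib.P154Neg

theorem l410 : HoldsN X4 (Trg.left (Trg.left (Trg.right (Trg.left (chamber 1 1))))) (Trg.left (Trg.left (Trg.right (Trg.right (chamberNR 5 13))))) :=
  leaf ok4 (G96 _ rfl) (G415 _ rfl) (G179 _ rfl) (by decide +kernel)
theorem l411 : HoldsN X4 (Trg.right (Trg.left (Trg.right (Trg.left (chamber 1 1))))) (Trg.left (Trg.left (Trg.right (Trg.right (chamberNR 5 13))))) :=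
  leaf ok4 (G95 _ rfl) (G431 _ rfl) (G142 _ rfl) (by decide +kernel)
theorem l412 : HoldsN X4 (Trg.left (Trg.right (Trg.left (chamber 1 1)))) (Trg.right (Trg.left (Trg.right (Trg.right (chamberNR 5 13))))) :=
  leaf ok4 (G172 _ rfl) (G356 _ rfl) (G144 _ rfl) (by decide +kernel)
theorem l413 : HoldsN X4 (Trg.left (Trg.right (Trg.right (Trg.left (chamber 1 1))))) (Trg.left (Trg.right (Trg.right (chamberNR 5 13)))) :=
  leaf ok4 (G69 _ rfl) (G362 _ rfl) (G207 _ rfl) (by decide +kernel)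
theorem l414 : HoldsN X4 (Trg.right (Trg.right (Trg.right (Trg.left (chamber 1 1))))) (Trg.left (Trg.left (Trg.right (Trg.right (chamberNR 5 13))))) :=
  leaf ok4 (G96 _ rfl) (G415 _ rfl) (G203 _ rfl) (by decide +kernel)
theorem l415 : HoldsN X4 (Trg.right (Trg.right (Trg.right (Trg.left (chamber 1 1))))) (Trg.right (Trg.left (Trg.right (Trg.right (chamberNR 5 13))))) :=
  leaf ok4 (G172 _ rfl) (G356 _ rfl) (G204 _ rfl) (by decide +kernel)
theorem l416 : HoldsN X4 (Trg.left (Trg.right (Trg.left (chamber 1 1)))) (Trg.right (Trg.right (Trg.right (chamberNR 5 13)))) :=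
  leaf ok4 (G96 _ rfl) (G427 _ rfl) (G80 _ rfl) (by decide +kernel)
theorem l417 : HoldsN X4 (Trg.left (Trg.right (Trg.right (Trg.left (chamber 1 1))))) (Trg.right (Trg.right (Trg.right (chamberNR 5 13)))) :=
  leaf ok4 (G51 _ rfl) (G461 _ rfl) (G128 _ rfl) (by decide +kernel)
theorem l418 : HoldsN X4 (Trg.right (Trg.right (Trg.right (Trg.left (chamber 1 1))))) (Trg.right (Trg.right (Trg.right (chamberNR 5 13)))) :=
  leaf ok4 (G96 _ rfl) (G427 _ rfl) (G123 _ rfl) (by decide +kernel)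
theorem l419 : HoldsN X4 (Trg.left (Trg.left (Trg.right (chamber 1 1)))) (Trg.left (Trg.left (Trg.left (chamberNR 5 13)))) :=
  leaf ok4 (G25 _ rfl) (G457 _ rfl) (G149 _ rfl) (by decide +kernel)

end Vale.Agent.Lib.P154N.D7
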