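import Vale.Agent.Lib.P154N.D7.Data

/-!
# Leaves of the tree of triangles
-/

namespace Vale.Agent.Lib.P154N.D7

open Vale.Agent.Lib.P154K Vale.Agent.Lib.P154Neg

theorem l420 : HoldsN X4 (Trg.left (Trg.right (Trg.left (Trg.right (chamber 1 1))))) (Trg.left (Trg.left (Trg.left (chamberNR 5 13)))) :=
  leaf ok4 (G10 _ rfl) (G477 _ rfl) (G157 _ rfl) (by decide +kernel)
theorem l421 : HoldsN X4 (Trg.right (Trg.right (Trg.left (Trg.right (chamber 1 1))))) (Trg.left (Trg.left (Trg.left (chamberNR 5 13)))) :=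
  leaf ok4 (G24 _ rfl) (G457 _ rfl) (G154 _ rfl) (by decide +kernel)
theorem l422 : HoldsN X4 (Trg.left (Trg.right (chamber 1 1))) (Trg.right (Trg.left (Trg.left (chamberNR 5 13)))) :=
  leaf ok4 (G69 _ rfl) (G362 _ rfl) (G150 _ rfl) (by decide +kernel)
theorem l423 : HoldsN X4 (Trg.left (Trg.left (Trg.right (chamber 1 1)))) (Trg.right (Trg.left (chamberNR 5 13))) :=
  leaf ok4 (G25 _ rfl) (G457 _ rfl) (G83 _ rfl) (by decide +kernel)
theorem l424 : HoldsN X4 (Trg.left (Trg.right (Trg.left (Trg.right (chamber 1 1))))) (Trg.right (Trg.left (chamberNR 5 13))) :=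
  leaf ok4 (G10 _ rfl) (G477 _ rfl) (G85 _ rfl) (by decide +kernel)
theorem l425 : HoldsN X4 (Trg.right (Trg.right (Trg.left (Trg.right (chamber 1 1))))) (Trg.right (Trg.left (chamberNR 5 13))) :=
  leaf ok4 (G24 _ rfl) (G457 _ rfl) (G84 _ rfl) (by decide +kernel)
theorem l426 : HoldsN X4 (Trg.left (Trg.left (Trg.right (chamber 1 1)))) (Trg.left (Trg.right (chamberNR 5 13))) :=
  leaf ok4 (G3 _ rfl) (G459 _ rfl) (G236 _ rfl) (by decide +kernel)
theorem l427 : HoldsN X4 (Trg.left (Trg.right (Trg.left (Trg.right (chamber 1 1))))) (Trg.left (Trg.left (Trg.right (chamberNR 5 13)))) :=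
  leaf ok4 (G2 _ rfl) (G477 _ rfl) (G396 _ rfl) (by decide +kernel)
theorem l428 : HoldsN X4 (Trg.left (Trg.right (Trg.left (Trg.right (chamber 1 1))))) (Trg.left (Trg.right (Trg.left (Trg.right (chamberNR 5 13))))) :=
  leaf ok4 (G0 _ rfl) (G488 _ rfl) (G464 _ rfl) (by decide +kernel)
theorem l429 : HoldsN X4 (Trg.left (Trg.right (Trg.left (Trg.right (chamber 1 1))))) (Trg.right (Trg.right (Trg.left (Trg.right (chamberNR 5 13))))) :=
  leaf ok4 (G2 _ rfl) (G477 _ rfl) (G462 _ rfl) (by decide +kernel)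

end Vale.Agent.Lib.P154N.D7
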