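import Vale.Agent.Lib.P154N.D7.Data

/-!
# Leaves of the tree of triangles
-/

namespace Vale.Agent.Lib.P154N.D7

open Vale.Agent.Lib.P154K Vale.Agent.Lib.P154Neg

theorem l440 : HoldsN X4 (Trg.right (Trg.right (Trg.right (chamber 1 1)))) (Trg.right (Trg.left (chamberNR 5 13))) :=
  leaf ok4 (G54 _ rfl) (G428 _ rfl) (G83 _ rfl) (by decide +kernel)
theorem l441 : HoldsN X4 (Trg.left (Trg.right (Trg.right (chamber 1 1)))) (Trg.left (Trg.right (chamberNR 5 13))) :=
  leaf ok4 (G20 _ rfl) (G362 _ rfl) (G286 _ rfl) (by decide +kernel)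
theorem l442 : HoldsN X4 (Trg.right (Trg.right (Trg.right (chamber 1 1)))) (Trg.left (Trg.right (chamberNR 5 13))) :=
  leaf ok4 (G8 _ rfl) (G459 _ rfl) (G233 _ rfl) (by decide +kernel)
theorem l443 : HoldsN X4 (Trg.left (Trg.right (Trg.right (chamber 1 1)))) (Trg.left (Trg.right (Trg.right (chamberNR 5 13)))) :=
  leaf ok4 (G81 _ rfl) (G350 _ rfl) (G320 _ rfl) (by decide +kernel)
theorem l444 : HoldsN X4 (Trg.left (Trg.right (Trg.right (chamber 1 1)))) (Trg.right (Trg.right (Trg.right (chamberNR 5 13)))) :=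
  leaf ok4 (G69 _ rfl) (G362 _ rfl) (G280 _ rfl) (by decide +kernel)
theorem l445 : HoldsN X4 (Trg.right (Trg.right (Trg.right (chamber 1 1)))) (Trg.left (Trg.right (Trg.right (chamberNR 5 13)))) :=
  leaf ok4 (G69 _ rfl) (G362 _ rfl) (G280 _ rfl) (by decide +kernel)
theorem l446 : HoldsN X4 (Trg.right (Trg.right (Trg.right (chamber 1 1)))) (Trg.right (Trg.right (Trg.right (chamberNR 5 13)))) :=
  leaf ok4 (G52 _ rfl) (G443 _ rfl) (G229 _ rfl) (by decide +kernel)
theorem l447 : HoldsN X5 (Trg.left (Trg.left (Trg.left (Trg.left (chamber 1 1))))) (Trg.left (Trg.left (Trg.left (chamberN 5 13)))) :=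
  leaf ok5 (G73 _ rfl) (G323 _ rfl) (G277 _ rfl) (by decide +kernel)
theorem l448 : HoldsN X5 (Trg.right (Trg.left (Trg.left (Trg.left (chamber 1 1))))) (Trg.left (Trg.left (Trg.left (Trg.left (chamberN 5 13))))) :=
  leaf ok5 (G73 _ rfl) (G277 _ rfl) (G406 _ rfl) (by decide +kernel)
theorem l449 : HoldsN X5 (Trg.right (Trg.left (Trg.left (Trg.left (chamber 1 1))))) (Trg.right (Trg.left (Trg.left (Trg.left (chamberN 5 13))))) :=
  leaf ok5 (G31 _ rfl) (G407 _ rfl) (G407 _ rfl) (by decide +kernel)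

end Vale.Agent.Lib.P154N.D7
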