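import Vale.Agent.Lib.P154N.D7.Data

/-!
# Leaves of the tree of triangles
-/

namespace Vale.Agent.Lib.P154N.D7

open Vale.Agent.Lib.P154K Vale.Agent.Lib.P154Neg

theorem l460 : HoldsN X5 (Trg.left (Trg.left (Trg.left (Trg.left (chamber 1 1))))) (Trg.left (Trg.right (chamberN 5 13))) :=
  leaf ok5 (G46 _ rfl) (G442 _ rfl) (G155 _ rfl) (by decide +kernel)
theorem l461 : HoldsN X5 (Trg.right (Trg.left (Trg.left (Trg.left (chamber 1 1))))) (Trg.left (Trg.left (Trg.right (chamberN 5 13)))) :=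
  leaf ok5 (G17 _ rfl) (G441 _ rfl) (G359 _ rfl) (by decide +kernel)
theorem l462 : HoldsN X5 (Trg.right (Trg.left (Trg.left (Trg.left (chamber 1 1))))) (Trg.right (Trg.left (Trg.right (chamberN 5 13)))) :=
  leaf ok5 (G8 _ rfl) (G459 _ rfl) (G355 _ rfl) (by decide +kernel)
theorem l463 : HoldsN X5 (Trg.right (Trg.left (Trg.left (chamber 1 1)))) (Trg.left (Trg.right (chamberN 5 13))) :=
  leaf ok5 (G69 _ rfl) (G362 _ rfl) (G156 _ rfl) (by decide +kernel)
theorem l464 : HoldsN X5 (Trg.left (Trg.left (Trg.left (Trg.right (Trg.left (chamber 1 1)))))) (Trg.left (Trg.left (Trg.right (chamberN 5 13)))) :=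
  leaf ok5 (G41 _ rfl) (G473 _ rfl) (G168 _ rfl) (by decide +kernel)
theorem l465 : HoldsN X5 (Trg.right (Trg.left (Trg.left (Trg.right (Trg.left (chamber 1 1)))))) (Trg.left (Trg.left (Trg.right (chamberN 5 13)))) :=
  leaf ok5 (G76 _ rfl) (G451 _ rfl) (G167 _ rfl) (by decide +kernel)
theorem l466 : HoldsN X5 (Trg.right (Trg.left (Trg.right (Trg.left (chamber 1 1))))) (Trg.left (Trg.left (Trg.left (Trg.right (chamberN 5 13))))) :=
  leaf ok5 (G41 _ rfl) (G474 _ rfl) (G126 _ rfl) (by decide +kernel)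
theorem l467 : HoldsN X5 (Trg.right (Trg.left (Trg.right (Trg.left (chamber 1 1))))) (Trg.right (Trg.left (Trg.left (Trg.right (chamberN 5 13))))) :=
  leaf ok5 (G40 _ rfl) (G480 _ rfl) (G129 _ rfl) (by decide +kernel)
theorem l468 : HoldsN X5 (Trg.left (Trg.right (Trg.left (chamber 1 1)))) (Trg.left (Trg.right (Trg.left (Trg.right (chamberN 5 13))))) :=
  leaf ok5 (G32 _ rfl) (G477 _ rfl) (G82 _ rfl) (by decide +kernel)
theorem l469 : HoldsN X5 (Trg.left (Trg.right (Trg.left (chamber 1 1)))) (Trg.right (Trg.right (Trg.left (Trg.right (chamberN 5 13))))) :=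
  leaf ok5 (G42 _ rfl) (G455 _ rfl) (G109 _ rfl) (by decide +kernel)

end Vale.Agent.Lib.P154N.D7
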