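import Vale.Agent.Lib.P154N.D7.Data

/-!
# Leaves of the tree of triangles
-/

namespace Vale.Agent.Lib.P154N.D7

open Vale.Agent.Lib.P154K Vale.Agent.Lib.P154Neg

theorem l470 : HoldsN X5 (Trg.left (Trg.left (Trg.right (Trg.right (Trg.left (chamber 1 1)))))) (Trg.left (Trg.left (Trg.left (Trg.left (Trg.right (chamberN 5 13)))))) :=
  leaf ok5 (G27 _ rfl) (G473 _ rfl) (G315 _ rfl) (by decide +kernel)
theorem l471 : HoldsN X5 (Trg.right (Trg.left (Trg.right (Trg.right (Trg.left (chamber 1 1)))))) (Trg.left (Trg.left (Trg.left (Trg.left (Trg.right (chamberN 5 13)))))) :=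
  leaf ok5 (G15 _ rfl) (G472 _ rfl) (G379 _ rfl) (by decide +kernel)
theorem l472 : HoldsN X5 (Trg.left (Trg.right (Trg.right (Trg.left (chamber 1 1))))) (Trg.right (Trg.left (Trg.left (Trg.left (Trg.right (chamberN 5 13)))))) :=
  leaf ok5 (G36 _ rfl) (G469 _ rfl) (G281 _ rfl) (by decide +kernel)
theorem l473 : HoldsN X5 (Trg.left (Trg.left (Trg.right (Trg.right (Trg.left (chamber 1 1)))))) (Trg.right (Trg.left (Trg.left (Trg.right (chamberN 5 13))))) :=
  leaf ok5 (G27 _ rfl) (G473 _ rfl) (G353 _ rfl) (by decide +kernel)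
theorem l474 : HoldsN X5 (Trg.right (Trg.left (Trg.right (Trg.right (Trg.left (chamber 1 1)))))) (Trg.right (Trg.left (Trg.left (Trg.right (chamberN 5 13))))) :=
  leaf ok5 (G15 _ rfl) (G472 _ rfl) (G407 _ rfl) (by decide +kernel)
theorem l475 : HoldsN X5 (Trg.left (Trg.right (Trg.right (Trg.left (chamber 1 1))))) (Trg.left (Trg.right (Trg.left (Trg.right (chamberN 5 13))))) :=
  leaf ok5 (G6 _ rfl) (G488 _ rfl) (G231 _ rfl) (by decide +kernel)
theorem l476 : HoldsN X5 (Trg.left (Trg.right (Trg.right (Trg.left (chamber 1 1))))) (Trg.left (Trg.right (Trg.right (Trg.left (Trg.right (chamberN 5 13)))))) :=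
  leaf ok5 (G26 _ rfl) (G472 _ rfl) (G258 _ rfl) (by decide +kernel)
theorem l477 : HoldsN X5 (Trg.left (Trg.right (Trg.right (Trg.left (chamber 1 1))))) (Trg.right (Trg.right (Trg.right (Trg.left (Trg.right (chamberN 5 13)))))) :=
  leaf ok5 (G14 _ rfl) (G482 _ rfl) (G260 _ rfl) (by decide +kernel)
theorem l478 : HoldsN X5 (Trg.left (Trg.right (Trg.right (Trg.right (Trg.left (chamber 1 1)))))) (Trg.left (Trg.left (Trg.right (chamberN 5 13)))) :=
  leaf ok5 (G60 _ rfl) (G450 _ rfl) (G208 _ rfl) (by decide +kernel)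
theorem l479 : HoldsN X5 (Trg.right (Trg.right (Trg.right (Trg.right (Trg.left (chamber 1 1)))))) (Trg.left (Trg.left (Trg.right (chamberN 5 13)))) :=
  leaf ok5 (G40 _ rfl) (G473 _ rfl) (G255 _ rfl) (by decide +kernel)

end Vale.Agent.Lib.P154N.D7
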