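import Vale.Agent.Lib.P154N.D7.Data

/-!
# Leaves of the tree of triangles
-/

namespace Vale.Agent.Lib.P154N.D7

open Vale.Agent.Lib.P154K Vale.Agent.Lib.P154Neg

theorem l480 : HoldsN X5 (Trg.right (Trg.right (Trg.right (Trg.left (chamber 1 1))))) (Trg.left (Trg.right (Trg.left (Trg.right (chamberN 5 13))))) :=
  leaf ok5 (G32 _ rfl) (G477 _ rfl) (G148 _ rfl) (by decide +kernel)
theorem l481 : HoldsN X5 (Trg.right (Trg.right (Trg.right (Trg.left (chamber 1 1))))) (Trg.right (Trg.right (Trg.left (Trg.right (chamberN 5 13))))) :=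
  leaf ok5 (G42 _ rfl) (G454 _ rfl) (G187 _ rfl) (by decide +kernel)
theorem l482 : HoldsN X5 (Trg.left (Trg.left (Trg.left (Trg.left (chamber 1 1))))) (Trg.left (Trg.left (Trg.right (Trg.right (chamberN 5 13))))) :=
  leaf ok5 (G105 _ rfl) (G410 _ rfl) (G221 _ rfl) (by decide +kernel)
theorem l483 : HoldsN X5 (Trg.left (Trg.left (Trg.left (Trg.left (chamber 1 1))))) (Trg.right (Trg.left (Trg.right (Trg.right (chamberN 5 13))))) :=
  leaf ok5 (G136 _ rfl) (G345 _ rfl) (G272 _ rfl) (by decide +kernel)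
theorem l484 : HoldsN X5 (Trg.right (Trg.left (Trg.left (Trg.left (chamber 1 1))))) (Trg.left (Trg.right (Trg.right (chamberN 5 13)))) :=
  leaf ok5 (G69 _ rfl) (G362 _ rfl) (G347 _ rfl) (by decide +kernel)
theorem l485 : HoldsN X5 (Trg.left (Trg.left (Trg.left (Trg.left (chamber 1 1))))) (Trg.right (Trg.right (Trg.right (chamberN 5 13)))) :=
  leaf ok5 (G73 _ rfl) (G410 _ rfl) (G227 _ rfl) (by decide +kernel)
theorem l486 : HoldsN X5 (Trg.right (Trg.left (Trg.left (Trg.left (chamber 1 1))))) (Trg.right (Trg.right (Trg.right (chamberN 5 13)))) :=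
  leaf ok5 (G31 _ rfl) (G412 _ rfl) (G359 _ rfl) (by decide +kernel)
theorem l487 : HoldsN X5 (Trg.right (Trg.left (Trg.left (chamber 1 1)))) (Trg.right (Trg.right (chamberN 5 13))) :=
  leaf ok5 (G97 _ rfl) (G354 _ rfl) (G228 _ rfl) (by decide +kernel)
theorem l488 : HoldsN X5 (Trg.left (Trg.left (Trg.left (Trg.right (Trg.left (chamber 1 1)))))) (Trg.left (Trg.left (Trg.right (Trg.right (chamberN 5 13))))) :=
  leaf ok5 (G93 _ rfl) (G431 _ rfl) (G186 _ rfl) (by decide +kernel)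
theorem l489 : HoldsN X5 (Trg.right (Trg.left (Trg.left (Trg.right (Trg.left (chamber 1 1)))))) (Trg.left (Trg.left (Trg.right (Trg.right (chamberN 5 13))))) :=
  leaf ok5 (G133 _ rfl) (G414 _ rfl) (G183 _ rfl) (by decide +kernel)

end Vale.Agent.Lib.P154N.D7
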