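import Vale.Agent.Lib.P154N.D7.Data

/-!
# Leaves of the tree of triangles
-/

namespace Vale.Agent.Lib.P154N.D7

open Vale.Agent.Lib.P154K Vale.Agent.Lib.P154Neg

theorem l490 : HoldsN X5 (Trg.right (Trg.left (Trg.right (Trg.left (chamber 1 1))))) (Trg.left (Trg.left (Trg.right (Trg.right (chamberN 5 13))))) :=
  leaf ok5 (G93 _ rfl) (G431 _ rfl) (G146 _ rfl) (by decide +kernel)
theorem l491 : HoldsN X5 (Trg.left (Trg.right (Trg.left (chamber 1 1)))) (Trg.right (Trg.left (Trg.right (Trg.right (chamberN 5 13))))) :=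
  leaf ok5 (G116 _ rfl) (G354 _ rfl) (G219 _ rfl) (by decide +kernel)
theorem l492 : HoldsN X5 (Trg.left (Trg.right (Trg.right (Trg.left (chamber 1 1))))) (Trg.left (Trg.right (Trg.right (chamberN 5 13)))) :=
  leaf ok5 (G69 _ rfl) (G362 _ rfl) (G278 _ rfl) (by decide +kernel)
theorem l493 : HoldsN X5 (Trg.left (Trg.right (Trg.right (Trg.right (Trg.left (chamber 1 1)))))) (Trg.left (Trg.left (Trg.right (Trg.right (chamberN 5 13))))) :=
  leaf ok5 (G105 _ rfl) (G414 _ rfl) (G220 _ rfl) (by decide +kernel)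
theorem l494 : HoldsN X5 (Trg.right (Trg.right (Trg.right (Trg.right (Trg.left (chamber 1 1)))))) (Trg.left (Trg.left (Trg.right (Trg.right (chamberN 5 13))))) :=
  leaf ok5 (G91 _ rfl) (G431 _ rfl) (G251 _ rfl) (by decide +kernel)
theorem l495 : HoldsN X5 (Trg.right (Trg.right (Trg.right (Trg.left (chamber 1 1))))) (Trg.right (Trg.left (Trg.right (Trg.right (chamberN 5 13))))) :=
  leaf ok5 (G116 _ rfl) (G352 _ rfl) (G270 _ rfl) (by decide +kernel)
theorem l496 : HoldsN X5 (Trg.left (Trg.left (Trg.left (Trg.right (Trg.left (chamber 1 1)))))) (Trg.left (Trg.right (Trg.right (Trg.right (chamberN 5 13))))) :=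
  leaf ok5 (G51 _ rfl) (G439 _ rfl) (G225 _ rfl) (by decide +kernel)
theorem l497 : HoldsN X5 (Trg.left (Trg.left (Trg.left (Trg.right (Trg.left (chamber 1 1)))))) (Trg.right (Trg.right (Trg.right (Trg.right (chamberN 5 13))))) :=
  leaf ok5 (G72 _ rfl) (G438 _ rfl) (G186 _ rfl) (by decide +kernel)
theorem l498 : HoldsN X5 (Trg.right (Trg.left (Trg.left (Trg.right (Trg.left (chamber 1 1)))))) (Trg.right (Trg.right (Trg.right (chamberN 5 13)))) :=
  leaf ok5 (G89 _ rfl) (G422 _ rfl) (G184 _ rfl) (by decide +kernel)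
theorem l499 : HoldsN X5 (Trg.right (Trg.left (Trg.right (Trg.left (chamber 1 1))))) (Trg.left (Trg.right (Trg.right (Trg.right (chamberN 5 13))))) :=
  leaf ok5 (G51 _ rfl) (G447 _ rfl) (G189 _ rfl) (by decide +kernel)

end Vale.Agent.Lib.P154N.D7
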