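import Vale.Agent.Lib.P154N.D7.Data

/-!
# Leaves of the tree of triangles
-/

namespace Vale.Agent.Lib.P154N.D7

open Vale.Agent.Lib.P154K Vale.Agent.Lib.P154Neg

theorem l50 : HoldsN X2 (Trg.right (Trg.left (Trg.right (Trg.left (Trg.right (Trg.right (chamberN 5 13))))))) (Trg.left (Trg.right (Trg.left (Trg.right (Trg.right (chamberN 5 13)))))) :=
  leaf ok2 (G331 _ rfl) (G302 _ rfl) (G324 _ rfl) (by decide +kernel)
theorem l51 : HoldsN X2 (Trg.left (Trg.right (Trg.left (Trg.right (Trg.right (chamberN 5 13)))))) (Trg.right (Trg.right (Trg.left (Trg.right (Trg.right (chamberN 5 13)))))) :=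
  leaf ok2 (G332 _ rfl) (G302 _ rfl) (G289 _ rfl) (by decide +kernel)
theorem l52 : HoldsN X2 (Trg.right (Trg.right (Trg.left (Trg.right (Trg.right (chamberN 5 13)))))) (Trg.right (Trg.left (Trg.right (Trg.right (chamberN 5 13))))) :=
  leaf ok2 (G336 _ rfl) (G289 _ rfl) (G289 _ rfl) (by decide +kernel)
theorem l53 : HoldsN X2 (Trg.left (Trg.right (Trg.right (chamberN 5 13)))) (Trg.right (Trg.right (Trg.right (chamberN 5 13)))) :=
  leaf ok2 (G349 _ rfl) (G243 _ rfl) (G181 _ rfl) (by decide +kernel)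
theorem l54 : HoldsN X2 (Trg.right (Trg.right (Trg.right (chamberN 5 13)))) (Trg.left (Trg.left (Trg.right (Trg.right (chamberN 5 13))))) :=
  leaf ok2 (G375 _ rfl) (G179 _ rfl) (G242 _ rfl) (by decide +kernel)
theorem l55 : HoldsN X2 (Trg.right (Trg.right (Trg.right (chamberN 5 13)))) (Trg.right (Trg.left (Trg.right (Trg.right (chamberN 5 13))))) :=
  leaf ok2 (G344 _ rfl) (G243 _ rfl) (G243 _ rfl) (by decide +kernel)
theorem l56 : HoldsN X2 (Trg.right (Trg.right (Trg.right (chamberN 5 13)))) (Trg.right (Trg.right (Trg.right (chamberN 5 13)))) :=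
  leaf ok2 (G405 _ rfl) (G179 _ rfl) (G179 _ rfl) (by decide +kernel)
theorem l57 : HoldsN X2 (Trg.left (Trg.left (Trg.left (Trg.left (chamberN 5 13))))) (Trg.left (Trg.left (Trg.left (chamberNR 5 13)))) :=
  leaf ok2 (G313 _ rfl) (G171 _ rfl) (G335 _ rfl) (by decide +kernel)
theorem l58 : HoldsN X2 (Trg.right (Trg.left (Trg.left (Trg.left (chamberN 5 13))))) (Trg.left (Trg.left (Trg.left (Trg.left (chamberNR 5 13))))) :=
  leaf ok2 (G341 _ rfl) (G170 _ rfl) (G335 _ rfl) (by decide +kernel)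
theorem l59 : HoldsN X2 (Trg.right (Trg.left (Trg.left (Trg.left (chamberN 5 13))))) (Trg.right (Trg.left (Trg.left (Trg.left (chamberNR 5 13))))) :=
  leaf ok2 (G388 _ rfl) (G121 _ rfl) (G333 _ rfl) (by decide +kernel)

end Vale.Agent.Lib.P154N.D7
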