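import Vale.Agent.Lib.P154N.D7.Data

/-!
# Leaves of the tree of triangles
-/

namespace Vale.Agent.Lib.P154N.D7

open Vale.Agent.Lib.P154K Vale.Agent.Lib.P154Neg

theorem l500 : HoldsN X5 (Trg.right (Trg.left (Trg.right (Trg.left (chamber 1 1))))) (Trg.right (Trg.right (Trg.right (Trg.right (chamberN 5 13))))) :=
  leaf ok5 (G72 _ rfl) (G446 _ rfl) (G146 _ rfl) (by decide +kernel)
theorem l501 : HoldsN X5 (Trg.left (Trg.right (Trg.right (Trg.left (chamber 1 1))))) (Trg.left (Trg.left (Trg.right (Trg.right (Trg.right (chamberN 5 13)))))) :=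
  leaf ok5 (G43 _ rfl) (G432 _ rfl) (G379 _ rfl) (by decide +kernel)
theorem l502 : HoldsN X5 (Trg.left (Trg.right (Trg.right (Trg.left (chamber 1 1))))) (Trg.right (Trg.left (Trg.right (Trg.right (Trg.right (chamberN 5 13)))))) :=
  leaf ok5 (G28 _ rfl) (G460 _ rfl) (G381 _ rfl) (by decide +kernel)
theorem l503 : HoldsN X5 (Trg.left (Trg.left (Trg.right (Trg.right (Trg.left (chamber 1 1)))))) (Trg.right (Trg.right (Trg.right (Trg.right (chamberN 5 13))))) :=
  leaf ok5 (G57 _ rfl) (G432 _ rfl) (G275 _ rfl) (by decide +kernel)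
theorem l504 : HoldsN X5 (Trg.right (Trg.left (Trg.right (Trg.right (Trg.left (chamber 1 1)))))) (Trg.right (Trg.right (Trg.right (Trg.right (chamberN 5 13))))) :=
  leaf ok5 (G43 _ rfl) (G431 _ rfl) (G351 _ rfl) (by decide +kernel)
theorem l505 : HoldsN X5 (Trg.left (Trg.right (Trg.right (Trg.right (Trg.left (chamber 1 1)))))) (Trg.right (Trg.right (Trg.right (chamberN 5 13)))) :=
  leaf ok5 (G73 _ rfl) (G421 _ rfl) (G226 _ rfl) (by decide +kernel)
theorem l506 : HoldsN X5 (Trg.right (Trg.right (Trg.right (Trg.right (Trg.left (chamber 1 1)))))) (Trg.left (Trg.right (Trg.right (Trg.right (chamberN 5 13))))) :=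
  leaf ok5 (G50 _ rfl) (G433 _ rfl) (G316 _ rfl) (by decide +kernel)
theorem l507 : HoldsN X5 (Trg.right (Trg.right (Trg.right (Trg.right (Trg.left (chamber 1 1)))))) (Trg.right (Trg.right (Trg.right (Trg.right (chamberN 5 13))))) :=
  leaf ok5 (G71 _ rfl) (G432 _ rfl) (G251 _ rfl) (by decide +kernel)
theorem l508 : HoldsN X5 (Trg.left (Trg.left (Trg.right (chamber 1 1)))) (Trg.left (Trg.left (Trg.left (Trg.left (chamberN 5 13))))) :=
  leaf ok5 (G60 _ rfl) (G209 _ rfl) (G440 _ rfl) (by decide +kernel)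
theorem l509 : HoldsN X5 (Trg.left (Trg.left (Trg.right (chamber 1 1)))) (Trg.right (Trg.left (Trg.left (Trg.left (chamberN 5 13))))) :=
  leaf ok5 (G17 _ rfl) (G359 _ rfl) (G441 _ rfl) (by decide +kernel)

end Vale.Agent.Lib.P154N.D7
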