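import Vale.Agent.Lib.P154N.D7.Data

/-!
# Leaves of the tree of triangles
-/

namespace Vale.Agent.Lib.P154N.D7

open Vale.Agent.Lib.P154K Vale.Agent.Lib.P154Neg

theorem l510 : HoldsN X5 (Trg.left (Trg.right (Trg.left (Trg.right (chamber 1 1))))) (Trg.left (Trg.left (Trg.left (chamberN 5 13)))) :=
  leaf ok5 (G9 _ rfl) (G159 _ rfl) (G467 _ rfl) (by decide +kernel)
theorem l511 : HoldsN X5 (Trg.right (Trg.right (Trg.left (Trg.right (chamber 1 1))))) (Trg.left (Trg.left (Trg.left (Trg.left (chamberN 5 13))))) :=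
  leaf ok5 (G60 _ rfl) (G190 _ rfl) (G449 _ rfl) (by decide +kernel)
theorem l512 : HoldsN X5 (Trg.right (Trg.right (Trg.left (Trg.right (chamber 1 1))))) (Trg.right (Trg.left (Trg.left (Trg.left (chamberN 5 13))))) :=
  leaf ok5 (G17 _ rfl) (G355 _ rfl) (G453 _ rfl) (by decide +kernel)
theorem l513 : HoldsN X5 (Trg.left (Trg.right (chamber 1 1))) (Trg.right (Trg.left (Trg.left (chamberN 5 13)))) :=
  leaf ok5 (G69 _ rfl) (G156 _ rfl) (G362 _ rfl) (by decide +kernel)
theorem l514 : HoldsN X5 (Trg.left (Trg.left (Trg.right (chamber 1 1)))) (Trg.left (Trg.right (Trg.left (chamberN 5 13)))) :=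
  leaf ok5 (G42 _ rfl) (G129 _ rfl) (G455 _ rfl) (by decide +kernel)
theorem l515 : HoldsN X5 (Trg.left (Trg.left (Trg.right (chamber 1 1)))) (Trg.left (Trg.right (Trg.right (Trg.left (chamberN 5 13))))) :=
  leaf ok5 (G16 _ rfl) (G285 _ rfl) (G473 _ rfl) (by decide +kernel)
theorem l516 : HoldsN X5 (Trg.left (Trg.left (Trg.right (chamber 1 1)))) (Trg.right (Trg.right (Trg.right (Trg.left (chamberN 5 13))))) :=
  leaf ok5 (G42 _ rfl) (G208 _ rfl) (G454 _ rfl) (by decide +kernel)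
theorem l517 : HoldsN X5 (Trg.left (Trg.right (Trg.left (Trg.right (chamber 1 1))))) (Trg.right (Trg.left (chamberN 5 13))) :=
  leaf ok5 (G9 _ rfl) (G86 _ rfl) (G477 _ rfl) (by decide +kernel)
theorem l518 : HoldsN X5 (Trg.right (Trg.right (Trg.left (Trg.right (chamber 1 1))))) (Trg.right (Trg.left (chamberN 5 13))) :=
  leaf ok5 (G18 _ rfl) (G111 _ rfl) (G455 _ rfl) (by decide +kernel)
theorem l519 : HoldsN X5 (Trg.left (Trg.left (Trg.right (chamber 1 1)))) (Trg.left (Trg.left (Trg.right (chamberN 5 13)))) :=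
  leaf ok5 (G4 _ rfl) (G417 _ rfl) (G417 _ rfl) (by decide +kernel)

end Vale.Agent.Lib.P154N.D7
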