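import Vale.Agent.Lib.P154N.D7.Data

/-!
# Leaves of the tree of triangles
-/

namespace Vale.Agent.Lib.P154N.D7

open Vale.Agent.Lib.P154K Vale.Agent.Lib.P154Neg

theorem l540 : HoldsN X5 (Trg.left (Trg.right (Trg.right (chamber 1 1)))) (Trg.left (Trg.right (Trg.right (chamberN 5 13)))) :=
  leaf ok5 (G81 _ rfl) (G350 _ rfl) (G350 _ rfl) (by decide +kernel)
theorem l541 : HoldsN X5 (Trg.left (Trg.right (Trg.right (chamber 1 1)))) (Trg.right (Trg.right (Trg.right (chamberN 5 13)))) :=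
  leaf ok5 (G69 _ rfl) (G350 _ rfl) (G362 _ rfl) (by decide +kernel)
theorem l542 : HoldsN X5 (Trg.right (Trg.right (Trg.right (chamber 1 1)))) (Trg.left (Trg.right (Trg.right (chamberN 5 13)))) :=
  leaf ok5 (G69 _ rfl) (G362 _ rfl) (G350 _ rfl) (by decide +kernel)
theorem l543 : HoldsN X5 (Trg.right (Trg.right (Trg.right (chamber 1 1)))) (Trg.right (Trg.right (Trg.right (chamberN 5 13)))) :=
  leaf ok5 (G31 _ rfl) (G395 _ rfl) (G395 _ rfl) (by decide +kernel)
theorem l544 : HoldsN X5 (Trg.left (Trg.left (Trg.left (chamber 1 1)))) (Trg.left (Trg.left (Trg.left (chamberNR 5 13)))) :=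
  leaf ok5 (G55 _ rfl) (G399 _ rfl) (G142 _ rfl) (by decide +kernel)
theorem l545 : HoldsN X5 (Trg.left (Trg.left (Trg.left (chamber 1 1)))) (Trg.right (Trg.left (Trg.left (chamberNR 5 13)))) :=
  leaf ok5 (G117 _ rfl) (G358 _ rfl) (G144 _ rfl) (by decide +kernel)
theorem l546 : HoldsN X5 (Trg.left (Trg.left (Trg.left (chamber 1 1)))) (Trg.right (Trg.left (chamberNR 5 13))) :=
  leaf ok5 (G56 _ rfl) (G399 _ rfl) (G80 _ rfl) (by decide +kernel)
theorem l547 : HoldsN X5 (Trg.right (Trg.left (Trg.left (chamber 1 1)))) (Trg.left (chamberNR 5 13)) :=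
  leaf ok5 (G118 _ rfl) (G358 _ rfl) (G144 _ rfl) (by decide +kernel)
theorem l548 : HoldsN X5 (Trg.left (Trg.right (Trg.left (chamber 1 1)))) (Trg.left (Trg.left (Trg.left (chamberNR 5 13)))) :=
  leaf ok5 (G98 _ rfl) (G397 _ rfl) (G78 _ rfl) (by decide +kernel)
theorem l549 : HoldsN X5 (Trg.right (Trg.right (Trg.left (chamber 1 1)))) (Trg.left (Trg.left (Trg.left (chamberNR 5 13)))) :=
  leaf ok5 (G55 _ rfl) (G399 _ rfl) (G121 _ rfl) (by decide +kernel)

end Vale.Agent.Lib.P154N.D7
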