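import Vale.Agent.Lib.P154N.D7.Data

/-!
# Leaves of the tree of triangles
-/

namespace Vale.Agent.Lib.P154N.D7

open Vale.Agent.Lib.P154K Vale.Agent.Lib.P154Neg

theorem l560 : HoldsN X5 (Trg.left (Trg.right (Trg.right (Trg.left (chamber 1 1))))) (Trg.left (Trg.left (Trg.right (chamberNR 5 13)))) :=
  leaf ok5 (G22 _ rfl) (G476 _ rfl) (G128 _ rfl) (by decide +kernel)
theorem l561 : HoldsN X5 (Trg.left (Trg.right (Trg.right (Trg.left (chamber 1 1))))) (Trg.left (Trg.right (Trg.left (Trg.right (chamberNR 5 13))))) :=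
  leaf ok5 (G6 _ rfl) (G488 _ rfl) (G176 _ rfl) (by decide +kernel)
theorem l562 : HoldsN X5 (Trg.left (Trg.right (Trg.right (Trg.left (chamber 1 1))))) (Trg.right (Trg.right (Trg.left (Trg.right (chamberNR 5 13))))) :=
  leaf ok5 (G22 _ rfl) (G476 _ rfl) (G175 _ rfl) (by decide +kernel)
theorem l563 : HoldsN X5 (Trg.right (Trg.right (Trg.right (Trg.left (chamber 1 1))))) (Trg.left (Trg.left (Trg.right (chamberNR 5 13)))) :=
  leaf ok5 (G64 _ rfl) (G456 _ rfl) (G123 _ rfl) (by decide +kernel)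
theorem l564 : HoldsN X5 (Trg.right (Trg.right (Trg.right (Trg.left (chamber 1 1))))) (Trg.left (Trg.right (Trg.left (Trg.right (chamberNR 5 13))))) :=
  leaf ok5 (G33 _ rfl) (G477 _ rfl) (G143 _ rfl) (by decide +kernel)
theorem l565 : HoldsN X5 (Trg.right (Trg.right (Trg.right (Trg.left (chamber 1 1))))) (Trg.right (Trg.right (Trg.left (Trg.right (chamberNR 5 13))))) :=
  leaf ok5 (G60 _ rfl) (G456 _ rfl) (G143 _ rfl) (by decide +kernel)
theorem l566 : HoldsN X5 (Trg.left (Trg.left (Trg.left (Trg.left (chamber 1 1))))) (Trg.left (Trg.left (Trg.right (Trg.right (chamberNR 5 13))))) :=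
  leaf ok5 (G107 _ rfl) (G414 _ rfl) (G218 _ rfl) (by decide +kernel)
theorem l567 : HoldsN X5 (Trg.left (Trg.left (Trg.left (Trg.left (chamber 1 1))))) (Trg.right (Trg.left (Trg.right (Trg.right (chamberNR 5 13))))) :=
  leaf ok5 (G181 _ rfl) (G352 _ rfl) (G216 _ rfl) (by decide +kernel)
theorem l568 : HoldsN X5 (Trg.right (Trg.left (Trg.left (Trg.left (chamber 1 1))))) (Trg.left (Trg.right (Trg.right (chamberNR 5 13)))) :=
  leaf ok5 (G69 _ rfl) (G362 _ rfl) (G254 _ rfl) (by decide +kernel)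
theorem l569 : HoldsN X5 (Trg.left (Trg.left (Trg.left (chamber 1 1)))) (Trg.right (Trg.right (Trg.right (chamberNR 5 13)))) :=
  leaf ok5 (G54 _ rfl) (G428 _ rfl) (G149 _ rfl) (by decide +kernel)

end Vale.Agent.Lib.P154N.D7
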