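import Vale.Agent.Lib.P154N.D7.Data

/-!
# Leaves of the tree of triangles
-/

namespace Vale.Agent.Lib.P154N.D7

open Vale.Agent.Lib.P154K Vale.Agent.Lib.P154Neg

theorem l570 : HoldsN X5 (Trg.right (Trg.left (Trg.left (chamber 1 1)))) (Trg.left (Trg.right (Trg.right (chamberNR 5 13)))) :=
  leaf ok5 (G124 _ rfl) (G350 _ rfl) (G219 _ rfl) (by decide +kernel)
theorem l571 : HoldsN X5 (Trg.right (Trg.left (Trg.left (chamber 1 1)))) (Trg.right (Trg.right (Trg.right (chamberNR 5 13)))) :=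
  leaf ok5 (G116 _ rfl) (G358 _ rfl) (G147 _ rfl) (by decide +kernel)
theorem l572 : HoldsN X5 (Trg.left (Trg.left (Trg.left (Trg.right (Trg.left (chamber 1 1)))))) (Trg.left (Trg.left (Trg.right (Trg.right (chamberNR 5 13))))) :=
  leaf ok5 (G95 _ rfl) (G431 _ rfl) (G179 _ rfl) (by decide +kernel)
theorem l573 : HoldsN X5 (Trg.right (Trg.left (Trg.left (Trg.right (Trg.left (chamber 1 1)))))) (Trg.left (Trg.left (Trg.right (Trg.right (chamberNR 5 13))))) :=
  leaf ok5 (G135 _ rfl) (G414 _ rfl) (G178 _ rfl) (by decide +kernel)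
theorem l574 : HoldsN X5 (Trg.right (Trg.left (Trg.right (Trg.left (chamber 1 1))))) (Trg.left (Trg.left (Trg.right (Trg.right (chamberNR 5 13))))) :=
  leaf ok5 (G95 _ rfl) (G431 _ rfl) (G142 _ rfl) (by decide +kernel)
theorem l575 : HoldsN X5 (Trg.left (Trg.right (Trg.left (chamber 1 1)))) (Trg.right (Trg.left (Trg.right (Trg.right (chamberNR 5 13))))) :=
  leaf ok5 (G172 _ rfl) (G356 _ rfl) (G144 _ rfl) (by decide +kernel)
theorem l576 : HoldsN X5 (Trg.left (Trg.right (Trg.right (Trg.left (chamber 1 1))))) (Trg.left (Trg.right (Trg.right (chamberNR 5 13)))) :=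
  leaf ok5 (G69 _ rfl) (G362 _ rfl) (G207 _ rfl) (by decide +kernel)
theorem l577 : HoldsN X5 (Trg.left (Trg.right (Trg.right (Trg.right (Trg.left (chamber 1 1)))))) (Trg.left (Trg.left (Trg.right (Trg.right (chamberNR 5 13))))) :=
  leaf ok5 (G107 _ rfl) (G414 _ rfl) (G213 _ rfl) (by decide +kernel)
theorem l578 : HoldsN X5 (Trg.right (Trg.right (Trg.right (Trg.right (Trg.left (chamber 1 1)))))) (Trg.left (Trg.left (Trg.right (Trg.right (chamberNR 5 13))))) :=
  leaf ok5 (G92 _ rfl) (G431 _ rfl) (G203 _ rfl) (by decide +kernel)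
theorem l579 : HoldsN X5 (Trg.right (Trg.right (Trg.right (Trg.left (chamber 1 1))))) (Trg.right (Trg.left (Trg.right (Trg.right (chamberNR 5 13))))) :=
  leaf ok5 (G172 _ rfl) (G356 _ rfl) (G204 _ rfl) (by decide +kernel)

end Vale.Agent.Lib.P154N.D7
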