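import Vale.Agent.Lib.P154N.D7.Data

/-!
# Leaves of the tree of triangles
-/

namespace Vale.Agent.Lib.P154N.D7

open Vale.Agent.Lib.P154K Vale.Agent.Lib.P154Neg

theorem l580 : HoldsN X5 (Trg.left (Trg.left (Trg.right (Trg.left (chamber 1 1))))) (Trg.right (Trg.right (Trg.right (chamberNR 5 13)))) :=
  leaf ok5 (G96 _ rfl) (G427 _ rfl) (G105 _ rfl) (by decide +kernel)
theorem l581 : HoldsN X5 (Trg.right (Trg.left (Trg.right (Trg.left (chamber 1 1))))) (Trg.right (Trg.right (Trg.right (chamberNR 5 13)))) :=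
  leaf ok5 (G95 _ rfl) (G448 _ rfl) (G80 _ rfl) (by decide +kernel)
theorem l582 : HoldsN X5 (Trg.left (Trg.right (Trg.right (Trg.left (chamber 1 1))))) (Trg.right (Trg.right (Trg.right (chamberNR 5 13)))) :=
  leaf ok5 (G51 _ rfl) (G461 _ rfl) (G128 _ rfl) (by decide +kernel)
theorem l583 : HoldsN X5 (Trg.right (Trg.right (Trg.right (Trg.left (chamber 1 1))))) (Trg.right (Trg.right (Trg.right (chamberNR 5 13)))) :=
  leaf ok5 (G96 _ rfl) (G427 _ rfl) (G123 _ rfl) (by decide +kernel)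
theorem l584 : HoldsN X5 (Trg.left (Trg.left (Trg.right (chamber 1 1)))) (Trg.left (Trg.left (Trg.left (chamberNR 5 13)))) :=
  leaf ok5 (G25 _ rfl) (G457 _ rfl) (G149 _ rfl) (by decide +kernel)
theorem l585 : HoldsN X5 (Trg.left (Trg.right (Trg.left (Trg.right (chamber 1 1))))) (Trg.left (Trg.left (Trg.left (chamberNR 5 13)))) :=
  leaf ok5 (G10 _ rfl) (G477 _ rfl) (G157 _ rfl) (by decide +kernel)
theorem l586 : HoldsN X5 (Trg.right (Trg.right (Trg.left (Trg.right (chamber 1 1))))) (Trg.left (Trg.left (Trg.left (chamberNR 5 13)))) :=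
  leaf ok5 (G24 _ rfl) (G457 _ rfl) (G154 _ rfl) (by decide +kernel)
theorem l587 : HoldsN X5 (Trg.left (Trg.right (chamber 1 1))) (Trg.right (Trg.left (Trg.left (chamberNR 5 13)))) :=
  leaf ok5 (G69 _ rfl) (G362 _ rfl) (G150 _ rfl) (by decide +kernel)
theorem l588 : HoldsN X5 (Trg.left (Trg.left (Trg.right (chamber 1 1)))) (Trg.right (Trg.left (chamberNR 5 13))) :=
  leaf ok5 (G25 _ rfl) (G457 _ rfl) (G83 _ rfl) (by decide +kernel)
theorem l589 : HoldsN X5 (Trg.left (Trg.right (Trg.left (Trg.right (chamber 1 1))))) (Trg.right (Trg.left (chamberNR 5 13))) :=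
  leaf ok5 (G10 _ rfl) (G477 _ rfl) (G85 _ rfl) (by decide +kernel)

end Vale.Agent.Lib.P154N.D7
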