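import Vale.Agent.Lib.P154N.D7.Data

/-!
# Leaves of the tree of triangles
-/

namespace Vale.Agent.Lib.P154N.D7

open Vale.Agent.Lib.P154K Vale.Agent.Lib.P154Neg

theorem l590 : HoldsN X5 (Trg.right (Trg.right (Trg.left (Trg.right (chamber 1 1))))) (Trg.right (Trg.left (chamberNR 5 13))) :=
  leaf ok5 (G24 _ rfl) (G457 _ rfl) (G84 _ rfl) (by decide +kernel)
theorem l591 : HoldsN X5 (Trg.left (Trg.left (Trg.right (chamber 1 1)))) (Trg.left (Trg.left (Trg.right (chamberNR 5 13)))) :=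
  leaf ok5 (G5 _ rfl) (G458 _ rfl) (G231 _ rfl) (by decide +kernel)
theorem l592 : HoldsN X5 (Trg.left (Trg.left (Trg.right (chamber 1 1)))) (Trg.left (Trg.right (Trg.left (Trg.right (chamberNR 5 13))))) :=
  leaf ok5 (G2 _ rfl) (G477 _ rfl) (G396 _ rfl) (by decide +kernel)
theorem l593 : HoldsN X5 (Trg.left (Trg.left (Trg.right (chamber 1 1)))) (Trg.right (Trg.right (Trg.left (Trg.right (chamberNR 5 13))))) :=
  leaf ok5 (G5 _ rfl) (G458 _ rfl) (G394 _ rfl) (by decide +kernel)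
theorem l594 : HoldsN X5 (Trg.left (Trg.right (Trg.left (Trg.right (chamber 1 1))))) (Trg.left (Trg.left (Trg.right (chamberNR 5 13)))) :=
  leaf ok5 (G2 _ rfl) (G477 _ rfl) (G396 _ rfl) (by decide +kernel)
theorem l595 : HoldsN X5 (Trg.left (Trg.right (Trg.left (Trg.right (chamber 1 1))))) (Trg.left (Trg.right (Trg.left (Trg.right (chamberNR 5 13))))) :=
  leaf ok5 (G0 _ rfl) (G488 _ rfl) (G464 _ rfl) (by decide +kernel)
theorem l596 : HoldsN X5 (Trg.left (Trg.right (Trg.left (Trg.right (chamber 1 1))))) (Trg.right (Trg.right (Trg.left (Trg.right (chamberNR 5 13))))) :=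
  leaf ok5 (G2 _ rfl) (G477 _ rfl) (G462 _ rfl) (by decide +kernel)
theorem l597 : HoldsN X5 (Trg.right (Trg.right (Trg.left (Trg.right (chamber 1 1))))) (Trg.left (Trg.right (chamberNR 5 13))) :=
  leaf ok5 (G3 _ rfl) (G459 _ rfl) (G398 _ rfl) (by decide +kernel)
theorem l598 : HoldsN X5 (Trg.left (Trg.left (Trg.right (chamber 1 1)))) (Trg.left (Trg.right (Trg.right (chamberNR 5 13)))) :=
  leaf ok5 (G39 _ rfl) (G362 _ rfl) (G283 _ rfl) (by decide +kernel)
theorem l599 : HoldsN X5 (Trg.left (Trg.right (Trg.left (Trg.right (chamber 1 1))))) (Trg.left (Trg.right (Trg.right (chamberNR 5 13)))) :=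
  leaf ok5 (G20 _ rfl) (G362 _ rfl) (G362 _ rfl) (by decide +kernel)

end Vale.Agent.Lib.P154N.D7
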