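import Vale.Agent.Lib.P154N.D7.Data

/-!
# Leaves of the tree of triangles
-/

namespace Vale.Agent.Lib.P154N.D7

open Vale.Agent.Lib.P154K Vale.Agent.Lib.P154Neg

theorem l60 : HoldsN X2 (Trg.left (Trg.left (Trg.left (chamberN 5 13)))) (Trg.right (Trg.left (Trg.left (chamberNR 5 13)))) :=
  leaf ok2 (G312 _ rfl) (G204 _ rfl) (G336 _ rfl) (by decide +kernel)
theorem l61 : HoldsN X2 (Trg.left (Trg.left (Trg.left (Trg.left (chamberN 5 13))))) (Trg.right (Trg.left (chamberNR 5 13))) :=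
  leaf ok2 (G300 _ rfl) (G171 _ rfl) (G366 _ rfl) (by decide +kernel)
theorem l62 : HoldsN X2 (Trg.right (Trg.left (Trg.left (Trg.left (chamberN 5 13))))) (Trg.left (Trg.right (Trg.left (chamberNR 5 13)))) :=
  leaf ok2 (G341 _ rfl) (G134 _ rfl) (G374 _ rfl) (by decide +kernel)
theorem l63 : HoldsN X2 (Trg.right (Trg.left (Trg.left (Trg.left (chamberN 5 13))))) (Trg.left (Trg.right (Trg.right (Trg.left (chamberNR 5 13))))) :=
  leaf ok2 (G388 _ rfl) (G120 _ rfl) (G365 _ rfl) (by decide +kernel)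
theorem l64 : HoldsN X2 (Trg.right (Trg.left (Trg.left (Trg.left (chamberN 5 13))))) (Trg.right (Trg.right (Trg.right (Trg.left (chamberNR 5 13))))) :=
  leaf ok2 (G341 _ rfl) (G134 _ rfl) (G365 _ rfl) (by decide +kernel)
theorem l65 : HoldsN X2 (Trg.right (Trg.left (Trg.left (chamberN 5 13)))) (Trg.left (Trg.left (Trg.left (chamberNR 5 13)))) :=
  leaf ok2 (G312 _ rfl) (G204 _ rfl) (G336 _ rfl) (by decide +kernel)
theorem l66 : HoldsN X2 (Trg.right (Trg.left (Trg.left (chamberN 5 13)))) (Trg.right (Trg.left (Trg.left (chamberNR 5 13)))) :=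
  leaf ok2 (G307 _ rfl) (G261 _ rfl) (G332 _ rfl) (by decide +kernel)
theorem l67 : HoldsN X2 (Trg.right (Trg.left (Trg.left (chamberN 5 13)))) (Trg.right (Trg.left (chamberNR 5 13))) :=
  leaf ok2 (G299 _ rfl) (G204 _ rfl) (G336 _ rfl) (by decide +kernel)
theorem l68 : HoldsN X2 (Trg.left (Trg.right (Trg.left (chamberN 5 13)))) (Trg.left (Trg.left (Trg.left (chamberNR 5 13)))) :=
  leaf ok2 (G300 _ rfl) (G135 _ rfl) (G374 _ rfl) (by decide +kernel)
theorem l69 : HoldsN X2 (Trg.left (Trg.right (Trg.right (Trg.left (chamberN 5 13))))) (Trg.left (Trg.left (Trg.left (Trg.left (chamberNR 5 13))))) :=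
  leaf ok2 (G330 _ rfl) (G169 _ rfl) (G365 _ rfl) (by decide +kernel)

end Vale.Agent.Lib.P154N.D7
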