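import Vale.Agent.Lib.P154N.D7.Data

/-!
# Leaves of the tree of triangles
-/

namespace Vale.Agent.Lib.P154N.D7

open Vale.Agent.Lib.P154K Vale.Agent.Lib.P154Neg

theorem l610 : HoldsN X5 (Trg.left (Trg.right (Trg.right (chamber 1 1)))) (Trg.left (Trg.right (Trg.right (chamberNR 5 13)))) :=
  leaf ok5 (G81 _ rfl) (G350 _ rfl) (G320 _ rfl) (by decide +kernel)
theorem l611 : HoldsN X5 (Trg.left (Trg.right (Trg.right (chamber 1 1)))) (Trg.right (Trg.right (Trg.right (chamberNR 5 13)))) :=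
  leaf ok5 (G69 _ rfl) (G362 _ rfl) (G280 _ rfl) (by decide +kernel)
theorem l612 : HoldsN X5 (Trg.right (Trg.right (Trg.right (chamber 1 1)))) (Trg.left (Trg.right (Trg.right (chamberNR 5 13)))) :=
  leaf ok5 (G69 _ rfl) (G362 _ rfl) (G280 _ rfl) (by decide +kernel)
theorem l613 : HoldsN X5 (Trg.right (Trg.right (Trg.right (chamber 1 1)))) (Trg.right (Trg.right (Trg.right (chamberNR 5 13)))) :=
  leaf ok5 (G52 _ rfl) (G443 _ rfl) (G229 _ rfl) (by decide +kernel)
theorem l614 : HoldsN X6 (Trg.left (Trg.left (Trg.left (Trg.left (chamber 1 1))))) (Trg.left (Trg.left (Trg.left (chamberN 5 13)))) :=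
  leaf ok6 (G73 _ rfl) (G323 _ rfl) (G277 _ rfl) (by decide +kernel)
theorem l615 : HoldsN X6 (Trg.right (Trg.left (Trg.left (Trg.left (chamber 1 1))))) (Trg.left (Trg.left (Trg.left (chamberN 5 13)))) :=
  leaf ok6 (G34 _ rfl) (G285 _ rfl) (G407 _ rfl) (by decide +kernel)
theorem l616 : HoldsN X6 (Trg.left (Trg.left (Trg.left (chamber 1 1)))) (Trg.right (Trg.left (Trg.left (chamberN 5 13)))) :=
  leaf ok6 (G97 _ rfl) (G278 _ rfl) (G321 _ rfl) (by decide +kernel)
theorem l617 : HoldsN X6 (Trg.left (Trg.left (Trg.left (chamber 1 1)))) (Trg.right (Trg.left (chamberN 5 13))) :=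
  leaf ok6 (G34 _ rfl) (G232 _ rfl) (G288 _ rfl) (by decide +kernel)
theorem l618 : HoldsN X6 (Trg.right (Trg.left (Trg.left (chamber 1 1)))) (Trg.left (chamberN 5 13)) :=
  leaf ok6 (G97 _ rfl) (G283 _ rfl) (G283 _ rfl) (by decide +kernel)
theorem l619 : HoldsN X6 (Trg.left (Trg.right (Trg.left (chamber 1 1)))) (Trg.left (Trg.left (Trg.left (chamberN 5 13)))) :=
  leaf ok6 (G53 _ rfl) (G372 _ rfl) (G227 _ rfl) (by decide +kernel)

end Vale.Agent.Lib.P154N.D7
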