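import Vale.Agent.Lib.P154N.D7.Data

/-!
# Leaves of the tree of triangles
-/

namespace Vale.Agent.Lib.P154N.D7

open Vale.Agent.Lib.P154K Vale.Agent.Lib.P154Neg

theorem l620 : HoldsN X6 (Trg.left (Trg.right (Trg.right (Trg.left (chamber 1 1))))) (Trg.left (Trg.left (Trg.left (Trg.left (chamberN 5 13))))) :=
  leaf ok6 (G72 _ rfl) (G281 _ rfl) (G391 _ rfl) (by decide +kernel)
theorem l621 : HoldsN X6 (Trg.left (Trg.right (Trg.right (Trg.left (chamber 1 1))))) (Trg.right (Trg.left (Trg.left (Trg.left (chamberN 5 13))))) :=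
  leaf ok6 (G29 _ rfl) (G433 _ rfl) (G393 _ rfl) (by decide +kernel)
theorem l622 : HoldsN X6 (Trg.right (Trg.right (Trg.right (Trg.left (chamber 1 1))))) (Trg.left (Trg.left (Trg.left (chamberN 5 13)))) :=
  leaf ok6 (G53 _ rfl) (G363 _ rfl) (G277 _ rfl) (by decide +kernel)
theorem l623 : HoldsN X6 (Trg.right (Trg.left (chamber 1 1))) (Trg.right (Trg.left (Trg.left (chamberN 5 13)))) :=
  leaf ok6 (G97 _ rfl) (G283 _ rfl) (G283 _ rfl) (by decide +kernel)
theorem l624 : HoldsN X6 (Trg.right (Trg.left (chamber 1 1))) (Trg.right (Trg.left (chamberN 5 13))) :=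
  leaf ok6 (G34 _ rfl) (G236 _ rfl) (G236 _ rfl) (by decide +kernel)
theorem l625 : HoldsN X6 (Trg.left (Trg.left (Trg.left (Trg.left (chamber 1 1))))) (Trg.left (Trg.right (chamberN 5 13))) :=
  leaf ok6 (G46 _ rfl) (G442 _ rfl) (G155 _ rfl) (by decide +kernel)
theorem l626 : HoldsN X6 (Trg.right (Trg.left (Trg.left (Trg.left (chamber 1 1))))) (Trg.left (Trg.left (Trg.right (chamberN 5 13)))) :=
  leaf ok6 (G17 _ rfl) (G441 _ rfl) (G359 _ rfl) (by decide +kernel)
theorem l627 : HoldsN X6 (Trg.right (Trg.left (Trg.left (Trg.left (chamber 1 1))))) (Trg.left (Trg.right (Trg.left (Trg.right (chamberN 5 13))))) :=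
  leaf ok6 (G7 _ rfl) (G467 _ rfl) (G355 _ rfl) (by decide +kernel)
theorem l628 : HoldsN X6 (Trg.right (Trg.left (Trg.left (Trg.left (chamber 1 1))))) (Trg.right (Trg.right (Trg.left (Trg.right (chamberN 5 13))))) :=
  leaf ok6 (G17 _ rfl) (G453 _ rfl) (G355 _ rfl) (by decide +kernel)
theorem l629 : HoldsN X6 (Trg.right (Trg.left (Trg.left (chamber 1 1)))) (Trg.left (Trg.right (chamberN 5 13))) :=
  leaf ok6 (G69 _ rfl) (G362 _ rfl) (G156 _ rfl) (by decide +kernel)

end Vale.Agent.Lib.P154N.D7
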