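import Vale.Agent.Lib.P154N.D7.Data

/-!
# Leaves of the tree of triangles
-/

namespace Vale.Agent.Lib.P154N.D7

open Vale.Agent.Lib.P154K Vale.Agent.Lib.P154Neg

theorem l630 : HoldsN X6 (Trg.left (Trg.left (Trg.right (Trg.left (chamber 1 1))))) (Trg.left (Trg.left (Trg.right (chamberN 5 13)))) :=
  leaf ok6 (G42 _ rfl) (G454 _ rfl) (G168 _ rfl) (by decide +kernel)
theorem l631 : HoldsN X6 (Trg.right (Trg.left (Trg.right (Trg.left (chamber 1 1))))) (Trg.left (Trg.left (Trg.left (Trg.right (chamberN 5 13))))) :=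
  leaf ok6 (G41 _ rfl) (G474 _ rfl) (G126 _ rfl) (by decide +kernel)
theorem l632 : HoldsN X6 (Trg.right (Trg.left (Trg.right (Trg.left (chamber 1 1))))) (Trg.right (Trg.left (Trg.left (Trg.right (chamberN 5 13))))) :=
  leaf ok6 (G40 _ rfl) (G480 _ rfl) (G129 _ rfl) (by decide +kernel)
theorem l633 : HoldsN X6 (Trg.left (Trg.right (Trg.left (chamber 1 1)))) (Trg.left (Trg.right (Trg.left (Trg.right (chamberN 5 13))))) :=
  leaf ok6 (G32 _ rfl) (G477 _ rfl) (G82 _ rfl) (by decide +kernel)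
theorem l634 : HoldsN X6 (Trg.left (Trg.left (Trg.right (Trg.left (chamber 1 1))))) (Trg.right (Trg.right (Trg.left (Trg.right (chamberN 5 13))))) :=
  leaf ok6 (G42 _ rfl) (G454 _ rfl) (G137 _ rfl) (by decide +kernel)
theorem l635 : HoldsN X6 (Trg.right (Trg.left (Trg.right (Trg.left (chamber 1 1))))) (Trg.right (Trg.right (Trg.left (Trg.right (chamberN 5 13))))) :=
  leaf ok6 (G41 _ rfl) (G474 _ rfl) (G109 _ rfl) (by decide +kernel)
theorem l636 : HoldsN X6 (Trg.left (Trg.right (Trg.right (Trg.left (chamber 1 1))))) (Trg.left (Trg.left (Trg.left (Trg.left (Trg.right (chamberN 5 13)))))) :=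
  leaf ok6 (G15 _ rfl) (G473 _ rfl) (G322 _ rfl) (by decide +kernel)
theorem l637 : HoldsN X6 (Trg.left (Trg.left (Trg.right (Trg.right (Trg.left (chamber 1 1)))))) (Trg.right (Trg.left (Trg.left (Trg.left (Trg.right (chamberN 5 13)))))) :=
  leaf ok6 (G48 _ rfl) (G469 _ rfl) (G275 _ rfl) (by decide +kernel)
theorem l638 : HoldsN X6 (Trg.right (Trg.left (Trg.right (Trg.right (Trg.left (chamber 1 1)))))) (Trg.right (Trg.left (Trg.left (Trg.left (Trg.right (chamberN 5 13)))))) :=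
  leaf ok6 (G36 _ rfl) (G468 _ rfl) (G351 _ rfl) (by decide +kernel)
theorem l639 : HoldsN X6 (Trg.left (Trg.right (Trg.right (Trg.left (chamber 1 1))))) (Trg.right (Trg.left (Trg.left (Trg.right (chamberN 5 13))))) :=
  leaf ok6 (G15 _ rfl) (G473 _ rfl) (G359 _ rfl) (by decide +kernel)

end Vale.Agent.Lib.P154N.D7
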