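import Vale.Agent.Lib.P154N.D7.Data

/-!
# Leaves of the tree of triangles
-/

namespace Vale.Agent.Lib.P154N.D7

open Vale.Agent.Lib.P154K Vale.Agent.Lib.P154Neg

theorem l640 : HoldsN X6 (Trg.left (Trg.right (Trg.right (Trg.left (chamber 1 1))))) (Trg.left (Trg.right (Trg.left (Trg.right (chamberN 5 13))))) :=
  leaf ok6 (G6 _ rfl) (G488 _ rfl) (G231 _ rfl) (by decide +kernel)
theorem l641 : HoldsN X6 (Trg.left (Trg.left (Trg.right (Trg.right (Trg.left (chamber 1 1)))))) (Trg.left (Trg.right (Trg.right (Trg.left (Trg.right (chamberN 5 13)))))) :=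
  leaf ok6 (G37 _ rfl) (G472 _ rfl) (G253 _ rfl) (by decide +kernel)
theorem l642 : HoldsN X6 (Trg.right (Trg.left (Trg.right (Trg.right (Trg.left (chamber 1 1)))))) (Trg.left (Trg.right (Trg.right (Trg.left (Trg.right (chamberN 5 13)))))) :=
  leaf ok6 (G26 _ rfl) (G472 _ rfl) (G348 _ rfl) (by decide +kernel)
theorem l643 : HoldsN X6 (Trg.left (Trg.right (Trg.right (Trg.left (chamber 1 1))))) (Trg.right (Trg.right (Trg.right (Trg.left (Trg.right (chamberN 5 13)))))) :=
  leaf ok6 (G14 _ rfl) (G482 _ rfl) (G260 _ rfl) (by decide +kernel)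
theorem l644 : HoldsN X6 (Trg.right (Trg.right (Trg.right (Trg.left (chamber 1 1))))) (Trg.left (Trg.left (Trg.right (chamberN 5 13)))) :=
  leaf ok6 (G42 _ rfl) (G454 _ rfl) (G208 _ rfl) (by decide +kernel)
theorem l645 : HoldsN X6 (Trg.right (Trg.right (Trg.right (Trg.left (chamber 1 1))))) (Trg.left (Trg.right (Trg.left (Trg.right (chamberN 5 13))))) :=
  leaf ok6 (G32 _ rfl) (G477 _ rfl) (G148 _ rfl) (by decide +kernel)
theorem l646 : HoldsN X6 (Trg.right (Trg.right (Trg.right (Trg.left (chamber 1 1))))) (Trg.right (Trg.right (Trg.left (Trg.right (chamberN 5 13))))) :=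
  leaf ok6 (G42 _ rfl) (G454 _ rfl) (G187 _ rfl) (by decide +kernel)
theorem l647 : HoldsN X6 (Trg.left (Trg.left (Trg.left (Trg.left (chamber 1 1))))) (Trg.left (Trg.right (Trg.right (chamberN 5 13)))) :=
  leaf ok6 (G108 _ rfl) (G357 _ rfl) (G222 _ rfl) (by decide +kernel)
theorem l648 : HoldsN X6 (Trg.right (Trg.left (Trg.left (Trg.left (chamber 1 1))))) (Trg.left (Trg.left (Trg.right (Trg.right (chamberN 5 13))))) :=
  leaf ok6 (G66 _ rfl) (G412 _ rfl) (G346 _ rfl) (by decide +kernel)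
theorem l649 : HoldsN X6 (Trg.right (Trg.left (Trg.left (Trg.left (chamber 1 1))))) (Trg.right (Trg.left (Trg.right (Trg.right (chamberN 5 13))))) :=
  leaf ok6 (G97 _ rfl) (G350 _ rfl) (G347 _ rfl) (by decide +kernel)

end Vale.Agent.Lib.P154N.D7
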