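import Vale.Agent.Lib.P154N.D7.Data

/-!
# Leaves of the tree of triangles
-/

namespace Vale.Agent.Lib.P154N.D7

open Vale.Agent.Lib.P154K Vale.Agent.Lib.P154Neg

theorem l650 : HoldsN X6 (Trg.left (Trg.left (Trg.left (Trg.left (chamber 1 1))))) (Trg.right (Trg.right (Trg.right (chamberN 5 13)))) :=
  leaf ok6 (G73 _ rfl) (G410 _ rfl) (G227 _ rfl) (by decide +kernel)
theorem l651 : HoldsN X6 (Trg.right (Trg.left (Trg.left (Trg.left (chamber 1 1))))) (Trg.right (Trg.right (Trg.right (chamberN 5 13)))) :=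
  leaf ok6 (G31 _ rfl) (G412 _ rfl) (G359 _ rfl) (by decide +kernel)
theorem l652 : HoldsN X6 (Trg.right (Trg.left (Trg.left (chamber 1 1)))) (Trg.right (Trg.right (chamberN 5 13))) :=
  leaf ok6 (G97 _ rfl) (G354 _ rfl) (G228 _ rfl) (by decide +kernel)
theorem l653 : HoldsN X6 (Trg.left (Trg.left (Trg.left (Trg.right (Trg.left (chamber 1 1)))))) (Trg.left (Trg.left (Trg.right (Trg.right (chamberN 5 13))))) :=
  leaf ok6 (G93 _ rfl) (G431 _ rfl) (G186 _ rfl) (by decide +kernel)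
theorem l654 : HoldsN X6 (Trg.right (Trg.left (Trg.left (Trg.right (Trg.left (chamber 1 1)))))) (Trg.left (Trg.left (Trg.left (Trg.right (Trg.right (chamberN 5 13)))))) :=
  leaf ok6 (G141 _ rfl) (G413 _ rfl) (G239 _ rfl) (by decide +kernel)
theorem l655 : HoldsN X6 (Trg.right (Trg.left (Trg.left (Trg.right (Trg.left (chamber 1 1)))))) (Trg.right (Trg.left (Trg.left (Trg.right (Trg.right (chamberN 5 13)))))) :=
  leaf ok6 (G133 _ rfl) (G414 _ rfl) (G179 _ rfl) (by decide +kernel)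
theorem l656 : HoldsN X6 (Trg.right (Trg.left (Trg.right (Trg.left (chamber 1 1))))) (Trg.left (Trg.left (Trg.right (Trg.right (chamberN 5 13))))) :=
  leaf ok6 (G93 _ rfl) (G431 _ rfl) (G146 _ rfl) (by decide +kernel)
theorem l657 : HoldsN X6 (Trg.left (Trg.right (Trg.left (chamber 1 1)))) (Trg.right (Trg.left (Trg.right (Trg.right (chamberN 5 13))))) :=
  leaf ok6 (G116 _ rfl) (G354 _ rfl) (G219 _ rfl) (by decide +kernel)
theorem l658 : HoldsN X6 (Trg.left (Trg.right (Trg.right (Trg.left (chamber 1 1))))) (Trg.left (Trg.left (Trg.right (Trg.right (chamberN 5 13))))) :=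
  leaf ok6 (G65 _ rfl) (G431 _ rfl) (G277 _ rfl) (by decide +kernel)
theorem l659 : HoldsN X6 (Trg.left (Trg.right (Trg.right (Trg.left (chamber 1 1))))) (Trg.right (Trg.left (Trg.right (Trg.right (chamberN 5 13))))) :=
  leaf ok6 (G97 _ rfl) (G352 _ rfl) (G318 _ rfl) (by decide +kernel)

end Vale.Agent.Lib.P154N.D7
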