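import Vale.Agent.Lib.P154N.D7.Data

/-!
# Leaves of the tree of triangles
-/

namespace Vale.Agent.Lib.P154N.D7

open Vale.Agent.Lib.P154K Vale.Agent.Lib.P154Neg

theorem l660 : HoldsN X6 (Trg.right (Trg.right (Trg.right (Trg.left (chamber 1 1))))) (Trg.left (Trg.left (Trg.right (Trg.right (chamberN 5 13))))) :=
  leaf ok6 (G94 _ rfl) (G415 _ rfl) (G220 _ rfl) (by decide +kernel)
theorem l661 : HoldsN X6 (Trg.right (Trg.right (Trg.right (Trg.left (chamber 1 1))))) (Trg.right (Trg.left (Trg.right (Trg.right (chamberN 5 13))))) :=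
  leaf ok6 (G116 _ rfl) (G352 _ rfl) (G270 _ rfl) (by decide +kernel)
theorem l662 : HoldsN X6 (Trg.left (Trg.left (Trg.left (Trg.right (Trg.left (chamber 1 1)))))) (Trg.right (Trg.right (Trg.right (chamberN 5 13)))) :=
  leaf ok6 (G51 _ rfl) (G439 _ rfl) (G189 _ rfl) (by decide +kernel)
theorem l663 : HoldsN X6 (Trg.right (Trg.left (Trg.left (Trg.right (Trg.left (chamber 1 1)))))) (Trg.right (Trg.right (Trg.right (chamberN 5 13)))) :=
  leaf ok6 (G89 _ rfl) (G422 _ rfl) (G184 _ rfl) (by decide +kernel)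
theorem l664 : HoldsN X6 (Trg.right (Trg.left (Trg.right (Trg.left (chamber 1 1))))) (Trg.right (Trg.right (Trg.right (chamberN 5 13)))) :=
  leaf ok6 (G51 _ rfl) (G447 _ rfl) (G151 _ rfl) (by decide +kernel)
theorem l665 : HoldsN X6 (Trg.left (Trg.right (Trg.right (Trg.left (chamber 1 1))))) (Trg.left (Trg.left (Trg.right (Trg.right (Trg.right (chamberN 5 13)))))) :=
  leaf ok6 (G43 _ rfl) (G432 _ rfl) (G379 _ rfl) (by decide +kernel)
theorem l666 : HoldsN X6 (Trg.left (Trg.right (Trg.right (Trg.left (chamber 1 1))))) (Trg.right (Trg.left (Trg.right (Trg.right (Trg.right (chamberN 5 13)))))) :=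
  leaf ok6 (G28 _ rfl) (G460 _ rfl) (G381 _ rfl) (by decide +kernel)
theorem l667 : HoldsN X6 (Trg.left (Trg.left (Trg.right (Trg.right (Trg.left (chamber 1 1)))))) (Trg.right (Trg.right (Trg.right (Trg.right (chamberN 5 13))))) :=
  leaf ok6 (G57 _ rfl) (G432 _ rfl) (G275 _ rfl) (by decide +kernel)
theorem l668 : HoldsN X6 (Trg.right (Trg.left (Trg.right (Trg.right (Trg.left (chamber 1 1)))))) (Trg.right (Trg.right (Trg.right (Trg.right (chamberN 5 13))))) :=
  leaf ok6 (G43 _ rfl) (G431 _ rfl) (G351 _ rfl) (by decide +kernel)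
theorem l669 : HoldsN X6 (Trg.left (Trg.right (Trg.right (Trg.right (Trg.left (chamber 1 1)))))) (Trg.right (Trg.right (Trg.right (chamberN 5 13)))) :=
  leaf ok6 (G73 _ rfl) (G421 _ rfl) (G226 _ rfl) (by decide +kernel)

end Vale.Agent.Lib.P154N.D7
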