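import Vale.Agent.Lib.P154N.D7.Data

/-!
# Leaves of the tree of triangles
-/

namespace Vale.Agent.Lib.P154N.D7

open Vale.Agent.Lib.P154K Vale.Agent.Lib.P154Neg

theorem l680 : HoldsN X6 (Trg.left (Trg.left (Trg.right (chamber 1 1)))) (Trg.right (Trg.right (Trg.right (Trg.left (chamberN 5 13))))) :=
  leaf ok6 (G42 _ rfl) (G208 _ rfl) (G454 _ rfl) (by decide +kernel)
theorem l681 : HoldsN X6 (Trg.left (Trg.right (Trg.left (Trg.right (chamber 1 1))))) (Trg.left (Trg.right (Trg.left (chamberN 5 13)))) :=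
  leaf ok6 (G32 _ rfl) (G82 _ rfl) (G477 _ rfl) (by decide +kernel)
theorem l682 : HoldsN X6 (Trg.left (Trg.right (Trg.left (Trg.right (chamber 1 1))))) (Trg.left (Trg.right (Trg.right (Trg.left (chamberN 5 13))))) :=
  leaf ok6 (G6 _ rfl) (G231 _ rfl) (G488 _ rfl) (by decide +kernel)
theorem l683 : HoldsN X6 (Trg.left (Trg.right (Trg.left (Trg.right (chamber 1 1))))) (Trg.right (Trg.right (Trg.right (Trg.left (chamberN 5 13))))) :=
  leaf ok6 (G32 _ rfl) (G148 _ rfl) (G477 _ rfl) (by decide +kernel)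
theorem l684 : HoldsN X6 (Trg.right (Trg.right (Trg.left (Trg.right (chamber 1 1))))) (Trg.left (Trg.right (Trg.left (chamberN 5 13)))) :=
  leaf ok6 (G42 _ rfl) (G109 _ rfl) (G455 _ rfl) (by decide +kernel)
theorem l685 : HoldsN X6 (Trg.right (Trg.right (Trg.left (Trg.right (chamber 1 1))))) (Trg.left (Trg.right (Trg.right (Trg.left (chamberN 5 13))))) :=
  leaf ok6 (G16 _ rfl) (G260 _ rfl) (G473 _ rfl) (by decide +kernel)
theorem l686 : HoldsN X6 (Trg.right (Trg.right (Trg.left (Trg.right (chamber 1 1))))) (Trg.right (Trg.right (Trg.right (Trg.left (chamberN 5 13))))) :=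
  leaf ok6 (G42 _ rfl) (G187 _ rfl) (G454 _ rfl) (by decide +kernel)
theorem l687 : HoldsN X6 (Trg.left (Trg.left (Trg.right (chamber 1 1)))) (Trg.left (Trg.left (Trg.right (chamberN 5 13)))) :=
  leaf ok6 (G4 _ rfl) (G417 _ rfl) (G417 _ rfl) (by decide +kernel)
theorem l688 : HoldsN X6 (Trg.left (Trg.left (Trg.right (chamber 1 1)))) (Trg.left (Trg.right (Trg.left (Trg.right (chamberN 5 13))))) :=
  leaf ok6 (G2 _ rfl) (G463 _ rfl) (G434 _ rfl) (by decide +kernel)
theorem l689 : HoldsN X6 (Trg.left (Trg.left (Trg.right (chamber 1 1)))) (Trg.right (Trg.right (Trg.left (Trg.right (chamberN 5 13))))) :=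
  leaf ok6 (G4 _ rfl) (G453 _ rfl) (G416 _ rfl) (by decide +kernel)

end Vale.Agent.Lib.P154N.D7
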