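import Vale.Agent.Lib.P154N.D7.Data

/-!
# Leaves of the tree of triangles
-/

namespace Vale.Agent.Lib.P154N.D7

open Vale.Agent.Lib.P154K Vale.Agent.Lib.P154Neg

theorem l690 : HoldsN X6 (Trg.left (Trg.right (Trg.left (Trg.right (chamber 1 1))))) (Trg.left (Trg.left (Trg.right (chamberN 5 13)))) :=
  leaf ok6 (G2 _ rfl) (G434 _ rfl) (G463 _ rfl) (by decide +kernel)
theorem l691 : HoldsN X6 (Trg.left (Trg.right (Trg.left (Trg.right (chamber 1 1))))) (Trg.left (Trg.right (Trg.left (Trg.right (chamberN 5 13))))) :=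
  leaf ok6 (G0 _ rfl) (G484 _ rfl) (G484 _ rfl) (by decide +kernel)
theorem l692 : HoldsN X6 (Trg.left (Trg.right (Trg.left (Trg.right (chamber 1 1))))) (Trg.right (Trg.right (Trg.left (Trg.right (chamberN 5 13))))) :=
  leaf ok6 (G2 _ rfl) (G472 _ rfl) (G463 _ rfl) (by decide +kernel)
theorem l693 : HoldsN X6 (Trg.right (Trg.right (Trg.left (Trg.right (chamber 1 1))))) (Trg.left (Trg.right (chamberN 5 13))) :=
  leaf ok6 (G3 _ rfl) (G418 _ rfl) (G453 _ rfl) (by decide +kernel)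
theorem l694 : HoldsN X6 (Trg.left (Trg.left (Trg.right (chamber 1 1)))) (Trg.left (Trg.left (Trg.right (Trg.right (chamberN 5 13))))) :=
  leaf ok6 (G38 _ rfl) (G395 _ rfl) (G390 _ rfl) (by decide +kernel)
theorem l695 : HoldsN X6 (Trg.left (Trg.left (Trg.right (chamber 1 1)))) (Trg.right (Trg.left (Trg.right (Trg.right (chamberN 5 13))))) :=
  leaf ok6 (G75 _ rfl) (G350 _ rfl) (G356 _ rfl) (by decide +kernel)
theorem l696 : HoldsN X6 (Trg.left (Trg.right (Trg.left (Trg.right (chamber 1 1))))) (Trg.left (Trg.right (Trg.right (chamberN 5 13)))) :=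
  leaf ok6 (G20 _ rfl) (G362 _ rfl) (G362 _ rfl) (by decide +kernel)
theorem l697 : HoldsN X6 (Trg.right (Trg.right (Trg.left (Trg.right (chamber 1 1))))) (Trg.left (Trg.left (Trg.right (Trg.right (chamberN 5 13))))) :=
  leaf ok6 (G38 _ rfl) (G395 _ rfl) (G414 _ rfl) (by decide +kernel)
theorem l698 : HoldsN X6 (Trg.right (Trg.right (Trg.left (Trg.right (chamber 1 1))))) (Trg.right (Trg.left (Trg.right (Trg.right (chamberN 5 13))))) :=
  leaf ok6 (G75 _ rfl) (G350 _ rfl) (G357 _ rfl) (by decide +kernel)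
theorem l699 : HoldsN X6 (Trg.left (Trg.left (Trg.right (chamber 1 1)))) (Trg.right (Trg.right (Trg.right (chamberN 5 13)))) :=
  leaf ok6 (G17 _ rfl) (G395 _ rfl) (G417 _ rfl) (by decide +kernel)

end Vale.Agent.Lib.P154N.D7
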