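import Vale.Agent.Lib.P154N.D7.Data

/-!
# Leaves of the tree of triangles
-/

namespace Vale.Agent.Lib.P154N.D7

open Vale.Agent.Lib.P154K Vale.Agent.Lib.P154Neg

theorem l70 : HoldsN X2 (Trg.left (Trg.right (Trg.right (Trg.left (chamberN 5 13))))) (Trg.left (Trg.right (Trg.left (Trg.left (Trg.left (chamberNR 5 13)))))) :=
  leaf ok2 (G388 _ rfl) (G119 _ rfl) (G365 _ rfl) (by decide +kernel)
theorem l71 : HoldsN X2 (Trg.left (Trg.right (Trg.right (Trg.left (chamberN 5 13))))) (Trg.right (Trg.right (Trg.left (Trg.left (Trg.left (chamberNR 5 13)))))) :=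
  leaf ok2 (G384 _ rfl) (G162 _ rfl) (G365 _ rfl) (by decide +kernel)
theorem l72 : HoldsN X2 (Trg.right (Trg.right (Trg.right (Trg.left (chamberN 5 13))))) (Trg.left (Trg.left (Trg.left (chamberNR 5 13)))) :=
  leaf ok2 (G313 _ rfl) (G135 _ rfl) (G365 _ rfl) (by decide +kernel)
theorem l73 : HoldsN X2 (Trg.right (Trg.left (chamberN 5 13))) (Trg.right (Trg.left (Trg.left (chamberNR 5 13)))) :=
  leaf ok2 (G299 _ rfl) (G204 _ rfl) (G336 _ rfl) (by decide +kernel)
theorem l74 : HoldsN X2 (Trg.left (Trg.right (Trg.left (chamberN 5 13)))) (Trg.left (Trg.right (Trg.left (chamberNR 5 13)))) :=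
  leaf ok2 (G250 _ rfl) (G171 _ rfl) (G374 _ rfl) (by decide +kernel)
theorem l75 : HoldsN X2 (Trg.left (Trg.right (Trg.left (chamberN 5 13)))) (Trg.right (Trg.right (Trg.left (chamberNR 5 13)))) :=
  leaf ok2 (G300 _ rfl) (G135 _ rfl) (G374 _ rfl) (by decide +kernel)
theorem l76 : HoldsN X2 (Trg.left (Trg.right (Trg.right (Trg.left (chamberN 5 13))))) (Trg.left (Trg.right (Trg.left (chamberNR 5 13)))) :=
  leaf ok2 (G313 _ rfl) (G133 _ rfl) (G384 _ rfl) (by decide +kernel)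
theorem l77 : HoldsN X2 (Trg.left (Trg.right (Trg.right (Trg.left (chamberN 5 13))))) (Trg.left (Trg.right (Trg.right (Trg.left (chamberNR 5 13))))) :=
  leaf ok2 (G388 _ rfl) (G119 _ rfl) (G373 _ rfl) (by decide +kernel)
theorem l78 : HoldsN X2 (Trg.left (Trg.right (Trg.right (Trg.left (chamberN 5 13))))) (Trg.right (Trg.right (Trg.right (Trg.left (chamberNR 5 13))))) :=
  leaf ok2 (G330 _ rfl) (G133 _ rfl) (G383 _ rfl) (by decide +kernel)
theorem l79 : HoldsN X2 (Trg.right (Trg.right (Trg.right (Trg.left (chamberN 5 13))))) (Trg.right (Trg.left (chamberNR 5 13))) :=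
  leaf ok2 (G300 _ rfl) (G135 _ rfl) (G374 _ rfl) (by decide +kernel)

end Vale.Agent.Lib.P154N.D7
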