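import Vale.Agent.Lib.P154N.D7.Data

/-!
# Leaves of the tree of triangles
-/

namespace Vale.Agent.Lib.P154N.D7

open Vale.Agent.Lib.P154K Vale.Agent.Lib.P154Neg

theorem l720 : HoldsN X6 (Trg.right (Trg.right (Trg.left (chamber 1 1)))) (Trg.left (Trg.left (Trg.left (chamberNR 5 13)))) :=
  leaf ok6 (G55 _ rfl) (G399 _ rfl) (G121 _ rfl) (by decide +kernel)
theorem l721 : HoldsN X6 (Trg.right (Trg.left (chamber 1 1))) (Trg.right (Trg.left (Trg.left (chamberNR 5 13)))) :=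
  leaf ok6 (G118 _ rfl) (G358 _ rfl) (G144 _ rfl) (by decide +kernel)
theorem l722 : HoldsN X6 (Trg.left (Trg.right (Trg.left (chamber 1 1)))) (Trg.right (Trg.left (chamberNR 5 13))) :=
  leaf ok6 (G99 _ rfl) (G397 _ rfl) (G78 _ rfl) (by decide +kernel)
theorem l723 : HoldsN X6 (Trg.right (Trg.right (Trg.left (chamber 1 1)))) (Trg.right (Trg.left (chamberNR 5 13))) :=
  leaf ok6 (G56 _ rfl) (G399 _ rfl) (G78 _ rfl) (by decide +kernel)
theorem l724 : HoldsN X6 (Trg.left (Trg.left (Trg.left (Trg.left (chamber 1 1))))) (Trg.left (Trg.right (chamberNR 5 13))) :=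
  leaf ok6 (G47 _ rfl) (G453 _ rfl) (G149 _ rfl) (by decide +kernel)
theorem l725 : HoldsN X6 (Trg.right (Trg.left (Trg.left (Trg.left (chamber 1 1))))) (Trg.left (Trg.left (Trg.right (chamberNR 5 13)))) :=
  leaf ok6 (G23 _ rfl) (G457 _ rfl) (G188 _ rfl) (by decide +kernel)
theorem l726 : HoldsN X6 (Trg.right (Trg.left (Trg.left (Trg.left (chamber 1 1))))) (Trg.left (Trg.right (Trg.left (Trg.right (chamberNR 5 13))))) :=
  leaf ok6 (G7 _ rfl) (G477 _ rfl) (G259 _ rfl) (by decide +kernel)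
theorem l727 : HoldsN X6 (Trg.right (Trg.left (Trg.left (Trg.left (chamber 1 1))))) (Trg.right (Trg.right (Trg.left (Trg.right (chamberNR 5 13))))) :=
  leaf ok6 (G23 _ rfl) (G457 _ rfl) (G255 _ rfl) (by decide +kernel)
theorem l728 : HoldsN X6 (Trg.right (Trg.left (Trg.left (chamber 1 1)))) (Trg.left (Trg.right (chamberNR 5 13))) :=
  leaf ok6 (G69 _ rfl) (G362 _ rfl) (G150 _ rfl) (by decide +kernel)
theorem l729 : HoldsN X6 (Trg.left (Trg.left (Trg.right (Trg.left (chamber 1 1))))) (Trg.left (Trg.left (Trg.right (chamberNR 5 13)))) :=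
  leaf ok6 (G64 _ rfl) (G456 _ rfl) (G105 _ rfl) (by decide +kernel)

end Vale.Agent.Lib.P154N.D7
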