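import Vale.Agent.Lib.P154N.D7.Data

/-!
# Leaves of the tree of triangles
-/

namespace Vale.Agent.Lib.P154N.D7

open Vale.Agent.Lib.P154K Vale.Agent.Lib.P154Neg

theorem l730 : HoldsN X6 (Trg.right (Trg.left (Trg.right (Trg.left (chamber 1 1))))) (Trg.left (Trg.left (Trg.right (chamberNR 5 13)))) :=
  leaf ok6 (G63 _ rfl) (G475 _ rfl) (G80 _ rfl) (by decide +kernel)
theorem l731 : HoldsN X6 (Trg.left (Trg.right (Trg.left (chamber 1 1)))) (Trg.left (Trg.right (Trg.left (Trg.right (chamberNR 5 13))))) :=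
  leaf ok6 (G33 _ rfl) (G477 _ rfl) (G79 _ rfl) (by decide +kernel)
theorem l732 : HoldsN X6 (Trg.left (Trg.left (Trg.right (Trg.left (chamber 1 1))))) (Trg.right (Trg.right (Trg.left (Trg.right (chamberNR 5 13))))) :=
  leaf ok6 (G60 _ rfl) (G456 _ rfl) (G105 _ rfl) (by decide +kernel)
theorem l733 : HoldsN X6 (Trg.right (Trg.left (Trg.right (Trg.left (chamber 1 1))))) (Trg.right (Trg.right (Trg.left (Trg.right (chamberNR 5 13))))) :=
  leaf ok6 (G59 _ rfl) (G475 _ rfl) (G80 _ rfl) (by decide +kernel)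
theorem l734 : HoldsN X6 (Trg.left (Trg.right (Trg.right (Trg.left (chamber 1 1))))) (Trg.left (Trg.left (Trg.left (Trg.left (Trg.right (chamberNR 5 13)))))) :=
  leaf ok6 (G22 _ rfl) (G483 _ rfl) (G174 _ rfl) (by decide +kernel)
theorem l735 : HoldsN X6 (Trg.left (Trg.right (Trg.right (Trg.left (chamber 1 1))))) (Trg.right (Trg.left (Trg.left (Trg.left (Trg.right (chamberNR 5 13)))))) :=
  leaf ok6 (G37 _ rfl) (G471 _ rfl) (G188 _ rfl) (by decide +kernel)
theorem l736 : HoldsN X6 (Trg.left (Trg.right (Trg.right (Trg.left (chamber 1 1))))) (Trg.right (Trg.left (Trg.left (Trg.right (chamberNR 5 13))))) :=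
  leaf ok6 (G22 _ rfl) (G483 _ rfl) (G127 _ rfl) (by decide +kernel)
theorem l737 : HoldsN X6 (Trg.left (Trg.right (Trg.right (Trg.left (chamber 1 1))))) (Trg.left (Trg.right (Trg.left (Trg.right (chamberNR 5 13))))) :=
  leaf ok6 (G6 _ rfl) (G488 _ rfl) (G176 _ rfl) (by decide +kernel)
theorem l738 : HoldsN X6 (Trg.left (Trg.left (Trg.right (Trg.right (Trg.left (chamber 1 1)))))) (Trg.left (Trg.right (Trg.right (Trg.left (Trg.right (chamberNR 5 13)))))) :=
  leaf ok6 (G37 _ rfl) (G472 _ rfl) (G217 _ rfl) (by decide +kernel)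
theorem l739 : HoldsN X6 (Trg.right (Trg.left (Trg.right (Trg.right (Trg.left (chamber 1 1)))))) (Trg.left (Trg.right (Trg.right (Trg.left (Trg.right (chamberNR 5 13)))))) :=
  leaf ok6 (G26 _ rfl) (G472 _ rfl) (G301 _ rfl) (by decide +kernel)

end Vale.Agent.Lib.P154N.D7
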