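import Vale.Agent.Lib.P154N.D7.Data

/-!
# Leaves of the tree of triangles
-/

namespace Vale.Agent.Lib.P154N.D7

open Vale.Agent.Lib.P154K Vale.Agent.Lib.P154Neg

theorem l740 : HoldsN X6 (Trg.left (Trg.right (Trg.right (Trg.left (chamber 1 1))))) (Trg.right (Trg.right (Trg.right (Trg.left (Trg.right (chamberNR 5 13)))))) :=
  leaf ok6 (G21 _ rfl) (G487 _ rfl) (G175 _ rfl) (by decide +kernel)
theorem l741 : HoldsN X6 (Trg.right (Trg.right (Trg.right (Trg.left (chamber 1 1))))) (Trg.left (Trg.left (Trg.right (chamberNR 5 13)))) :=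
  leaf ok6 (G64 _ rfl) (G456 _ rfl) (G123 _ rfl) (by decide +kernel)
theorem l742 : HoldsN X6 (Trg.right (Trg.right (Trg.right (Trg.left (chamber 1 1))))) (Trg.left (Trg.right (Trg.left (Trg.right (chamberNR 5 13))))) :=
  leaf ok6 (G33 _ rfl) (G477 _ rfl) (G143 _ rfl) (by decide +kernel)
theorem l743 : HoldsN X6 (Trg.right (Trg.right (Trg.right (Trg.left (chamber 1 1))))) (Trg.right (Trg.right (Trg.left (Trg.right (chamberNR 5 13))))) :=
  leaf ok6 (G60 _ rfl) (G456 _ rfl) (G143 _ rfl) (by decide +kernel)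
theorem l744 : HoldsN X6 (Trg.left (Trg.left (Trg.left (Trg.left (chamber 1 1))))) (Trg.left (Trg.right (Trg.right (chamberNR 5 13)))) :=
  leaf ok6 (G108 _ rfl) (G357 _ rfl) (G219 _ rfl) (by decide +kernel)
theorem l745 : HoldsN X6 (Trg.right (Trg.left (Trg.left (Trg.left (chamber 1 1))))) (Trg.left (Trg.right (Trg.right (chamberNR 5 13)))) :=
  leaf ok6 (G69 _ rfl) (G362 _ rfl) (G254 _ rfl) (by decide +kernel)
theorem l746 : HoldsN X6 (Trg.left (Trg.left (Trg.left (chamber 1 1)))) (Trg.right (Trg.right (Trg.right (chamberNR 5 13)))) :=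
  leaf ok6 (G54 _ rfl) (G428 _ rfl) (G149 _ rfl) (by decide +kernel)
theorem l747 : HoldsN X6 (Trg.right (Trg.left (Trg.left (chamber 1 1)))) (Trg.right (Trg.right (chamberNR 5 13))) :=
  leaf ok6 (G116 _ rfl) (G358 _ rfl) (G147 _ rfl) (by decide +kernel)
theorem l748 : HoldsN X6 (Trg.left (Trg.left (Trg.left (Trg.right (Trg.left (chamber 1 1)))))) (Trg.left (Trg.left (Trg.right (Trg.right (chamberNR 5 13))))) :=
  leaf ok6 (G95 _ rfl) (G431 _ rfl) (G179 _ rfl) (by decide +kernel)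
theorem l749 : HoldsN X6 (Trg.right (Trg.left (Trg.left (Trg.right (Trg.left (chamber 1 1)))))) (Trg.left (Trg.left (Trg.right (Trg.right (chamberNR 5 13))))) :=
  leaf ok6 (G135 _ rfl) (G414 _ rfl) (G178 _ rfl) (by decide +kernel)

end Vale.Agent.Lib.P154N.D7
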