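import Vale.Agent.Lib.P154N.D7.Data

/-!
# Leaves of the tree of triangles
-/

namespace Vale.Agent.Lib.P154N.D7

open Vale.Agent.Lib.P154K Vale.Agent.Lib.P154Neg

theorem l760 : HoldsN X6 (Trg.left (Trg.left (Trg.right (chamber 1 1)))) (Trg.left (Trg.left (Trg.left (chamberNR 5 13)))) :=
  leaf ok6 (G25 _ rfl) (G457 _ rfl) (G149 _ rfl) (by decide +kernel)
theorem l761 : HoldsN X6 (Trg.left (Trg.right (Trg.left (Trg.right (chamber 1 1))))) (Trg.left (Trg.left (Trg.left (Trg.left (chamberNR 5 13))))) :=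
  leaf ok6 (G45 _ rfl) (G472 _ rfl) (G149 _ rfl) (by decide +kernel)
theorem l762 : HoldsN X6 (Trg.left (Trg.right (Trg.left (Trg.right (chamber 1 1))))) (Trg.right (Trg.left (Trg.left (Trg.left (chamberNR 5 13))))) :=
  leaf ok6 (G7 _ rfl) (G477 _ rfl) (G259 _ rfl) (by decide +kernel)
theorem l763 : HoldsN X6 (Trg.right (Trg.right (Trg.left (Trg.right (chamber 1 1))))) (Trg.left (Trg.left (Trg.left (chamberNR 5 13)))) :=
  leaf ok6 (G24 _ rfl) (G457 _ rfl) (G154 _ rfl) (by decide +kernel)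
theorem l764 : HoldsN X6 (Trg.left (Trg.right (chamber 1 1))) (Trg.right (Trg.left (Trg.left (chamberNR 5 13)))) :=
  leaf ok6 (G69 _ rfl) (G362 _ rfl) (G150 _ rfl) (by decide +kernel)
theorem l765 : HoldsN X6 (Trg.left (Trg.left (Trg.right (chamber 1 1)))) (Trg.right (Trg.left (chamberNR 5 13))) :=
  leaf ok6 (G25 _ rfl) (G457 _ rfl) (G83 _ rfl) (by decide +kernel)
theorem l766 : HoldsN X6 (Trg.left (Trg.right (Trg.left (Trg.right (chamber 1 1))))) (Trg.left (Trg.right (Trg.left (chamberNR 5 13)))) :=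
  leaf ok6 (G33 _ rfl) (G477 _ rfl) (G79 _ rfl) (by decide +kernel)
theorem l767 : HoldsN X6 (Trg.left (Trg.right (Trg.left (Trg.right (chamber 1 1))))) (Trg.left (Trg.right (Trg.right (Trg.left (chamberNR 5 13))))) :=
  leaf ok6 (G6 _ rfl) (G488 _ rfl) (G176 _ rfl) (by decide +kernel)
theorem l768 : HoldsN X6 (Trg.left (Trg.right (Trg.left (Trg.right (chamber 1 1))))) (Trg.right (Trg.right (Trg.right (Trg.left (chamberNR 5 13))))) :=
  leaf ok6 (G33 _ rfl) (G477 _ rfl) (G143 _ rfl) (by decide +kernel)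
theorem l769 : HoldsN X6 (Trg.right (Trg.right (Trg.left (Trg.right (chamber 1 1))))) (Trg.right (Trg.left (chamberNR 5 13))) :=
  leaf ok6 (G24 _ rfl) (G457 _ rfl) (G84 _ rfl) (by decide +kernel)

end Vale.Agent.Lib.P154N.D7
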