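import Vale.Agent.Lib.P154N.D7.Data

/-!
# Leaves of the tree of triangles
-/

namespace Vale.Agent.Lib.P154N.D7

open Vale.Agent.Lib.P154K Vale.Agent.Lib.P154Neg

theorem l80 : HoldsN X2 (Trg.left (chamberN 5 13)) (Trg.left (Trg.right (chamberNR 5 13))) :=
  leaf ok2 (G361 _ rfl) (G108 _ rfl) (G256 _ rfl) (by decide +kernel)
theorem l81 : HoldsN X2 (Trg.left (Trg.left (Trg.left (Trg.left (chamberN 5 13))))) (Trg.left (Trg.right (Trg.right (chamberNR 5 13)))) :=
  leaf ok2 (G342 _ rfl) (G204 _ rfl) (G305 _ rfl) (by decide +kernel)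
theorem l82 : HoldsN X2 (Trg.right (Trg.left (Trg.left (Trg.left (chamberN 5 13))))) (Trg.left (Trg.left (Trg.right (Trg.right (chamberNR 5 13))))) :=
  leaf ok2 (G375 _ rfl) (G178 _ rfl) (G291 _ rfl) (by decide +kernel)
theorem l83 : HoldsN X2 (Trg.right (Trg.left (Trg.left (Trg.left (chamberN 5 13))))) (Trg.right (Trg.left (Trg.right (Trg.right (chamberNR 5 13))))) :=
  leaf ok2 (G340 _ rfl) (G204 _ rfl) (G304 _ rfl) (by decide +kernel)
theorem l84 : HoldsN X2 (Trg.left (Trg.left (Trg.left (Trg.left (chamberN 5 13))))) (Trg.right (Trg.right (Trg.right (chamberNR 5 13)))) :=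
  leaf ok2 (G341 _ rfl) (G170 _ rfl) (G308 _ rfl) (by decide +kernel)
theorem l85 : HoldsN X2 (Trg.left (Trg.right (Trg.left (Trg.left (Trg.left (chamberN 5 13)))))) (Trg.right (Trg.right (Trg.right (chamberNR 5 13)))) :=
  leaf ok2 (G388 _ rfl) (G120 _ rfl) (G295 _ rfl) (by decide +kernel)
theorem l86 : HoldsN X2 (Trg.right (Trg.right (Trg.left (Trg.left (Trg.left (chamberN 5 13)))))) (Trg.right (Trg.right (Trg.right (chamberNR 5 13)))) :=
  leaf ok2 (G384 _ rfl) (G163 _ rfl) (G306 _ rfl) (by decide +kernel)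
theorem l87 : HoldsN X2 (Trg.right (Trg.left (Trg.left (chamberN 5 13)))) (Trg.left (Trg.left (Trg.right (Trg.right (chamberNR 5 13))))) :=
  leaf ok2 (G338 _ rfl) (G243 _ rfl) (G305 _ rfl) (by decide +kernel)
theorem l88 : HoldsN X2 (Trg.left (Trg.left (Trg.right (Trg.left (Trg.left (chamberN 5 13)))))) (Trg.right (Trg.left (Trg.right (Trg.right (chamberNR 5 13))))) :=
  leaf ok2 (G334 _ rfl) (G261 _ rfl) (G326 _ rfl) (by decide +kernel)
theorem l89 : HoldsN X2 (Trg.right (Trg.left (Trg.right (Trg.left (Trg.left (chamberN 5 13)))))) (Trg.right (Trg.left (Trg.right (Trg.right (chamberNR 5 13))))) :=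
  leaf ok2 (G331 _ rfl) (G302 _ rfl) (G326 _ rfl) (by decide +kernel)

end Vale.Agent.Lib.P154N.D7
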