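import Vale.Agent.Lib.P154N.D7.Data

/-!
# Leaves of the tree of triangles
-/

namespace Vale.Agent.Lib.P154N.D7

open Vale.Agent.Lib.P154K Vale.Agent.Lib.P154Neg

theorem l800 : HoldsN X7 (Trg.left (Trg.left (Trg.left (chamber 1 1)))) (Trg.right (Trg.left (Trg.left (chamberN 5 13)))) :=
  leaf ok7 (G97 _ rfl) (G278 _ rfl) (G321 _ rfl) (by decide +kernel)
theorem l801 : HoldsN X7 (Trg.left (Trg.left (Trg.left (chamber 1 1)))) (Trg.right (Trg.left (chamberN 5 13))) :=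
  leaf ok7 (G34 _ rfl) (G232 _ rfl) (G288 _ rfl) (by decide +kernel)
theorem l802 : HoldsN X7 (Trg.right (Trg.left (Trg.left (chamber 1 1)))) (Trg.left (chamberN 5 13)) :=
  leaf ok7 (G97 _ rfl) (G283 _ rfl) (G283 _ rfl) (by decide +kernel)
theorem l803 : HoldsN X7 (Trg.left (Trg.right (Trg.left (chamber 1 1)))) (Trg.left (Trg.left (Trg.left (chamberN 5 13)))) :=
  leaf ok7 (G53 _ rfl) (G372 _ rfl) (G227 _ rfl) (by decide +kernel)
theorem l804 : HoldsN X7 (Trg.left (Trg.right (Trg.right (Trg.left (chamber 1 1))))) (Trg.left (Trg.left (Trg.left (chamberN 5 13)))) :=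
  leaf ok7 (G32 _ rfl) (G287 _ rfl) (G393 _ rfl) (by decide +kernel)
theorem l805 : HoldsN X7 (Trg.right (Trg.right (Trg.right (Trg.left (chamber 1 1))))) (Trg.left (Trg.left (Trg.left (chamberN 5 13)))) :=
  leaf ok7 (G53 _ rfl) (G363 _ rfl) (G277 _ rfl) (by decide +kernel)
theorem l806 : HoldsN X7 (Trg.right (Trg.left (chamber 1 1))) (Trg.right (Trg.left (Trg.left (chamberN 5 13)))) :=
  leaf ok7 (G97 _ rfl) (G283 _ rfl) (G283 _ rfl) (by decide +kernel)
theorem l807 : HoldsN X7 (Trg.right (Trg.left (chamber 1 1))) (Trg.right (Trg.left (chamberN 5 13))) :=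
  leaf ok7 (G34 _ rfl) (G236 _ rfl) (G236 _ rfl) (by decide +kernel)
theorem l808 : HoldsN X7 (Trg.left (Trg.left (Trg.left (Trg.left (chamber 1 1))))) (Trg.left (Trg.right (chamberN 5 13))) :=
  leaf ok7 (G46 _ rfl) (G442 _ rfl) (G155 _ rfl) (by decide +kernel)
theorem l809 : HoldsN X7 (Trg.right (Trg.left (Trg.left (Trg.left (chamber 1 1))))) (Trg.left (Trg.left (Trg.right (chamberN 5 13)))) :=
  leaf ok7 (G17 _ rfl) (G441 _ rfl) (G359 _ rfl) (by decide +kernel)

end Vale.Agent.Lib.P154N.D7
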