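import Vale.Agent.Lib.P154N.D7.Data

/-!
# Leaves of the tree of triangles
-/

namespace Vale.Agent.Lib.P154N.D7

open Vale.Agent.Lib.P154K Vale.Agent.Lib.P154Neg

theorem l810 : HoldsN X7 (Trg.right (Trg.left (Trg.left (Trg.left (chamber 1 1))))) (Trg.left (Trg.right (Trg.left (Trg.right (chamberN 5 13))))) :=
  leaf ok7 (G7 _ rfl) (G467 _ rfl) (G355 _ rfl) (by decide +kernel)
theorem l811 : HoldsN X7 (Trg.right (Trg.left (Trg.left (Trg.left (chamber 1 1))))) (Trg.right (Trg.right (Trg.left (Trg.right (chamberN 5 13))))) :=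
  leaf ok7 (G17 _ rfl) (G453 _ rfl) (G355 _ rfl) (by decide +kernel)
theorem l812 : HoldsN X7 (Trg.right (Trg.left (Trg.left (chamber 1 1)))) (Trg.left (Trg.right (chamberN 5 13))) :=
  leaf ok7 (G69 _ rfl) (G362 _ rfl) (G156 _ rfl) (by decide +kernel)
theorem l813 : HoldsN X7 (Trg.left (Trg.left (Trg.left (Trg.right (Trg.left (chamber 1 1)))))) (Trg.left (Trg.left (Trg.left (Trg.right (chamberN 5 13))))) :=
  leaf ok7 (G41 _ rfl) (G473 _ rfl) (G167 _ rfl) (by decide +kernel)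
theorem l814 : HoldsN X7 (Trg.left (Trg.left (Trg.left (Trg.right (Trg.left (chamber 1 1)))))) (Trg.right (Trg.left (Trg.left (Trg.right (chamberN 5 13))))) :=
  leaf ok7 (G40 _ rfl) (G478 _ rfl) (G168 _ rfl) (by decide +kernel)
theorem l815 : HoldsN X7 (Trg.right (Trg.left (Trg.left (Trg.right (Trg.left (chamber 1 1)))))) (Trg.left (Trg.left (Trg.right (chamberN 5 13)))) :=
  leaf ok7 (G76 _ rfl) (G451 _ rfl) (G167 _ rfl) (by decide +kernel)
theorem l816 : HoldsN X7 (Trg.right (Trg.left (Trg.right (Trg.left (chamber 1 1))))) (Trg.left (Trg.left (Trg.left (Trg.left (Trg.right (chamberN 5 13)))))) :=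
  leaf ok7 (G40 _ rfl) (G480 _ rfl) (G126 _ rfl) (by decide +kernel)
theorem l817 : HoldsN X7 (Trg.right (Trg.left (Trg.right (Trg.left (chamber 1 1))))) (Trg.right (Trg.left (Trg.left (Trg.left (Trg.right (chamberN 5 13)))))) :=
  leaf ok7 (G70 _ rfl) (G470 _ rfl) (G138 _ rfl) (by decide +kernel)
theorem l818 : HoldsN X7 (Trg.right (Trg.left (Trg.right (Trg.left (chamber 1 1))))) (Trg.right (Trg.left (Trg.left (Trg.right (chamberN 5 13))))) :=
  leaf ok7 (G40 _ rfl) (G480 _ rfl) (G129 _ rfl) (by decide +kernel)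
theorem l819 : HoldsN X7 (Trg.left (Trg.right (Trg.left (chamber 1 1)))) (Trg.left (Trg.right (Trg.left (Trg.right (chamberN 5 13))))) :=
  leaf ok7 (G32 _ rfl) (G477 _ rfl) (G82 _ rfl) (by decide +kernel)

end Vale.Agent.Lib.P154N.D7
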