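import Vale.Agent.Lib.P154N.D7.Data

/-!
# Leaves of the tree of triangles
-/

namespace Vale.Agent.Lib.P154N.D7

open Vale.Agent.Lib.P154K Vale.Agent.Lib.P154Neg

theorem l820 : HoldsN X7 (Trg.left (Trg.left (Trg.left (Trg.right (Trg.left (chamber 1 1)))))) (Trg.left (Trg.right (Trg.right (Trg.left (Trg.right (chamberN 5 13)))))) :=
  leaf ok7 (G59 _ rfl) (G472 _ rfl) (G135 _ rfl) (by decide +kernel)
theorem l821 : HoldsN X7 (Trg.left (Trg.left (Trg.left (Trg.right (Trg.left (chamber 1 1)))))) (Trg.right (Trg.right (Trg.right (Trg.left (Trg.right (chamberN 5 13)))))) :=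
  leaf ok7 (G40 _ rfl) (G482 _ rfl) (G137 _ rfl) (by decide +kernel)
theorem l822 : HoldsN X7 (Trg.right (Trg.left (Trg.left (Trg.right (Trg.left (chamber 1 1)))))) (Trg.right (Trg.right (Trg.left (Trg.right (chamberN 5 13))))) :=
  leaf ok7 (G76 _ rfl) (G451 _ rfl) (G133 _ rfl) (by decide +kernel)
theorem l823 : HoldsN X7 (Trg.right (Trg.left (Trg.right (Trg.left (chamber 1 1))))) (Trg.left (Trg.right (Trg.right (Trg.left (Trg.right (chamberN 5 13)))))) :=
  leaf ok7 (G59 _ rfl) (G472 _ rfl) (G107 _ rfl) (by decide +kernel)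
theorem l824 : HoldsN X7 (Trg.right (Trg.left (Trg.right (Trg.left (chamber 1 1))))) (Trg.right (Trg.right (Trg.right (Trg.left (Trg.right (chamberN 5 13)))))) :=
  leaf ok7 (G40 _ rfl) (G485 _ rfl) (G109 _ rfl) (by decide +kernel)
theorem l825 : HoldsN X7 (Trg.left (Trg.right (Trg.right (Trg.left (chamber 1 1))))) (Trg.left (Trg.left (Trg.left (Trg.left (Trg.right (chamberN 5 13)))))) :=
  leaf ok7 (G15 _ rfl) (G473 _ rfl) (G322 _ rfl) (by decide +kernel)
theorem l826 : HoldsN X7 (Trg.left (Trg.left (Trg.right (Trg.right (Trg.left (chamber 1 1)))))) (Trg.right (Trg.left (Trg.left (Trg.left (Trg.right (chamberN 5 13)))))) :=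
  leaf ok7 (G48 _ rfl) (G469 _ rfl) (G275 _ rfl) (by decide +kernel)
theorem l827 : HoldsN X7 (Trg.right (Trg.left (Trg.right (Trg.right (Trg.left (chamber 1 1)))))) (Trg.right (Trg.left (Trg.left (Trg.left (Trg.right (chamberN 5 13)))))) :=
  leaf ok7 (G36 _ rfl) (G468 _ rfl) (G351 _ rfl) (by decide +kernel)
theorem l828 : HoldsN X7 (Trg.left (Trg.right (Trg.right (Trg.left (chamber 1 1))))) (Trg.right (Trg.left (Trg.left (Trg.right (chamberN 5 13))))) :=
  leaf ok7 (G15 _ rfl) (G473 _ rfl) (G359 _ rfl) (by decide +kernel)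
theorem l829 : HoldsN X7 (Trg.left (Trg.right (Trg.right (Trg.left (chamber 1 1))))) (Trg.left (Trg.right (Trg.left (Trg.right (chamberN 5 13))))) :=
  leaf ok7 (G6 _ rfl) (G488 _ rfl) (G231 _ rfl) (by decide +kernel)

end Vale.Agent.Lib.P154N.D7
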