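import Vale.Agent.Lib.P154N.D7.Data

/-!
# Leaves of the tree of triangles
-/

namespace Vale.Agent.Lib.P154N.D7

open Vale.Agent.Lib.P154K Vale.Agent.Lib.P154Neg

theorem l840 : HoldsN X7 (Trg.left (Trg.right (Trg.left (chamber 1 1)))) (Trg.left (Trg.left (Trg.right (Trg.right (chamberN 5 13))))) :=
  leaf ok7 (G94 _ rfl) (G415 _ rfl) (G146 _ rfl) (by decide +kernel)
theorem l841 : HoldsN X7 (Trg.left (Trg.right (Trg.left (chamber 1 1)))) (Trg.right (Trg.left (Trg.right (Trg.right (chamberN 5 13))))) :=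
  leaf ok7 (G116 _ rfl) (G354 _ rfl) (G219 _ rfl) (by decide +kernel)
theorem l842 : HoldsN X7 (Trg.left (Trg.right (Trg.right (Trg.left (chamber 1 1))))) (Trg.left (Trg.left (Trg.right (Trg.right (chamberN 5 13))))) :=
  leaf ok7 (G65 _ rfl) (G431 _ rfl) (G277 _ rfl) (by decide +kernel)
theorem l843 : HoldsN X7 (Trg.left (Trg.right (Trg.right (Trg.left (chamber 1 1))))) (Trg.right (Trg.left (Trg.right (Trg.right (chamberN 5 13))))) :=
  leaf ok7 (G97 _ rfl) (G352 _ rfl) (G318 _ rfl) (by decide +kernel)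
theorem l844 : HoldsN X7 (Trg.right (Trg.right (Trg.right (Trg.left (chamber 1 1))))) (Trg.left (Trg.left (Trg.right (Trg.right (chamberN 5 13))))) :=
  leaf ok7 (G94 _ rfl) (G415 _ rfl) (G220 _ rfl) (by decide +kernel)
theorem l845 : HoldsN X7 (Trg.right (Trg.right (Trg.right (Trg.left (chamber 1 1))))) (Trg.right (Trg.left (Trg.right (Trg.right (chamberN 5 13))))) :=
  leaf ok7 (G116 _ rfl) (G352 _ rfl) (G270 _ rfl) (by decide +kernel)
theorem l846 : HoldsN X7 (Trg.left (Trg.left (Trg.left (Trg.right (Trg.left (chamber 1 1)))))) (Trg.right (Trg.right (Trg.right (chamberN 5 13)))) :=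
  leaf ok7 (G51 _ rfl) (G439 _ rfl) (G189 _ rfl) (by decide +kernel)
theorem l847 : HoldsN X7 (Trg.right (Trg.left (Trg.left (Trg.right (Trg.left (chamber 1 1)))))) (Trg.right (Trg.right (Trg.right (chamberN 5 13)))) :=
  leaf ok7 (G89 _ rfl) (G422 _ rfl) (G184 _ rfl) (by decide +kernel)
theorem l848 : HoldsN X7 (Trg.right (Trg.left (Trg.right (Trg.left (chamber 1 1))))) (Trg.right (Trg.right (Trg.right (chamberN 5 13)))) :=
  leaf ok7 (G51 _ rfl) (G447 _ rfl) (G151 _ rfl) (by decide +kernel)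
theorem l849 : HoldsN X7 (Trg.left (Trg.right (Trg.right (Trg.left (chamber 1 1))))) (Trg.left (Trg.right (Trg.right (Trg.right (chamberN 5 13))))) :=
  leaf ok7 (G29 _ rfl) (G433 _ rfl) (G381 _ rfl) (by decide +kernel)

end Vale.Agent.Lib.P154N.D7
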