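import Vale.Agent.Lib.P154N.D7.Data

/-!
# Leaves of the tree of triangles
-/

namespace Vale.Agent.Lib.P154N.D7

open Vale.Agent.Lib.P154K Vale.Agent.Lib.P154Neg

theorem l850 : HoldsN X7 (Trg.left (Trg.right (Trg.right (Trg.left (chamber 1 1))))) (Trg.right (Trg.right (Trg.right (Trg.right (chamberN 5 13))))) :=
  leaf ok7 (G43 _ rfl) (G432 _ rfl) (G281 _ rfl) (by decide +kernel)
theorem l851 : HoldsN X7 (Trg.left (Trg.right (Trg.right (Trg.right (Trg.left (chamber 1 1)))))) (Trg.right (Trg.right (Trg.right (chamberN 5 13)))) :=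
  leaf ok7 (G73 _ rfl) (G421 _ rfl) (G226 _ rfl) (by decide +kernel)
theorem l852 : HoldsN X7 (Trg.right (Trg.right (Trg.right (Trg.right (Trg.left (chamber 1 1)))))) (Trg.right (Trg.right (Trg.right (chamberN 5 13)))) :=
  leaf ok7 (G50 _ rfl) (G433 _ rfl) (G255 _ rfl) (by decide +kernel)
theorem l853 : HoldsN X7 (Trg.left (Trg.left (Trg.right (chamber 1 1)))) (Trg.left (Trg.left (Trg.left (Trg.left (chamberN 5 13))))) :=
  leaf ok7 (G60 _ rfl) (G209 _ rfl) (G440 _ rfl) (by decide +kernel)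
theorem l854 : HoldsN X7 (Trg.left (Trg.left (Trg.right (chamber 1 1)))) (Trg.right (Trg.left (Trg.left (Trg.left (chamberN 5 13))))) :=
  leaf ok7 (G17 _ rfl) (G359 _ rfl) (G441 _ rfl) (by decide +kernel)
theorem l855 : HoldsN X7 (Trg.left (Trg.right (Trg.left (Trg.right (chamber 1 1))))) (Trg.left (Trg.left (Trg.left (Trg.left (chamberN 5 13))))) :=
  leaf ok7 (G44 _ rfl) (G152 _ rfl) (G466 _ rfl) (by decide +kernel)
theorem l856 : HoldsN X7 (Trg.left (Trg.right (Trg.left (Trg.right (chamber 1 1))))) (Trg.right (Trg.left (Trg.left (Trg.left (chamberN 5 13))))) :=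
  leaf ok7 (G7 _ rfl) (G355 _ rfl) (G467 _ rfl) (by decide +kernel)
theorem l857 : HoldsN X7 (Trg.right (Trg.right (Trg.left (Trg.right (chamber 1 1))))) (Trg.left (Trg.left (Trg.left (Trg.left (chamberN 5 13))))) :=
  leaf ok7 (G60 _ rfl) (G190 _ rfl) (G449 _ rfl) (by decide +kernel)
theorem l858 : HoldsN X7 (Trg.right (Trg.right (Trg.left (Trg.right (chamber 1 1))))) (Trg.right (Trg.left (Trg.left (Trg.left (chamberN 5 13))))) :=
  leaf ok7 (G17 _ rfl) (G355 _ rfl) (G453 _ rfl) (by decide +kernel)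
theorem l859 : HoldsN X7 (Trg.left (Trg.left (Trg.right (chamber 1 1)))) (Trg.right (Trg.left (Trg.left (chamberN 5 13)))) :=
  leaf ok7 (G75 _ rfl) (G210 _ rfl) (G358 _ rfl) (by decide +kernel)

end Vale.Agent.Lib.P154N.D7
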