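import Vale.Agent.Lib.P154N.D7.Data

/-!
# Leaves of the tree of triangles
-/

namespace Vale.Agent.Lib.P154N.D7

open Vale.Agent.Lib.P154K Vale.Agent.Lib.P154Neg

theorem l860 : HoldsN X7 (Trg.right (Trg.left (Trg.right (chamber 1 1)))) (Trg.right (Trg.left (Trg.left (chamberN 5 13)))) :=
  leaf ok7 (G69 _ rfl) (G153 _ rfl) (G362 _ rfl) (by decide +kernel)
theorem l861 : HoldsN X7 (Trg.left (Trg.left (Trg.right (chamber 1 1)))) (Trg.left (Trg.right (Trg.left (chamberN 5 13)))) :=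
  leaf ok7 (G42 _ rfl) (G129 _ rfl) (G455 _ rfl) (by decide +kernel)
theorem l862 : HoldsN X7 (Trg.left (Trg.left (Trg.right (chamber 1 1)))) (Trg.left (Trg.right (Trg.right (Trg.left (chamberN 5 13))))) :=
  leaf ok7 (G16 _ rfl) (G285 _ rfl) (G473 _ rfl) (by decide +kernel)
theorem l863 : HoldsN X7 (Trg.left (Trg.left (Trg.right (chamber 1 1)))) (Trg.right (Trg.right (Trg.right (Trg.left (chamberN 5 13))))) :=
  leaf ok7 (G42 _ rfl) (G208 _ rfl) (G454 _ rfl) (by decide +kernel)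
theorem l864 : HoldsN X7 (Trg.left (Trg.right (Trg.left (Trg.right (chamber 1 1))))) (Trg.left (Trg.right (Trg.left (chamberN 5 13)))) :=
  leaf ok7 (G32 _ rfl) (G82 _ rfl) (G477 _ rfl) (by decide +kernel)
theorem l865 : HoldsN X7 (Trg.left (Trg.right (Trg.left (Trg.right (chamber 1 1))))) (Trg.left (Trg.right (Trg.right (Trg.left (chamberN 5 13))))) :=
  leaf ok7 (G6 _ rfl) (G231 _ rfl) (G488 _ rfl) (by decide +kernel)
theorem l866 : HoldsN X7 (Trg.left (Trg.right (Trg.left (Trg.right (chamber 1 1))))) (Trg.right (Trg.right (Trg.right (Trg.left (chamberN 5 13))))) :=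
  leaf ok7 (G32 _ rfl) (G148 _ rfl) (G477 _ rfl) (by decide +kernel)
theorem l867 : HoldsN X7 (Trg.right (Trg.right (Trg.left (Trg.right (chamber 1 1))))) (Trg.left (Trg.right (Trg.left (chamberN 5 13)))) :=
  leaf ok7 (G42 _ rfl) (G109 _ rfl) (G455 _ rfl) (by decide +kernel)
theorem l868 : HoldsN X7 (Trg.right (Trg.right (Trg.left (Trg.right (chamber 1 1))))) (Trg.left (Trg.right (Trg.right (Trg.left (chamberN 5 13))))) :=
  leaf ok7 (G16 _ rfl) (G260 _ rfl) (G473 _ rfl) (by decide +kernel)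
theorem l869 : HoldsN X7 (Trg.right (Trg.right (Trg.left (Trg.right (chamber 1 1))))) (Trg.right (Trg.right (Trg.right (Trg.left (chamberN 5 13))))) :=
  leaf ok7 (G42 _ rfl) (G187 _ rfl) (G454 _ rfl) (by decide +kernel)

end Vale.Agent.Lib.P154N.D7
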