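import Vale.Agent.Lib.P154N.D7.Data

/-!
# Leaves of the tree of triangles
-/

namespace Vale.Agent.Lib.P154N.D7

open Vale.Agent.Lib.P154K Vale.Agent.Lib.P154Neg

theorem l880 : HoldsN X7 (Trg.left (Trg.left (Trg.right (chamber 1 1)))) (Trg.right (Trg.left (Trg.right (Trg.right (chamberN 5 13))))) :=
  leaf ok7 (G75 _ rfl) (G350 _ rfl) (G356 _ rfl) (by decide +kernel)
theorem l881 : HoldsN X7 (Trg.left (Trg.right (Trg.left (Trg.right (chamber 1 1))))) (Trg.left (Trg.left (Trg.right (Trg.right (chamberN 5 13))))) :=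
  leaf ok7 (G19 _ rfl) (G408 _ rfl) (G423 _ rfl) (by decide +kernel)
theorem l882 : HoldsN X7 (Trg.left (Trg.right (Trg.left (Trg.right (chamber 1 1))))) (Trg.right (Trg.left (Trg.right (Trg.right (chamberN 5 13))))) :=
  leaf ok7 (G69 _ rfl) (G350 _ rfl) (G362 _ rfl) (by decide +kernel)
theorem l883 : HoldsN X7 (Trg.right (Trg.right (Trg.left (Trg.right (chamber 1 1))))) (Trg.left (Trg.left (Trg.right (Trg.right (chamberN 5 13))))) :=
  leaf ok7 (G38 _ rfl) (G395 _ rfl) (G414 _ rfl) (by decide +kernel)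
theorem l884 : HoldsN X7 (Trg.right (Trg.right (Trg.left (Trg.right (chamber 1 1))))) (Trg.right (Trg.left (Trg.right (Trg.right (chamberN 5 13))))) :=
  leaf ok7 (G75 _ rfl) (G350 _ rfl) (G357 _ rfl) (by decide +kernel)
theorem l885 : HoldsN X7 (Trg.left (Trg.left (Trg.right (chamber 1 1)))) (Trg.right (Trg.right (Trg.right (chamberN 5 13)))) :=
  leaf ok7 (G17 _ rfl) (G395 _ rfl) (G417 _ rfl) (by decide +kernel)
theorem l886 : HoldsN X7 (Trg.right (Trg.left (Trg.right (chamber 1 1)))) (Trg.right (Trg.right (Trg.right (chamberN 5 13)))) :=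
  leaf ok7 (G8 _ rfl) (G395 _ rfl) (G459 _ rfl) (by decide +kernel)
theorem l887 : HoldsN X7 (Trg.left (Trg.right (Trg.right (chamber 1 1)))) (Trg.left (Trg.left (Trg.left (chamberN 5 13)))) :=
  leaf ok7 (G69 _ rfl) (G228 _ rfl) (G362 _ rfl) (by decide +kernel)
theorem l888 : HoldsN X7 (Trg.left (Trg.left (Trg.right (Trg.right (chamber 1 1))))) (Trg.left (Trg.left (Trg.right (Trg.left (Trg.left (chamberN 5 13)))))) :=
  leaf ok7 (G122 _ rfl) (G271 _ rfl) (G376 _ rfl) (by decide +kernel)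
theorem l889 : HoldsN X7 (Trg.left (Trg.left (Trg.left (Trg.right (Trg.right (chamber 1 1)))))) (Trg.right (Trg.left (Trg.right (Trg.left (Trg.left (chamberN 5 13)))))) :=
  leaf ok7 (G214 _ rfl) (G305 _ rfl) (G336 _ rfl) (by decide +kernel)

end Vale.Agent.Lib.P154N.D7
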