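import Vale.Agent.Lib.P154N.D7.Data

/-!
# Leaves of the tree of triangles
-/

namespace Vale.Agent.Lib.P154N.D7

open Vale.Agent.Lib.P154K Vale.Agent.Lib.P154Neg

theorem l890 : HoldsN X7 (Trg.right (Trg.left (Trg.left (Trg.right (Trg.right (chamber 1 1)))))) (Trg.right (Trg.left (Trg.right (Trg.left (Trg.left (chamberN 5 13)))))) :=
  leaf ok7 (G204 _ rfl) (G266 _ rfl) (G340 _ rfl) (by decide +kernel)
theorem l891 : HoldsN X7 (Trg.left (Trg.left (Trg.right (Trg.right (chamber 1 1))))) (Trg.right (Trg.right (Trg.left (Trg.left (chamberN 5 13))))) :=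
  leaf ok7 (G122 _ rfl) (G221 _ rfl) (G387 _ rfl) (by decide +kernel)
theorem l892 : HoldsN X7 (Trg.left (Trg.right (Trg.left (Trg.right (Trg.right (chamber 1 1)))))) (Trg.right (Trg.left (Trg.left (chamberN 5 13)))) :=
  leaf ok7 (G204 _ rfl) (G266 _ rfl) (G340 _ rfl) (by decide +kernel)
theorem l893 : HoldsN X7 (Trg.right (Trg.right (Trg.left (Trg.right (Trg.right (chamber 1 1)))))) (Trg.right (Trg.left (Trg.left (chamberN 5 13)))) :=
  leaf ok7 (G172 _ rfl) (G272 _ rfl) (G342 _ rfl) (by decide +kernel)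
theorem l894 : HoldsN X7 (Trg.left (Trg.right (Trg.right (chamber 1 1)))) (Trg.right (Trg.left (chamberN 5 13))) :=
  leaf ok7 (G69 _ rfl) (G156 _ rfl) (G362 _ rfl) (by decide +kernel)
theorem l895 : HoldsN X7 (Trg.right (Trg.right (Trg.right (chamber 1 1)))) (Trg.left (Trg.left (Trg.left (chamberN 5 13)))) :=
  leaf ok7 (G34 _ rfl) (G232 _ rfl) (G412 _ rfl) (by decide +kernel)
theorem l896 : HoldsN X7 (Trg.right (Trg.right (Trg.right (chamber 1 1)))) (Trg.right (Trg.left (Trg.left (chamberN 5 13)))) :=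
  leaf ok7 (G97 _ rfl) (G228 _ rfl) (G354 _ rfl) (by decide +kernel)
theorem l897 : HoldsN X7 (Trg.right (Trg.right (Trg.right (chamber 1 1)))) (Trg.right (Trg.left (chamberN 5 13))) :=
  leaf ok7 (G34 _ rfl) (G160 _ rfl) (G426 _ rfl) (by decide +kernel)
theorem l898 : HoldsN X7 (Trg.left (Trg.right (Trg.right (chamber 1 1)))) (Trg.left (Trg.right (chamberN 5 13))) :=
  leaf ok7 (G20 _ rfl) (G362 _ rfl) (G362 _ rfl) (by decide +kernel)
theorem l899 : HoldsN X7 (Trg.right (Trg.right (Trg.right (chamber 1 1)))) (Trg.left (Trg.right (chamberN 5 13))) :=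
  leaf ok7 (G8 _ rfl) (G418 _ rfl) (G395 _ rfl) (by decide +kernel)

end Vale.Agent.Lib.P154N.D7
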