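import Vale.Agent.Lib.P154N.D7.Data

/-!
# Leaves of the tree of triangles
-/

namespace Vale.Agent.Lib.P154N.D7

open Vale.Agent.Lib.P154K Vale.Agent.Lib.P154Neg

theorem l90 : HoldsN X2 (Trg.right (Trg.right (Trg.left (Trg.left (chamberN 5 13))))) (Trg.right (Trg.left (Trg.right (Trg.right (chamberNR 5 13))))) :=
  leaf ok2 (G334 _ rfl) (G261 _ rfl) (G327 _ rfl) (by decide +kernel)
theorem l91 : HoldsN X2 (Trg.right (Trg.left (Trg.left (chamberN 5 13)))) (Trg.right (Trg.right (Trg.right (chamberNR 5 13)))) :=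
  leaf ok2 (G340 _ rfl) (G204 _ rfl) (G309 _ rfl) (by decide +kernel)
theorem l92 : HoldsN X2 (Trg.left (Trg.right (Trg.left (chamberN 5 13)))) (Trg.left (Trg.right (Trg.right (chamberNR 5 13)))) :=
  leaf ok2 (G344 _ rfl) (G181 _ rfl) (G336 _ rfl) (by decide +kernel)
theorem l93 : HoldsN X2 (Trg.left (Trg.right (Trg.right (Trg.left (chamberN 5 13))))) (Trg.left (Trg.left (Trg.right (Trg.right (chamberNR 5 13))))) :=
  leaf ok2 (G386 _ rfl) (G177 _ rfl) (G293 _ rfl) (by decide +kernel)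
theorem l94 : HoldsN X2 (Trg.left (Trg.right (Trg.right (Trg.left (chamberN 5 13))))) (Trg.right (Trg.left (Trg.right (Trg.right (chamberNR 5 13))))) :=
  leaf ok2 (G340 _ rfl) (G204 _ rfl) (G305 _ rfl) (by decide +kernel)
theorem l95 : HoldsN X2 (Trg.right (Trg.right (Trg.right (Trg.left (chamberN 5 13))))) (Trg.left (Trg.right (Trg.right (chamberNR 5 13)))) :=
  leaf ok2 (G344 _ rfl) (G181 _ rfl) (G332 _ rfl) (by decide +kernel)
theorem l96 : HoldsN X2 (Trg.left (Trg.right (Trg.left (chamberN 5 13)))) (Trg.right (Trg.right (Trg.right (chamberNR 5 13)))) :=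
  leaf ok2 (G343 _ rfl) (G134 _ rfl) (G367 _ rfl) (by decide +kernel)
theorem l97 : HoldsN X2 (Trg.left (Trg.right (Trg.right (Trg.left (chamberN 5 13))))) (Trg.left (Trg.left (Trg.right (Trg.right (Trg.right (chamberNR 5 13)))))) :=
  leaf ok2 (G387 _ rfl) (G139 _ rfl) (G335 _ rfl) (by decide +kernel)
theorem l98 : HoldsN X2 (Trg.left (Trg.right (Trg.right (Trg.left (chamberN 5 13))))) (Trg.right (Trg.left (Trg.right (Trg.right (Trg.right (chamberNR 5 13)))))) :=
  leaf ok2 (G409 _ rfl) (G119 _ rfl) (G337 _ rfl) (by decide +kernel)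
theorem l99 : HoldsN X2 (Trg.left (Trg.left (Trg.right (Trg.right (Trg.left (chamberN 5 13)))))) (Trg.right (Trg.right (Trg.right (Trg.right (chamberNR 5 13))))) :=
  leaf ok2 (G385 _ rfl) (G162 _ rfl) (G328 _ rfl) (by decide +kernel)

end Vale.Agent.Lib.P154N.D7
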