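import Vale.Agent.Lib.P154N.D7.Data

/-!
# Leaves of the tree of triangles
-/

namespace Vale.Agent.Lib.P154N.D7

open Vale.Agent.Lib.P154K Vale.Agent.Lib.P154Neg

theorem l900 : HoldsN X7 (Trg.left (Trg.left (Trg.right (Trg.right (chamber 1 1))))) (Trg.left (Trg.left (Trg.right (Trg.right (chamberN 5 13))))) :=
  leaf ok7 (G78 _ rfl) (G369 _ rfl) (G369 _ rfl) (by decide +kernel)
theorem l901 : HoldsN X7 (Trg.left (Trg.left (Trg.left (Trg.right (Trg.right (chamber 1 1)))))) (Trg.left (Trg.right (Trg.left (Trg.right (Trg.right (chamberN 5 13)))))) :=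
  leaf ok7 (G181 _ rfl) (G340 _ rfl) (G336 _ rfl) (by decide +kernel)
theorem l902 : HoldsN X7 (Trg.right (Trg.left (Trg.left (Trg.right (Trg.right (chamber 1 1)))))) (Trg.left (Trg.right (Trg.left (Trg.right (Trg.right (chamberN 5 13)))))) :=
  leaf ok7 (G144 _ rfl) (G340 _ rfl) (G340 _ rfl) (by decide +kernel)
theorem l903 : HoldsN X7 (Trg.left (Trg.left (Trg.right (Trg.right (chamber 1 1))))) (Trg.right (Trg.right (Trg.left (Trg.right (Trg.right (chamberN 5 13)))))) :=
  leaf ok7 (G121 _ rfl) (G339 _ rfl) (G369 _ rfl) (by decide +kernel)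
theorem l904 : HoldsN X7 (Trg.right (Trg.left (Trg.right (Trg.right (chamber 1 1))))) (Trg.left (Trg.left (Trg.right (Trg.right (chamberN 5 13))))) :=
  leaf ok7 (G124 _ rfl) (G350 _ rfl) (G340 _ rfl) (by decide +kernel)
theorem l905 : HoldsN X7 (Trg.left (Trg.right (Trg.left (Trg.right (Trg.right (chamber 1 1)))))) (Trg.left (Trg.right (Trg.left (Trg.right (Trg.right (chamberN 5 13)))))) :=
  leaf ok7 (G214 _ rfl) (G334 _ rfl) (G334 _ rfl) (by decide +kernel)
theorem l906 : HoldsN X7 (Trg.left (Trg.right (Trg.left (Trg.right (Trg.right (chamber 1 1)))))) (Trg.right (Trg.right (Trg.left (Trg.right (Trg.right (chamberN 5 13)))))) :=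
  leaf ok7 (G204 _ rfl) (G334 _ rfl) (G340 _ rfl) (by decide +kernel)
theorem l907 : HoldsN X7 (Trg.right (Trg.right (Trg.left (Trg.right (Trg.right (chamber 1 1)))))) (Trg.right (Trg.left (Trg.right (Trg.right (chamberN 5 13))))) :=
  leaf ok7 (G172 _ rfl) (G340 _ rfl) (G340 _ rfl) (by decide +kernel)
theorem l908 : HoldsN X7 (Trg.left (Trg.right (Trg.right (chamber 1 1)))) (Trg.right (Trg.right (Trg.right (chamberN 5 13)))) :=
  leaf ok7 (G69 _ rfl) (G350 _ rfl) (G362 _ rfl) (by decide +kernel)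
theorem l909 : HoldsN X7 (Trg.right (Trg.right (Trg.right (chamber 1 1)))) (Trg.left (Trg.left (Trg.right (Trg.right (chamberN 5 13))))) :=
  leaf ok7 (G66 _ rfl) (G395 _ rfl) (G369 _ rfl) (by decide +kernel)

end Vale.Agent.Lib.P154N.D7
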