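import Vale.Agent.Lib.P154N.D7.Data

/-!
# Leaves of the tree of triangles
-/

namespace Vale.Agent.Lib.P154N.D7

open Vale.Agent.Lib.P154K Vale.Agent.Lib.P154Neg

theorem l930 : HoldsN X7 (Trg.right (Trg.left (Trg.right (Trg.left (chamber 1 1))))) (Trg.left (Trg.right (Trg.left (Trg.right (chamberNR 5 13))))) :=
  leaf ok7 (G30 _ rfl) (G488 _ rfl) (G79 _ rfl) (by decide +kernel)
theorem l931 : HoldsN X7 (Trg.left (Trg.left (Trg.right (Trg.left (chamber 1 1))))) (Trg.right (Trg.right (Trg.left (Trg.right (chamberNR 5 13))))) :=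
  leaf ok7 (G60 _ rfl) (G456 _ rfl) (G105 _ rfl) (by decide +kernel)
theorem l932 : HoldsN X7 (Trg.right (Trg.left (Trg.right (Trg.left (chamber 1 1))))) (Trg.left (Trg.right (Trg.right (Trg.left (Trg.right (chamberNR 5 13)))))) :=
  leaf ok7 (G59 _ rfl) (G472 _ rfl) (G105 _ rfl) (by decide +kernel)
theorem l933 : HoldsN X7 (Trg.right (Trg.left (Trg.right (Trg.left (chamber 1 1))))) (Trg.right (Trg.right (Trg.right (Trg.left (Trg.right (chamberNR 5 13)))))) :=
  leaf ok7 (G58 _ rfl) (G486 _ rfl) (G79 _ rfl) (by decide +kernel)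
theorem l934 : HoldsN X7 (Trg.left (Trg.right (Trg.right (Trg.left (chamber 1 1))))) (Trg.left (Trg.left (Trg.left (Trg.left (Trg.right (chamberNR 5 13)))))) :=
  leaf ok7 (G22 _ rfl) (G483 _ rfl) (G174 _ rfl) (by decide +kernel)
theorem l935 : HoldsN X7 (Trg.left (Trg.right (Trg.right (Trg.left (chamber 1 1))))) (Trg.right (Trg.left (Trg.left (Trg.left (Trg.right (chamberNR 5 13)))))) :=
  leaf ok7 (G37 _ rfl) (G471 _ rfl) (G188 _ rfl) (by decide +kernel)
theorem l936 : HoldsN X7 (Trg.left (Trg.right (Trg.right (Trg.left (chamber 1 1))))) (Trg.right (Trg.left (Trg.left (Trg.right (chamberNR 5 13))))) :=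
  leaf ok7 (G22 _ rfl) (G483 _ rfl) (G127 _ rfl) (by decide +kernel)
theorem l937 : HoldsN X7 (Trg.left (Trg.right (Trg.right (Trg.left (chamber 1 1))))) (Trg.left (Trg.right (Trg.left (Trg.right (chamberNR 5 13))))) :=
  leaf ok7 (G6 _ rfl) (G488 _ rfl) (G176 _ rfl) (by decide +kernel)
theorem l938 : HoldsN X7 (Trg.left (Trg.left (Trg.right (Trg.right (Trg.left (chamber 1 1)))))) (Trg.left (Trg.right (Trg.right (Trg.left (Trg.right (chamberNR 5 13)))))) :=
  leaf ok7 (G37 _ rfl) (G472 _ rfl) (G217 _ rfl) (by decide +kernel)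
theorem l939 : HoldsN X7 (Trg.right (Trg.left (Trg.right (Trg.right (Trg.left (chamber 1 1)))))) (Trg.left (Trg.right (Trg.right (Trg.left (Trg.right (chamberNR 5 13)))))) :=
  leaf ok7 (G26 _ rfl) (G472 _ rfl) (G301 _ rfl) (by decide +kernel)

end Vale.Agent.Lib.P154N.D7
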