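import Vale.Agent.Lib.P154N.D7.Data

/-!
# Leaves of the tree of triangles
-/

namespace Vale.Agent.Lib.P154N.D7

open Vale.Agent.Lib.P154K Vale.Agent.Lib.P154Neg

theorem l950 : HoldsN X7 (Trg.left (Trg.right (Trg.right (Trg.left (chamber 1 1))))) (Trg.left (Trg.left (Trg.right (Trg.right (chamberNR 5 13))))) :=
  leaf ok7 (G65 _ rfl) (G431 _ rfl) (G206 _ rfl) (by decide +kernel)
theorem l951 : HoldsN X7 (Trg.left (Trg.right (Trg.right (Trg.left (chamber 1 1))))) (Trg.right (Trg.left (Trg.right (Trg.right (chamberNR 5 13))))) :=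
  leaf ok7 (G116 _ rfl) (G358 _ rfl) (G205 _ rfl) (by decide +kernel)
theorem l952 : HoldsN X7 (Trg.right (Trg.right (Trg.right (Trg.left (chamber 1 1))))) (Trg.left (Trg.left (Trg.right (Trg.right (chamberNR 5 13))))) :=
  leaf ok7 (G96 _ rfl) (G415 _ rfl) (G203 _ rfl) (by decide +kernel)
theorem l953 : HoldsN X7 (Trg.right (Trg.right (Trg.right (Trg.left (chamber 1 1))))) (Trg.right (Trg.left (Trg.right (Trg.right (chamberNR 5 13))))) :=
  leaf ok7 (G172 _ rfl) (G356 _ rfl) (G204 _ rfl) (by decide +kernel)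
theorem l954 : HoldsN X7 (Trg.left (Trg.left (Trg.right (Trg.left (chamber 1 1))))) (Trg.right (Trg.right (Trg.right (chamberNR 5 13)))) :=
  leaf ok7 (G96 _ rfl) (G427 _ rfl) (G105 _ rfl) (by decide +kernel)
theorem l955 : HoldsN X7 (Trg.right (Trg.left (Trg.right (Trg.left (chamber 1 1))))) (Trg.right (Trg.right (Trg.right (chamberNR 5 13)))) :=
  leaf ok7 (G95 _ rfl) (G448 _ rfl) (G80 _ rfl) (by decide +kernel)
theorem l956 : HoldsN X7 (Trg.right (Trg.right (Trg.left (chamber 1 1)))) (Trg.right (Trg.right (Trg.right (chamberNR 5 13)))) :=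
  leaf ok7 (G54 _ rfl) (G428 _ rfl) (G128 _ rfl) (by decide +kernel)
theorem l957 : HoldsN X7 (Trg.left (Trg.left (Trg.right (chamber 1 1)))) (Trg.left (Trg.left (Trg.left (Trg.left (chamberNR 5 13))))) :=
  leaf ok7 (G74 _ rfl) (G452 _ rfl) (G146 _ rfl) (by decide +kernel)
theorem l958 : HoldsN X7 (Trg.left (Trg.left (Trg.right (chamber 1 1)))) (Trg.right (Trg.left (Trg.left (Trg.left (chamberNR 5 13))))) :=
  leaf ok7 (G23 _ rfl) (G457 _ rfl) (G188 _ rfl) (by decide +kernel)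
theorem l959 : HoldsN X7 (Trg.left (Trg.right (Trg.left (Trg.right (chamber 1 1))))) (Trg.left (Trg.left (Trg.left (Trg.left (chamberNR 5 13))))) :=
  leaf ok7 (G45 _ rfl) (G472 _ rfl) (G149 _ rfl) (by decide +kernel)

end Vale.Agent.Lib.P154N.D7
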