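import Vale.Agent.Lib.P154N.D7.Data

/-!
# Leaves of the tree of triangles
-/

namespace Vale.Agent.Lib.P154N.D7

open Vale.Agent.Lib.P154K Vale.Agent.Lib.P154Neg

theorem l970 : HoldsN X7 (Trg.left (Trg.left (Trg.right (chamber 1 1)))) (Trg.left (Trg.right (Trg.left (Trg.right (chamberNR 5 13))))) :=
  leaf ok7 (G2 _ rfl) (G477 _ rfl) (G396 _ rfl) (by decide +kernel)
theorem l971 : HoldsN X7 (Trg.left (Trg.left (Trg.right (chamber 1 1)))) (Trg.right (Trg.right (Trg.left (Trg.right (chamberNR 5 13))))) :=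
  leaf ok7 (G5 _ rfl) (G458 _ rfl) (G394 _ rfl) (by decide +kernel)
theorem l972 : HoldsN X7 (Trg.left (Trg.right (Trg.left (Trg.right (chamber 1 1))))) (Trg.left (Trg.left (Trg.right (chamberNR 5 13)))) :=
  leaf ok7 (G2 _ rfl) (G477 _ rfl) (G396 _ rfl) (by decide +kernel)
theorem l973 : HoldsN X7 (Trg.left (Trg.right (Trg.left (Trg.right (chamber 1 1))))) (Trg.left (Trg.right (Trg.left (Trg.right (chamberNR 5 13))))) :=
  leaf ok7 (G0 _ rfl) (G488 _ rfl) (G464 _ rfl) (by decide +kernel)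
theorem l974 : HoldsN X7 (Trg.left (Trg.right (Trg.left (Trg.right (chamber 1 1))))) (Trg.right (Trg.right (Trg.left (Trg.right (chamberNR 5 13))))) :=
  leaf ok7 (G2 _ rfl) (G477 _ rfl) (G462 _ rfl) (by decide +kernel)
theorem l975 : HoldsN X7 (Trg.right (Trg.right (Trg.left (Trg.right (chamber 1 1))))) (Trg.left (Trg.left (Trg.right (chamberNR 5 13)))) :=
  leaf ok7 (G5 _ rfl) (G458 _ rfl) (G394 _ rfl) (by decide +kernel)
theorem l976 : HoldsN X7 (Trg.right (Trg.right (Trg.left (Trg.right (chamber 1 1))))) (Trg.left (Trg.right (Trg.left (Trg.right (chamberNR 5 13))))) :=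
  leaf ok7 (G2 _ rfl) (G477 _ rfl) (G462 _ rfl) (by decide +kernel)
theorem l977 : HoldsN X7 (Trg.right (Trg.right (Trg.left (Trg.right (chamber 1 1))))) (Trg.right (Trg.right (Trg.left (Trg.right (chamberNR 5 13))))) :=
  leaf ok7 (G5 _ rfl) (G458 _ rfl) (G449 _ rfl) (by decide +kernel)
theorem l978 : HoldsN X7 (Trg.left (Trg.left (Trg.right (chamber 1 1)))) (Trg.left (Trg.left (Trg.right (Trg.right (chamberNR 5 13))))) :=
  leaf ok7 (G38 _ rfl) (G415 _ rfl) (G282 _ rfl) (by decide +kernel)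
theorem l979 : HoldsN X7 (Trg.left (Trg.left (Trg.right (chamber 1 1)))) (Trg.right (Trg.left (Trg.right (Trg.right (chamberNR 5 13))))) :=
  leaf ok7 (G90 _ rfl) (G360 _ rfl) (G274 _ rfl) (by decide +kernel)

end Vale.Agent.Lib.P154N.D7
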