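import Vale.Agent.Lib.P154N.D7.Data

/-!
# Leaves of the tree of triangles
-/

namespace Vale.Agent.Lib.P154N.D7

open Vale.Agent.Lib.P154K Vale.Agent.Lib.P154Neg

theorem l980 : HoldsN X7 (Trg.left (Trg.right (Trg.left (Trg.right (chamber 1 1))))) (Trg.left (Trg.left (Trg.right (Trg.right (chamberNR 5 13))))) :=
  leaf ok7 (G19 _ rfl) (G431 _ rfl) (G371 _ rfl) (by decide +kernel)
theorem l981 : HoldsN X7 (Trg.left (Trg.right (Trg.left (Trg.right (chamber 1 1))))) (Trg.right (Trg.left (Trg.right (Trg.right (chamberNR 5 13))))) :=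
  leaf ok7 (G69 _ rfl) (G362 _ rfl) (G350 _ rfl) (by decide +kernel)
theorem l982 : HoldsN X7 (Trg.right (Trg.right (Trg.left (Trg.right (chamber 1 1))))) (Trg.left (Trg.left (Trg.right (Trg.right (chamberNR 5 13))))) :=
  leaf ok7 (G38 _ rfl) (G415 _ rfl) (G370 _ rfl) (by decide +kernel)
theorem l983 : HoldsN X7 (Trg.right (Trg.right (Trg.left (Trg.right (chamber 1 1))))) (Trg.right (Trg.left (Trg.right (Trg.right (chamberNR 5 13))))) :=
  leaf ok7 (G90 _ rfl) (G360 _ rfl) (G345 _ rfl) (by decide +kernel)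
theorem l984 : HoldsN X7 (Trg.left (Trg.left (Trg.right (chamber 1 1)))) (Trg.right (Trg.right (Trg.right (chamberNR 5 13)))) :=
  leaf ok7 (G23 _ rfl) (G457 _ rfl) (G230 _ rfl) (by decide +kernel)
theorem l985 : HoldsN X7 (Trg.right (Trg.left (Trg.right (chamber 1 1)))) (Trg.right (Trg.right (Trg.right (chamberNR 5 13)))) :=
  leaf ok7 (G8 _ rfl) (G459 _ rfl) (G371 _ rfl) (by decide +kernel)
theorem l986 : HoldsN X7 (Trg.left (Trg.right (Trg.right (chamber 1 1)))) (Trg.left (Trg.left (Trg.left (chamberNR 5 13)))) :=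
  leaf ok7 (G69 _ rfl) (G362 _ rfl) (G224 _ rfl) (by decide +kernel)
theorem l987 : HoldsN X7 (Trg.left (Trg.left (Trg.right (Trg.right (chamber 1 1))))) (Trg.left (Trg.left (Trg.right (Trg.left (Trg.left (chamberNR 5 13)))))) :=
  leaf ok7 (G123 _ rfl) (G387 _ rfl) (G267 _ rfl) (by decide +kernel)
theorem l988 : HoldsN X7 (Trg.left (Trg.left (Trg.left (Trg.right (Trg.right (chamber 1 1)))))) (Trg.right (Trg.left (Trg.right (Trg.left (Trg.left (chamberNR 5 13)))))) :=
  leaf ok7 (G237 _ rfl) (G338 _ rfl) (G263 _ rfl) (by decide +kernel)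
theorem l989 : HoldsN X7 (Trg.right (Trg.left (Trg.left (Trg.right (Trg.right (chamber 1 1)))))) (Trg.right (Trg.left (Trg.right (Trg.left (Trg.left (chamberNR 5 13)))))) :=
  leaf ok7 (G204 _ rfl) (G340 _ rfl) (G265 _ rfl) (by decide +kernel)

end Vale.Agent.Lib.P154N.D7
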