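import Vale.Agent.Lib.P154N.D7.Data

/-!
# Leaves of the tree of triangles
-/

namespace Vale.Agent.Lib.P154N.D7

open Vale.Agent.Lib.P154K Vale.Agent.Lib.P154Neg

theorem l990 : HoldsN X7 (Trg.left (Trg.left (Trg.right (Trg.right (chamber 1 1))))) (Trg.right (Trg.right (Trg.left (Trg.left (chamberNR 5 13))))) :=
  leaf ok7 (G123 _ rfl) (G387 _ rfl) (G218 _ rfl) (by decide +kernel)
theorem l991 : HoldsN X7 (Trg.left (Trg.right (Trg.left (Trg.right (Trg.right (chamber 1 1)))))) (Trg.right (Trg.left (Trg.left (chamberNR 5 13)))) :=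
  leaf ok7 (G204 _ rfl) (G340 _ rfl) (G265 _ rfl) (by decide +kernel)
theorem l992 : HoldsN X7 (Trg.right (Trg.right (Trg.left (Trg.right (Trg.right (chamber 1 1)))))) (Trg.right (Trg.left (Trg.left (chamberNR 5 13)))) :=
  leaf ok7 (G196 _ rfl) (G345 _ rfl) (G216 _ rfl) (by decide +kernel)
theorem l993 : HoldsN X7 (Trg.left (Trg.right (Trg.right (chamber 1 1)))) (Trg.right (Trg.left (chamberNR 5 13))) :=
  leaf ok7 (G69 _ rfl) (G362 _ rfl) (G150 _ rfl) (by decide +kernel)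
theorem l994 : HoldsN X7 (Trg.right (Trg.right (Trg.right (chamber 1 1)))) (Trg.left (Trg.left (Trg.left (chamberNR 5 13)))) :=
  leaf ok7 (G54 _ rfl) (G428 _ rfl) (G149 _ rfl) (by decide +kernel)
theorem l995 : HoldsN X7 (Trg.right (Trg.right (Trg.right (chamber 1 1)))) (Trg.right (Trg.left (Trg.left (chamberNR 5 13)))) :=
  leaf ok7 (G116 _ rfl) (G358 _ rfl) (G147 _ rfl) (by decide +kernel)
theorem l996 : HoldsN X7 (Trg.right (Trg.right (Trg.right (chamber 1 1)))) (Trg.right (Trg.left (chamberNR 5 13))) :=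
  leaf ok7 (G54 _ rfl) (G428 _ rfl) (G83 _ rfl) (by decide +kernel)
theorem l997 : HoldsN X7 (Trg.left (Trg.right (Trg.right (chamber 1 1)))) (Trg.left (Trg.right (chamberNR 5 13))) :=
  leaf ok7 (G20 _ rfl) (G362 _ rfl) (G286 _ rfl) (by decide +kernel)
theorem l998 : HoldsN X7 (Trg.right (Trg.right (Trg.right (chamber 1 1)))) (Trg.left (Trg.right (chamberNR 5 13))) :=
  leaf ok7 (G8 _ rfl) (G459 _ rfl) (G233 _ rfl) (by decide +kernel)
theorem l999 : HoldsN X7 (Trg.left (Trg.left (Trg.right (Trg.right (chamber 1 1))))) (Trg.left (Trg.left (Trg.right (Trg.right (chamberNR 5 13))))) :=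
  leaf ok7 (G78 _ rfl) (G387 _ rfl) (G319 _ rfl) (by decide +kernel)

end Vale.Agent.Lib.P154N.D7
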